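import Mathlib

/-!
# Definitions for the statement: blocks, uniform spanning trees, exhaustions
-/

namespace Vale.Agent.Lib.P143

open SimpleGraph

variable {V : Type}

/-- Two edges are cycle-linked if some cycle of `G` contains both of them. -/
def CycleLinked (G : SimpleGraph V) (e f : Sym2 V) : Prop :=
  ∃ (v : V) (c : G.Walk v v), c.IsCycle ∧ e ∈ c.edges ∧ f ∈ c.edges

/-- The block of the edge `e`: the class of `e` for the equivalence relation generated by
`CycleLinked`.  (An edge lying on no cycle is a block by itself.) -/
def blockOf (G : SimpleGraph V) (e : Sym2 V) : Set (Sym2 V) :=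
  {f | Relation.EqvGen (CycleLinked G) e f}

/-- `F` (a graph on the ambient vertex type) is a spanning tree of the subgraph `H`:
its edges are edges of `H`, it has no cycle, and it connects any two vertices of `H`. -/
def IsSpanningTree (G : SimpleGraph V) (H : G.Subgraph) (F : SimpleGraph V) : Prop :=
  F ≤ H.spanningCoe ∧ F.IsAcyclic ∧ ∀ u ∈ H.verts, ∀ v ∈ H.verts, F.Reachable u v

/-- The probability, under the uniform spanning tree of `H`, that the tree meets `K`
exactly in `S`. -/
noncomputable def ustProb (G : SimpleGraph V) (H : G.Subgraph) (K S : Set (Sym2 V)) : ℝ :=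
  (Set.ncard {F | IsSpanningTree G H F ∧ F.edgeSet ∩ K = S} : ℝ) /
    (Set.ncard {F | IsSpanningTree G H F} : ℝ)

/-- An exhaustion of `G` by finite connected subgraphs. -/
structure IsExhaustion (G : SimpleGraph V) (H : ℕ → G.Subgraph) : Prop where
  finite : ∀ n, (H n).verts.Finite
  connected : ∀ n, (H n).Connected
  mono : Monotone H
  verts : ∀ v, ∃ n, v ∈ (H n).verts
  edges : ∀ e ∈ G.edgeSet, ∃ n, e ∈ (H n).edgeSet

end Vale.Agent.Lib.P143
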