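import Mathlib

/-!
# The sigma-algebra on the set of graphs with a given vertex set
-/

namespace Vale.Agent.Lib.P143

/-- The sigma-algebra on the set of graphs with vertex set `V` generated by the events
`{G | a and b are adjacent in G}`. -/
def graphMS (V : Type) : MeasurableSpace (SimpleGraph V) :=
  MeasurableSpace.generateFrom {s | ∃ a b : V, s = {G : SimpleGraph V | G.Adj a b}}

end Vale.Agent.Lib.P143
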