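import Mathlib
import Vale.Agent.Lib.P143.Defs

/-!
# Blocks, maximal acyclic subgraphs and uniform spanning trees

Graph-theoretic part of the development for the free uniform spanning forest of a graph
all of whose blocks are finite.
-/

namespace Vale.Agent.Lib.P143

open SimpleGraph

variable {V : Type}

/-- `F` is a maximal acyclic subgraph of `G₀`. -/
def MAcy (G₀ F : SimpleGraph V) : Prop :=
  Maximal (fun F' : SimpleGraph V => F' ≤ G₀ ∧ F'.IsAcyclic) F

/-- Number of maximal acyclic subgraphs of `G₀` meeting `K` exactly in `S`. -/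
noncomputable def cnt (G₀ : SimpleGraph V) (K S : Set (Sym2 V)) : ℕ :=
  Set.ncard {F | MAcy G₀ F ∧ F.edgeSet ∩ K = S}

/-! ### Blocks -/

theorem mem_blockOf_self (G : SimpleGraph V) (e : Sym2 V) : e ∈ blockOf G e :=
  Relation.EqvGen.refl e

theorem blockOf_eq_of_mem (G : SimpleGraph V) {e f : Sym2 V} (h : f ∈ blockOf G e) :
    blockOf G f = blockOf G e := by
  ext g
  constructor
  · intro hg
    exact Relation.EqvGen.trans _ _ _ h hg
  · intro hg
    exact Relation.EqvGen.trans _ _ _ (Relation.EqvGen.symm _ _ h) hg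

theorem blockOf_disjoint (G : SimpleGraph V) {e f : Sym2 V}
    (h : blockOf G e ≠ blockOf G f) : Disjoint (blockOf G e) (blockOf G f) := by
  rw [Set.disjoint_left]
  intro g hg hg'
  apply h
  rw [← blockOf_eq_of_mem G hg, blockOf_eq_of_mem G hg']

theorem eqvGen_mem_edgeSet (G : SimpleGraph V) {e f : Sym2 V}
    (h : Relation.EqvGen (CycleLinked G) e f) : e ∈ G.edgeSet ↔ f ∈ G.edgeSet := by
  induction h with
  | rel x y hxy =>
    obtain ⟨v, c, _, hx, hy⟩ := hxy
    exact ⟨fun _ => c.edges_subset_edgeSet hy, fun _ => c.edges_subset_edgeSet hx⟩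
  | refl x => exact Iff.rfl
  | symm x y _ ih => exact ih.symm
  | trans x y z _ _ ih1 ih2 => exact ih1.trans ih2

theorem blockOf_subset_edgeSet (G : SimpleGraph V) {e : Sym2 V} (he : e ∈ G.edgeSet) :
    blockOf G e ⊆ G.edgeSet := fun _ hf => (eqvGen_mem_edgeSet G hf).mp he

/-- Every cycle of a subgraph of `G` lies inside a block or avoids it. -/
theorem block_cycle_closed (G : SimpleGraph V) {G₀ : SimpleGraph V} (hle : G₀ ≤ G)
    (e₀ : Sym2 V) (v : V) (c : G₀.Walk v v) (hc : c.IsCycle) :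
    (∀ e ∈ c.edges, e ∈ blockOf G e₀) ∨ (∀ e ∈ c.edges, e ∉ blockOf G e₀) := by
  by_cases h : ∃ e ∈ c.edges, e ∈ blockOf G e₀
  · left
    obtain ⟨e, he, heB⟩ := h
    intro f hf
    refine Relation.EqvGen.trans _ _ _ heB (Relation.EqvGen.rel _ _ ?_)
    exact ⟨v, c.mapLe hle, hc.mapLe hle, by simpa using he, by simpa using hf⟩
  · right
    push Not at h
    exact h

/-! ### Maximal acyclic subgraphs -/

theorem macy_iff {G₀ F : SimpleGraph V} :
    MAcy G₀ F ↔ F ≤ G₀ ∧ F.IsAcyclic ∧ ∀ u v, G₀.Adj u v → F.Reachable u v := by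
  constructor
  · intro h
    have h1 := h.prop
    refine ⟨h1.1, h1.2, ?_⟩
    have h2 := G₀.reachable_eq_of_maximal_isAcyclic F h
    intro u v huv
    rw [h2]
    exact huv.reachable
  · rintro ⟨hle, hac, hr⟩
    rw [MAcy, maximal_isAcyclic_iff_reachable_eq hle hac]
    funext u v
    apply propext
    constructor
    · exact Reachable.mono hle
    · rintro ⟨p⟩
      induction p with
      | nil => exact Reachable.refl _
      | cons h p ih => exact (hr _ _ h).trans ih

theorem macy_deleteEdges {G₀ F : SimpleGraph V} {P : Set (Sym2 V)}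
    (hP : ∀ (v : V) (c : G₀.Walk v v), c.IsCycle →
      (∀ e ∈ c.edges, e ∈ P) ∨ (∀ e ∈ c.edges, e ∉ P))
    (h : MAcy G₀ F) : MAcy (G₀.deleteEdges Pᶜ) (F.deleteEdges Pᶜ) := by
  rw [macy_iff] at h ⊢
  obtain ⟨hle, hac, hr⟩ := h
  refine ⟨deleteEdges_mono hle, hac.anti (deleteEdges_le _), ?_⟩
  intro u v huv
  rw [deleteEdges_adj] at huv
  have huvP : s(u, v) ∈ P := by simpa using huv.2
  by_cases hF : F.Adj u v
  · exact (deleteEdges_adj.mpr ⟨hF, by simpa using huvP⟩ : (F.deleteEdges Pᶜ).Adj u v).reachable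
  · obtain ⟨p, hp⟩ := (hr u v huv.1).exists_isPath
    have hnot : s(u, v) ∉ p.edges := fun hmem => hF (p.edges_subset_edgeSet hmem)
    have hc : (Walk.cons huv.1.symm (p.mapLe hle)).IsCycle := by
      rw [Walk.cons_isCycle_iff]
      refine ⟨hp.mapLe hle, ?_⟩
      rw [Walk.edges_mapLe_eq_edges, Sym2.eq_swap]
      exact hnot
    rcases hP v _ hc with hall | hnone
    · have hedges : ∀ e ∈ p.edges, e ∈ (F.deleteEdges Pᶜ).edgeSet := by
        intro e he
        rw [edgeSet_deleteEdges]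
        refine ⟨p.edges_subset_edgeSet he, ?_⟩
        have := hall e (by simp [he])
        simpa using this
      exact ⟨p.transfer _ hedges⟩
    · exfalso
      apply hnone s(v, u) (by simp)
      rw [Sym2.eq_swap]
      exact huvP

theorem macy_deleteEdges' {G₀ F : SimpleGraph V} {P : Set (Sym2 V)}
    (hP : ∀ (v : V) (c : G₀.Walk v v), c.IsCycle →
      (∀ e ∈ c.edges, e ∈ P) ∨ (∀ e ∈ c.edges, e ∉ P))
    (h : MAcy G₀ F) : MAcy (G₀.deleteEdges P) (F.deleteEdges P) := by
  have hP' : ∀ (v : V) (c : G₀.Walk v v), c.IsCycle →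
      (∀ e ∈ c.edges, e ∈ Pᶜ) ∨ (∀ e ∈ c.edges, e ∉ Pᶜ) := by
    intro v c hc
    rcases hP v c hc with h1 | h1
    · right
      intro e he
      simpa using h1 e he
    · left
      intro e he
      simpa using h1 e he
  have := macy_deleteEdges hP' h
  simpa using this

theorem macy_of_deleteEdges {G₀ F : SimpleGraph V} {P : Set (Sym2 V)}
    (hP : ∀ (v : V) (c : G₀.Walk v v), c.IsCycle →
      (∀ e ∈ c.edges, e ∈ P) ∨ (∀ e ∈ c.edges, e ∉ P))
    (hle : F ≤ G₀) (h1 : MAcy (G₀.deleteEdges Pᶜ) (F.deleteEdges Pᶜ))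
    (h2 : MAcy (G₀.deleteEdges P) (F.deleteEdges P)) : MAcy G₀ F := by
  rw [macy_iff] at h1 h2 ⊢
  refine ⟨hle, ?_, ?_⟩
  · intro v c hc
    have hc' : (c.mapLe hle).IsCycle := hc.mapLe hle
    rcases hP v _ hc' with hall | hnone
    · have hedges : ∀ e ∈ c.edges, e ∈ (F.deleteEdges Pᶜ).edgeSet := by
        intro e he
        rw [edgeSet_deleteEdges]
        refine ⟨c.edges_subset_edgeSet he, ?_⟩
        have := hall e (by simpa using he)
        simpa using this
      exact h1.2.1 (c.transfer _ hedges) (hc.transfer hedges)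
    · have hedges : ∀ e ∈ c.edges, e ∈ (F.deleteEdges P).edgeSet := by
        intro e he
        rw [edgeSet_deleteEdges]
        exact ⟨c.edges_subset_edgeSet he, hnone e (by simpa using he)⟩
      exact h2.2.1 (c.transfer _ hedges) (hc.transfer hedges)
  · intro u v huv
    by_cases hPuv : s(u, v) ∈ P
    · exact (h1.2.2 u v (deleteEdges_adj.mpr ⟨huv, by simpa using hPuv⟩)).mono (deleteEdges_le _)
    · exact (h2.2.2 u v (deleteEdges_adj.mpr ⟨huv, hPuv⟩)).mono (deleteEdges_le _)

theorem deleteEdges_sup_compl (F : SimpleGraph V) (P : Set (Sym2 V)) :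
    F.deleteEdges Pᶜ ⊔ F.deleteEdges P = F := by
  ext a b
  simp only [sup_adj, deleteEdges_adj, Set.mem_compl_iff, not_not]
  tauto

/-- The product formula for the number of maximal acyclic subgraphs. -/
theorem cnt_split {G₀ : SimpleGraph V} {P : Set (Sym2 V)}
    (hP : ∀ (v : V) (c : G₀.Walk v v), c.IsCycle →
      (∀ e ∈ c.edges, e ∈ P) ∨ (∀ e ∈ c.edges, e ∉ P))
    (K S : Set (Sym2 V)) :
    cnt G₀ K S = cnt (G₀.deleteEdges Pᶜ) (K ∩ P) (S ∩ P) * cnt (G₀.deleteEdges P) (K \ P) (S \ P) := by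
  unfold cnt
  rw [← Set.ncard_prod]
  refine Set.ncard_congr (fun F _ => (F.deleteEdges Pᶜ, F.deleteEdges P)) ?_ ?_ ?_
  · rintro F ⟨hF, hK⟩
    refine ⟨⟨macy_deleteEdges hP hF, ?_⟩, ⟨macy_deleteEdges' hP hF, ?_⟩⟩
    · rw [edgeSet_deleteEdges, ← hK]
      ext e
      simp only [Set.mem_inter_iff, Set.mem_sdiff, Set.mem_compl_iff, not_not]
      tauto
    · rw [edgeSet_deleteEdges, ← hK]
      ext e
      simp only [Set.mem_inter_iff, Set.mem_sdiff]
      tauto
  · rintro F F' _ _ h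
    simp only [Prod.mk.injEq] at h
    rw [← deleteEdges_sup_compl F P, ← deleteEdges_sup_compl F' P, h.1, h.2]
  · rintro ⟨F₁, F₂⟩ ⟨⟨hF₁, hK₁⟩, ⟨hF₂, hK₂⟩⟩
    have hle₁ : F₁ ≤ G₀.deleteEdges Pᶜ := hF₁.prop.1
    have hle₂ : F₂ ≤ G₀.deleteEdges P := hF₂.prop.1
    have hP₁ : ∀ a b, F₁.Adj a b → s(a, b) ∈ P := by
      intro a b hab
      have := (deleteEdges_adj.mp (hle₁ hab)).2
      simpa using this
    have hP₂ : ∀ a b, F₂.Adj a b → s(a, b) ∉ P := by
      intro a b hab
      exact (deleteEdges_adj.mp (hle₂ hab)).2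
    have e1 : (F₁ ⊔ F₂).deleteEdges Pᶜ = F₁ := by
      ext a b
      simp only [deleteEdges_adj, sup_adj, Set.mem_compl_iff, not_not]
      constructor
      · rintro ⟨h | h, hp⟩
        · exact h
        · exact absurd hp (hP₂ a b h)
      · intro h
        exact ⟨Or.inl h, hP₁ a b h⟩
    have e2 : (F₁ ⊔ F₂).deleteEdges P = F₂ := by
      ext a b
      simp only [deleteEdges_adj, sup_adj]
      constructor
      · rintro ⟨h | h, hp⟩
        · exact absurd (hP₁ a b h) hp
        · exact h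
      · intro h
        exact ⟨Or.inr h, hP₂ a b h⟩
    have hle : F₁ ⊔ F₂ ≤ G₀ :=
      sup_le (hle₁.trans (deleteEdges_le _)) (hle₂.trans (deleteEdges_le _))
    refine ⟨F₁ ⊔ F₂, ⟨macy_of_deleteEdges hP hle (by rw [e1]; exact hF₁) (by rw [e2]; exact hF₂), ?_⟩,
      by rw [e1, e2]⟩
    have hs₁ : ∀ e, e ∈ F₁.edgeSet → e ∈ P := by
      intro e
      induction e with
      | h a b => exact fun h => hP₁ a b h
    have hs₂ : ∀ e, e ∈ F₂.edgeSet → e ∉ P := by
      intro e
      induction e with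
      | h a b => exact fun h => hP₂ a b h
    rw [edgeSet_sup]
    ext e
    have k1 := Set.ext_iff.mp hK₁ e
    have k2 := Set.ext_iff.mp hK₂ e
    simp only [Set.mem_inter_iff, Set.mem_sdiff, Set.mem_union] at k1 k2 ⊢
    have := hs₁ e
    have := hs₂ e
    tauto


/-! ### Finiteness -/

theorem finite_le_of_finite_edgeSet (G₀ : SimpleGraph V) (h : G₀.edgeSet.Finite) :
    {F : SimpleGraph V | F ≤ G₀}.Finite := by
  apply Set.Finite.of_finite_image (f := SimpleGraph.edgeSet) ?_ edgeSet_injective.injOn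
  apply (h.finite_subsets).subset
  rintro _ ⟨F, hF, rfl⟩
  exact edgeSet_subset_edgeSet.mpr hF

theorem finite_macy (G₀ : SimpleGraph V) (h : G₀.edgeSet.Finite) :
    {F : SimpleGraph V | MAcy G₀ F}.Finite :=
  (finite_le_of_finite_edgeSet G₀ h).subset (fun _ hF => (macy_iff.mp hF).1)

theorem cnt_empty (G₀ : SimpleGraph V) : cnt G₀ ∅ ∅ = Set.ncard {F | MAcy G₀ F} := by
  unfold cnt
  congr 1
  ext F
  simp

theorem cnt_empty_ne_zero (G₀ : SimpleGraph V) (h : G₀.edgeSet.Finite) : cnt G₀ ∅ ∅ ≠ 0 := by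
  rw [cnt_empty]
  obtain ⟨F, -, hF⟩ := G₀.exists_maximal_isAcyclic_of_le_isAcyclic bot_le isAcyclic_bot
  exact Set.ncard_ne_zero_of_mem (a := F) hF (finite_macy G₀ h)

theorem edgeSet_fromEdgeSet_of_subset (G : SimpleGraph V) {B : Set (Sym2 V)} (hB : B ⊆ G.edgeSet) :
    (fromEdgeSet B).edgeSet = B := by
  rw [edgeSet_fromEdgeSet]
  ext e
  simp only [Set.mem_sdiff, and_iff_left_iff_imp]
  intro he
  exact G.not_isDiag_of_mem_edgeSet (hB he)

/-! ### The product formula over blocks -/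

open Classical in
theorem cnt_blocks (G : SimpleGraph V) (BB : Finset (Set (Sym2 V))) :
    ∀ G₀ : SimpleGraph V, G₀ ≤ G → (∀ B ∈ BB, ∃ e, B = blockOf G e) →
      (∀ B ∈ BB, B ⊆ G₀.edgeSet) → ∀ K S : Set (Sym2 V),
      cnt G₀ K S = (∏ B ∈ BB, cnt (fromEdgeSet B) (K ∩ B) (S ∩ B)) *
        cnt (G₀.deleteEdges (⋃ B ∈ BB, B)) (K \ ⋃ B ∈ BB, B) (S \ ⋃ B ∈ BB, B) := by
  induction BB using Finset.induction_on with
  | empty =>
    intro G₀ _ _ _ K S
    simp
  | insert B BB' hB ih =>
    intro G₀ hle hblk hsub K S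
    have ih' := ih G₀ hle (fun B' hB' => hblk B' (Finset.mem_insert_of_mem hB'))
      (fun B' hB' => hsub B' (Finset.mem_insert_of_mem hB')) K S
    obtain ⟨e₀, he₀⟩ := hblk B (Finset.mem_insert_self B BB')
    have hBsub : B ⊆ G₀.edgeSet := hsub B (Finset.mem_insert_self B BB')
    have hdisj : ∀ e ∈ B, e ∉ ⋃ B' ∈ BB', B' := by
      intro e heB heU
      simp only [Set.mem_iUnion, exists_prop] at heU
      obtain ⟨B', hB', heB'⟩ := heU
      obtain ⟨e₁, he₁⟩ := hblk B' (Finset.mem_insert_of_mem hB')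
      have hne : blockOf G e₀ ≠ blockOf G e₁ := by
        intro h
        apply hB
        rw [he₀, h, ← he₁]
        exact hB'
      have := Set.disjoint_left.mp (blockOf_disjoint G hne)
      rw [he₀] at heB
      rw [he₁] at heB'
      exact this heB heB'
    have hP : ∀ (v : V) (c : (G₀.deleteEdges (⋃ B' ∈ BB', B')).Walk v v), c.IsCycle →
        (∀ e ∈ c.edges, e ∈ B) ∨ (∀ e ∈ c.edges, e ∉ B) := by
      intro v c hc
      rw [he₀]
      exact block_cycle_closed G ((deleteEdges_le _).trans hle) e₀ v c hc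
    have hsplit := cnt_split hP (K \ ⋃ B' ∈ BB', B') (S \ ⋃ B' ∈ BB', B')
    have e1 : (G₀.deleteEdges (⋃ B' ∈ BB', B')).deleteEdges Bᶜ = fromEdgeSet B := by
      apply edgeSet_injective
      rw [edgeSet_deleteEdges, edgeSet_deleteEdges,
        edgeSet_fromEdgeSet_of_subset G (hBsub.trans (edgeSet_subset_edgeSet.mpr hle))]
      ext e
      simp only [Set.mem_sdiff, Set.mem_compl_iff, not_not]
      constructor
      · exact fun h => h.2
      · exact fun h => ⟨⟨hBsub h, hdisj e h⟩, h⟩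
    have e2 : (K \ ⋃ B' ∈ BB', B') ∩ B = K ∩ B := by
      ext e
      simp only [Set.mem_inter_iff, Set.mem_sdiff]
      constructor
      · exact fun h => ⟨h.1.1, h.2⟩
      · exact fun h => ⟨⟨h.1, hdisj e h.2⟩, h.2⟩
    have e3 : (S \ ⋃ B' ∈ BB', B') ∩ B = S ∩ B := by
      ext e
      simp only [Set.mem_inter_iff, Set.mem_sdiff]
      constructor
      · exact fun h => ⟨h.1.1, h.2⟩
      · exact fun h => ⟨⟨h.1, hdisj e h.2⟩, h.2⟩
    have e4 : (⋃ B' ∈ insert B BB', B') = (⋃ B' ∈ BB', B') ∪ B := by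
      rw [Finset.set_biUnion_insert, Set.union_comm]
    rw [e1, e2, e3, deleteEdges_deleteEdges, Set.sdiff_sdiff, Set.sdiff_sdiff] at hsplit
    rw [ih', hsplit, Finset.prod_insert hB, e4]
    ring

open Classical in
/-- The finite set of blocks meeting the finite edge set `K`. -/
noncomputable def blocksOf (G : SimpleGraph V) (K : Set (Sym2 V)) (hK : K.Finite) :
    Finset (Set (Sym2 V)) :=
  hK.toFinset.image (blockOf G)

/-- The product over the blocks meeting `K` of the probabilities that a uniform maximal acyclic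
subgraph of the block meets `K` exactly in `S`. -/
noncomputable def blockProb (G : SimpleGraph V) (K S : Set (Sym2 V)) (hK : K.Finite) : ℝ :=
  ∏ B ∈ blocksOf G K hK,
    (cnt (fromEdgeSet B) (K ∩ B) (S ∩ B) : ℝ) / (cnt (fromEdgeSet B) ∅ ∅ : ℝ)

theorem mem_blocksOf (G : SimpleGraph V) (K : Set (Sym2 V)) (hK : K.Finite) (B : Set (Sym2 V)) :
    B ∈ blocksOf G K hK ↔ ∃ e ∈ K, blockOf G e = B := by
  classical
  simp [blocksOf]

/-! ### Spanning trees -/

theorem isSpanningTree_iff_macy (G : SimpleGraph V) (H : G.Subgraph) (hH : H.Connected)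
    (F : SimpleGraph V) : IsSpanningTree G H F ↔ MAcy H.spanningCoe F := by
  rw [macy_iff, IsSpanningTree]
  constructor
  · rintro ⟨hle, hac, hr⟩
    refine ⟨hle, hac, fun u v huv => ?_⟩
    have huv' : H.Adj u v := huv
    exact hr u (H.edge_vert huv') v (H.edge_vert huv'.symm)
  · rintro ⟨hle, hac, hr⟩
    refine ⟨hle, hac, fun u hu v hv => ?_⟩
    have key : ∀ a b, H.spanningCoe.Reachable a b → F.Reachable a b := by
      rintro a b ⟨p⟩
      induction p with
      | nil => exact Reachable.refl _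
      | cons h p ih => exact (hr _ _ h).trans ih
    have h1 : H.coe.Reachable ⟨u, hu⟩ ⟨v, hv⟩ := hH.coe.preconnected ⟨u, hu⟩ ⟨v, hv⟩
    exact key u v (h1.map (H.coeEmbeddingSpanningCoe).toHom)

theorem finite_edgeSet_of_finite_verts (G : SimpleGraph V) (H : G.Subgraph)
    (hfin : H.verts.Finite) : H.spanningCoe.edgeSet.Finite := by
  apply ((hfin.prod hfin).image (fun p : V × V => s(p.1, p.2))).subset
  intro e
  induction e with
  | h a b =>
    intro hab
    have hab' : H.Adj a b := hab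
    exact ⟨(a, b), ⟨H.edge_vert hab', H.edge_vert hab'.symm⟩, rfl⟩

/-- If `H` is a finite connected subgraph of `G` containing all blocks of `G` that meet `K`,
then the law of the uniform spanning tree of `H` on `K` is given by the block product. -/
theorem ustProb_eq_blockProb (G : SimpleGraph V) (H : G.Subgraph) (hfin : H.verts.Finite)
    (hH : H.Connected) (K S : Set (Sym2 V)) (hK : K.Finite) (hSK : S ⊆ K)
    (hB : ∀ B ∈ blocksOf G K hK, B ⊆ H.edgeSet) :
    ustProb G H K S = blockProb G K S hK := by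
  classical
  have hnum : {F | IsSpanningTree G H F ∧ F.edgeSet ∩ K = S} =
      {F | MAcy H.spanningCoe F ∧ F.edgeSet ∩ K = S} := by
    ext F
    simp only [Set.mem_ofPred_eq, isSpanningTree_iff_macy G H hH]
  have hden : {F | IsSpanningTree G H F} = {F | MAcy H.spanningCoe F} := by
    ext F
    simp only [Set.mem_ofPred_eq, isSpanningTree_iff_macy G H hH]
  have hblk : ∀ B ∈ blocksOf G K hK, ∃ e, B = blockOf G e := by
    intro B hB'
    obtain ⟨e, -, he⟩ := (mem_blocksOf G K hK B).mp hB'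
    exact ⟨e, he.symm⟩
  have hsub : ∀ B ∈ blocksOf G K hK, B ⊆ H.spanningCoe.edgeSet := by
    intro B hB'
    rw [Subgraph.edgeSet_spanningCoe]
    exact hB B hB'
  have hKU : K \ (⋃ B ∈ blocksOf G K hK, B) = ∅ := by
    rw [Set.sdiff_eq_empty]
    intro e he
    simp only [Set.mem_iUnion, exists_prop]
    exact ⟨blockOf G e, (mem_blocksOf G K hK _).mpr ⟨e, he, rfl⟩, mem_blockOf_self G e⟩
  have hSU : S \ (⋃ B ∈ blocksOf G K hK, B) = ∅ := by
    rw [Set.sdiff_eq_empty]
    exact hSK.trans (Set.sdiff_eq_empty.mp hKU)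
  have h1 := cnt_blocks G (blocksOf G K hK) H.spanningCoe H.spanningCoe_le hblk hsub K S
  have h2 := cnt_blocks G (blocksOf G K hK) H.spanningCoe H.spanningCoe_le hblk hsub ∅ ∅
  rw [hKU, hSU] at h1
  simp only [Set.empty_inter, Set.empty_sdiff] at h2
  have hr : cnt (H.spanningCoe.deleteEdges (⋃ B ∈ blocksOf G K hK, B)) ∅ ∅ ≠ 0 := by
    apply cnt_empty_ne_zero
    apply (finite_edgeSet_of_finite_verts G H hfin).subset
    exact edgeSet_subset_edgeSet.mpr (deleteEdges_le _)
  have hr' : (cnt (H.spanningCoe.deleteEdges (⋃ B ∈ blocksOf G K hK, B)) ∅ ∅ : ℝ) ≠ 0 := by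
    exact_mod_cast hr
  unfold ustProb blockProb
  rw [hnum, hden]
  have hden' : Set.ncard {F | MAcy H.spanningCoe F} = cnt H.spanningCoe ∅ ∅ := (cnt_empty _).symm
  rw [hden']
  change ((cnt H.spanningCoe K S : ℕ) : ℝ) / _ = _
  rw [h1, h2]
  push_cast
  rw [mul_div_mul_right _ _ hr', Finset.prod_div_distrib]

/-- Along an exhaustion, the law of the uniform spanning tree on a finite edge set is
eventually given by the block product (when all blocks are finite). -/
theorem ustProb_eventually (G : SimpleGraph V) (H : ℕ → G.Subgraph) (hH : IsExhaustion G H)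
    (hfinB : ∀ e ∈ G.edgeSet, (blockOf G e).Finite)
    (K S : Set (Sym2 V)) (hK : K.Finite) (hKE : K ⊆ G.edgeSet) (hSK : S ⊆ K) :
    ∃ n₀, ∀ n, n₀ ≤ n → ustProb G (H n) K S = blockProb G K S hK := by
  classical
  -- the union of the blocks meeting `K`
  have hUfin : (⋃ B ∈ blocksOf G K hK, B).Finite := by
    apply Set.Finite.biUnion (Finset.finite_toSet _)
    intro B hB
    obtain ⟨e, he, rfl⟩ := (mem_blocksOf G K hK B).mp hB
    exact hfinB e (hKE he)
  have hUE : (⋃ B ∈ blocksOf G K hK, B) ⊆ G.edgeSet := by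
    intro f hf
    simp only [Set.mem_iUnion, exists_prop] at hf
    obtain ⟨B, hB, hfB⟩ := hf
    obtain ⟨e, he, rfl⟩ := (mem_blocksOf G K hK B).mp hB
    exact blockOf_subset_edgeSet G (hKE he) hfB
  choose f hf using hH.edges
  let g : Sym2 V → ℕ := fun e => if h : e ∈ G.edgeSet then f e h else 0
  refine ⟨hUfin.toFinset.sup g, fun n hn => ?_⟩
  apply ustProb_eq_blockProb G (H n) (hH.finite n) (hH.connected n) K S hK hSK
  intro B hB e he
  have heU : e ∈ ⋃ B ∈ blocksOf G K hK, B := by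
    simp only [Set.mem_iUnion, exists_prop]
    exact ⟨B, hB, he⟩
  have hge : g e ≤ n := le_trans (Finset.le_sup (f := g) (hUfin.mem_toFinset.mpr heU)) hn
  have hmem : e ∈ (H (g e)).edgeSet := by
    have := hf e (hUE heU)
    simpa [g, hUE heU] using this
  exact Subgraph.edgeSet_mono (hH.mono hge) hmem

end Vale.Agent.Lib.P143
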