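import Mathlib

/-!
# Splitting a uniform label into an independent sequence of uniform labels
-/

namespace Vale.Agent.Lib.P143

open MeasureTheory Set Filter Topology ProbabilityTheory

/-- Every probability measure on the real line is the image of Lebesgue measure on the unit
interval under a measurable map (the quantile transform). -/
theorem exists_map_real (ν : Measure ℝ) [IsProbabilityMeasure ν] :
    ∃ q : unitInterval → ℝ, Measurable q ∧ (volume : Measure unitInterval).map q = ν := by
  classical
  set F := cdf ν with hF
  let q : unitInterval → ℝ := fun t => sInf {x | (t : ℝ) ≤ F x}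
  have key : ∀ t : unitInterval, 0 < (t : ℝ) → (t : ℝ) < 1 →
      ∀ x, q t ≤ x ↔ (t : ℝ) ≤ F x := by
    intro t ht0 ht1 x
    have hne : {x | (t : ℝ) ≤ F x}.Nonempty := by
      have h1 := (tendsto_cdf_atTop ν).eventually (lt_mem_nhds ht1)
      obtain ⟨y, hy⟩ := h1.exists
      exact ⟨y, hy.le⟩
    have hbdd : BddBelow {x | (t : ℝ) ≤ F x} := by
      have h1 := (tendsto_cdf_atBot ν).eventually (gt_mem_nhds ht0)
      obtain ⟨y, hy⟩ := eventually_atBot.mp h1
      refine ⟨y, fun z hz => ?_⟩
      by_contra hlt
      push Not at hlt
      exact absurd hz (not_le.mpr (hy z hlt.le))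
    have hmem : (t : ℝ) ≤ F (q t) := by
      have hcont : ContinuousWithinAt F (Ici (q t)) (q t) := F.right_continuous (q t)
      have hev : ∀ z, q t < z → (t : ℝ) ≤ F z := by
        intro z hz
        obtain ⟨a, ha, haz⟩ := exists_lt_of_csInf_lt hne hz
        exact le_trans ha (F.mono haz.le)
      have h1 : Tendsto F (𝓝[>] (q t)) (𝓝 (F (q t))) :=
        hcont.tendsto.mono_left (nhdsWithin_mono _ Ioi_subset_Ici_self)
      exact ge_of_tendsto h1 (eventually_nhdsWithin_of_forall hev)
    constructor
    · intro h
      exact le_trans hmem (F.mono h)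
    · intro h
      exact csInf_le hbdd h
  -- the preimages of `Iic x` up to the two endpoints
  have hpre : ∀ x : ℝ, q ⁻¹' Iic x =
      ({t : unitInterval | (t : ℝ) ≤ F x} \ {0, 1}) ∪ (q ⁻¹' Iic x ∩ {0, 1}) := by
    intro x
    ext t
    simp only [mem_preimage, mem_Iic, mem_union, Set.mem_sdiff, mem_insert_iff,
      mem_singleton_iff, mem_inter_iff]
    by_cases h0 : t = 0
    · simp [h0]
    by_cases h1 : t = 1
    · simp [h1]
    have ht0 : 0 < (t : ℝ) := lt_of_le_of_ne t.2.1 (fun h => h0 (Subtype.ext h.symm))
    have ht1 : (t : ℝ) < 1 := lt_of_le_of_ne t.2.2 (fun h => h1 (Subtype.ext h))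
    rw [key t ht0 ht1 x]
    simp [h0, h1]
  have hfin : ∀ x : ℝ, (q ⁻¹' Iic x ∩ ({0, 1} : Set unitInterval)).Finite := fun x =>
    (Set.toFinite ({0, 1} : Set unitInterval)).subset inter_subset_right
  have hM : ∀ x : ℝ, MeasurableSet {t : unitInterval | (t : ℝ) ≤ F x} := fun x =>
    measurableSet_le measurable_subtype_coe measurable_const
  have hq : Measurable q := by
    apply measurable_of_Iic
    intro x
    rw [hpre x]
    exact ((hM x).diff (Set.toFinite _).measurableSet).union (hfin x).measurableSet
  refine ⟨q, hq, ?_⟩
  apply Measure.ext_of_Iic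
  intro x
  rw [Measure.map_apply hq measurableSet_Iic, hpre x]
  have hnull : (volume : Measure unitInterval) ({0, 1} : Set unitInterval) = 0 :=
    (Set.toFinite ({0, 1} : Set unitInterval)).measure_zero _
  have h1 : (volume : Measure unitInterval) (q ⁻¹' Iic x ∩ {0, 1}) = 0 :=
    measure_mono_null inter_subset_right hnull
  have h2 : (volume : Measure unitInterval)
      (({t : unitInterval | (t : ℝ) ≤ F x} \ {0, 1}) ∪ (q ⁻¹' Iic x ∩ {0, 1})) =
      (volume : Measure unitInterval) ({t : unitInterval | (t : ℝ) ≤ F x} \ {0, 1}) := by
    apply le_antisymm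
    · calc (volume : Measure unitInterval)
            (({t : unitInterval | (t : ℝ) ≤ F x} \ {0, 1}) ∪ (q ⁻¹' Iic x ∩ {0, 1}))
          ≤ (volume : Measure unitInterval) ({t : unitInterval | (t : ℝ) ≤ F x} \ {0, 1}) +
              (volume : Measure unitInterval) (q ⁻¹' Iic x ∩ {0, 1}) := measure_union_le _ _
        _ = _ := by rw [h1, add_zero]
    · exact measure_mono subset_union_left
  rw [h2, measure_sdiff_null hnull]
  have h3 : {t : unitInterval | (t : ℝ) ≤ F x} =
      Iic (⟨F x, ⟨cdf_nonneg ν x, cdf_le_one ν x⟩⟩ : unitInterval) := by
    ext t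
    simp only [mem_ofPred_eq, mem_Iic]
    exact Iff.rfl
  rw [h3, unitInterval.volume_Iic]
  exact ofReal_cdf ν x

/-- Every probability measure on a nonempty standard Borel space is the image of Lebesgue measure
on the unit interval under a measurable map. -/
theorem exists_map_standardBorel {Ω : Type} [MeasurableSpace Ω] [StandardBorelSpace Ω]
    [Nonempty Ω] (ν : Measure Ω) [IsProbabilityMeasure ν] :
    ∃ f : unitInterval → Ω, Measurable f ∧ (volume : Measure unitInterval).map f = ν := by
  classical
  obtain ⟨e, he⟩ := exists_measurableEmbedding_real Ω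
  have : IsProbabilityMeasure (ν.map e) := Measure.isProbabilityMeasure_map he.measurable.aemeasurable
  obtain ⟨q, hq, hqν⟩ := exists_map_real (ν.map e)
  let x₀ : Ω := Classical.arbitrary Ω
  let inv : ℝ → Ω := Function.extend e id (fun _ => x₀)
  have hinv : Measurable inv := he.measurable_extend measurable_id measurable_const
  have hinv_e : inv ∘ e = id := by
    funext a
    show Function.extend e id (fun _ => x₀) (e a) = a
    exact he.injective.extend_apply id (fun _ => x₀) a
  refine ⟨inv ∘ q, hinv.comp hq, ?_⟩
  rw [← Measure.map_map hinv hq, hqν, Measure.map_map hinv he.measurable, hinv_e, Measure.map_id]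

/-- A measurable map sending a uniform label to a sequence of independent uniform labels. -/
noncomputable def splitMap : unitInterval → ℕ → unitInterval :=
  Classical.choose (exists_map_standardBorel
    (Measure.infinitePi (fun _ : ℕ => (volume : Measure unitInterval))))

theorem measurable_splitMap : Measurable splitMap :=
  (Classical.choose_spec (exists_map_standardBorel
    (Measure.infinitePi (fun _ : ℕ => (volume : Measure unitInterval))))).1

theorem map_splitMap : (volume : Measure unitInterval).map splitMap =
    Measure.infinitePi (fun _ : ℕ => (volume : Measure unitInterval)) :=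
  (Classical.choose_spec (exists_map_standardBorel
    (Measure.infinitePi (fun _ : ℕ => (volume : Measure unitInterval))))).2

section Family

variable {V : Type}

/-- The product measure of the uniform labels on the vertices. -/
noncomputable def labelMeasure (V : Type) : Measure (V → unitInterval) :=
  Measure.infinitePi (fun _ : V => (volume : Measure unitInterval))

instance : IsProbabilityMeasure (labelMeasure V) := by
  unfold labelMeasure
  infer_instance

theorem measurable_Z (p : V × ℕ) :
    Measurable (fun u : V → unitInterval => splitMap (u p.1) p.2) :=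
  (measurable_pi_apply p.2).comp (measurable_splitMap.comp (measurable_pi_apply p.1))

theorem map_Z (p : V × ℕ) :
    (labelMeasure V).map (fun u : V → unitInterval => splitMap (u p.1) p.2) = volume := by
  have h1 : (fun u : V → unitInterval => splitMap (u p.1) p.2) =
      (fun x : ℕ → unitInterval => x p.2) ∘ splitMap ∘ (fun u : V → unitInterval => u p.1) := rfl
  rw [h1, ← Measure.map_map (measurable_pi_apply p.2)
      (measurable_splitMap.comp (measurable_pi_apply p.1)),
    ← Measure.map_map measurable_splitMap (measurable_pi_apply p.1)]
  unfold labelMeasure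
  rw [Measure.infinitePi_map_eval, map_splitMap, Measure.infinitePi_map_eval]

/-- The doubly indexed family of labels obtained by splitting is independent. -/
theorem iIndepFun_Z :
    iIndepFun (fun (p : V × ℕ) (u : V → unitInterval) => splitMap (u p.1) p.2)
      (labelMeasure V) := by
  refine iIndepFun_uncurry' (X := fun (v : V) (j : ℕ) (u : V → unitInterval) => splitMap (u v) j)
    (fun v j => measurable_Z (v, j)) ?_ ?_
  · exact iIndepFun_infinitePi (P := fun _ : V => (volume : Measure unitInterval))
      (X := fun _ => splitMap) (fun _ => measurable_splitMap)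
  · intro v
    rw [iIndepFun_iff_map_fun_eq_infinitePi_map (fun j => measurable_Z (v, j))]
    have h1 : (fun (u : V → unitInterval) (j : ℕ) => splitMap (u v) j) =
        splitMap ∘ (fun u : V → unitInterval => u v) := rfl
    rw [h1, ← Measure.map_map measurable_splitMap (measurable_pi_apply v)]
    unfold labelMeasure
    rw [Measure.infinitePi_map_eval, map_splitMap]
    congr 1
    funext j
    exact (map_Z (V := V) (v, j)).symm

end Family


end Vale.Agent.Lib.P143
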