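import Mathlib
import Vale.Agent.Lib.P143.Defs
import Vale.Agent.Lib.P143.Graph
import Vale.Agent.Lib.P143.Split

/-!
# The factor map

Definition of the factor map `Phi` and its equivariance under graph automorphisms.
-/

namespace Vale.Agent.Lib.P143

open SimpleGraph MeasureTheory

variable {V : Type}

/-- The vertices incident to some edge of `B`. -/
def Vb (B : Set (Sym2 V)) : Set V := {v | ∃ e ∈ B, v ∈ e}

/-- The rank of `v` among the elements of `A`, with respect to the labels `x`. -/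
noncomputable def rk (A : Set V) (x : V → unitInterval) (v : V) : ℕ :=
  Set.ncard {w | w ∈ A ∧ x w < x v}

/-- `a` is a vertex of `B` with minimal label. -/
def IsMinV (x : V → unitInterval) (B : Set (Sym2 V)) (a : V) : Prop :=
  a ∈ Vb B ∧ ∀ w ∈ Vb B, x a ≤ x w

/-- `b` has minimal label among the neighbours of `a` along edges of `B`. -/
def IsMinN (x : V → unitInterval) (B : Set (Sym2 V)) (a b : V) : Prop :=
  s(a, b) ∈ B ∧ ∀ w, s(a, w) ∈ B → x b ≤ x w

open Classical in
/-- The index (at the vertex `a`) of the seed label of the block `B`; `0` if `(a, b)` is not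
the seed position. -/
noncomputable def seedIdx (G : SimpleGraph V) (x : V → unitInterval) (B : Set (Sym2 V))
    (a b : V) : ℕ :=
  if IsMinV x B a ∧ IsMinN x B a b then rk (G.neighborSet a) x b + 1 else 0

open Classical in
/-- A numerical code of the subgraph `F`, computed from the ranks of the vertices of `B`. -/
noncomputable def tcode (x : V → unitInterval) (B : Set (Sym2 V)) (F : SimpleGraph V) : ℕ :=
  ∑ᶠ p : V × V, if F.Adj p.1 p.2 then 2 ^ Nat.pair (rk (Vb B) x p.1) (rk (Vb B) x p.2) else 0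

/-- The rank of `F` among the maximal acyclic subgraphs of `B`, ordered by their codes. -/
noncomputable def trank (x : V → unitInterval) (B : Set (Sym2 V)) (F : SimpleGraph V) : ℕ :=
  Set.ncard {F' | MAcy (fromEdgeSet B) F' ∧ tcode x B F' < tcode x B F}

/-- The number of maximal acyclic subgraphs of `B`. -/
noncomputable def NB (B : Set (Sym2 V)) : ℕ :=
  Set.ncard {F : SimpleGraph V | MAcy (fromEdgeSet B) F}

/-- The index in `{0, ..., N - 1}` selected by the label `z`. -/
noncomputable def pick (N : ℕ) (z : unitInterval) : ℕ := min ⌊(N : ℝ) * (z : ℝ)⌋₊ (N - 1)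

/-- `F` is the subgraph of `B` selected by the seed data `σ`, the ranking `τ` and the labels
`ξ`. -/
def ChosenD (σ : Set (Sym2 V) → V → V → ℕ) (τ : Set (Sym2 V) → SimpleGraph V → ℕ)
    (ξ : V → ℕ → unitInterval) (B : Set (Sym2 V)) (F : SimpleGraph V) : Prop :=
  MAcy (fromEdgeSet B) F ∧ ∃ a b, σ B a b ≠ 0 ∧ τ B F = pick (NB B) (ξ a (σ B a b))

/-- The edge set selected by the data `σ`, `τ`, `ξ`. -/
def PsiD (G : SimpleGraph V) (σ : Set (Sym2 V) → V → V → ℕ)
    (τ : Set (Sym2 V) → SimpleGraph V → ℕ) (ξ : V → ℕ → unitInterval) : Set (Sym2 V) :=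
  {e | e ∈ G.edgeSet ∧ ∃ F, ChosenD σ τ ξ (blockOf G e) F ∧ e ∈ F.edgeSet}

/-- The factor map. -/
noncomputable def Phi (G : SimpleGraph V) (u : V → unitInterval) : Set (Sym2 V) :=
  PsiD G (seedIdx G (fun v => splitMap (u v) 0)) (trank (fun v => splitMap (u v) 0))
    (fun v => splitMap (u v))

theorem phi_subset (G : SimpleGraph V) (u : V → unitInterval) : Phi G u ⊆ G.edgeSet :=
  fun _ he => he.1

/-! ### Transport along a permutation of the vertices -/

theorem vb_image (e : V ≃ V) (B : Set (Sym2 V)) : Vb (Sym2.map e '' B) = e '' Vb B := by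
  ext v
  constructor
  · rintro ⟨_, ⟨f, hf, rfl⟩, hv⟩
    rw [Sym2.mem_map] at hv
    obtain ⟨a, ha, rfl⟩ := hv
    exact ⟨a, ⟨f, hf, ha⟩, rfl⟩
  · rintro ⟨a, ⟨f, hf, ha⟩, rfl⟩
    exact ⟨Sym2.map e f, ⟨f, hf, rfl⟩, Sym2.mem_map.mpr ⟨a, ha, rfl⟩⟩

theorem rk_image (e : V ≃ V) (A : Set V) (x : V → unitInterval) (v : V) :
    rk (e '' A) (fun w => x (e.symm w)) (e v) = rk A x v := by
  unfold rk
  have h := Set.ncard_image_of_injective {w | w ∈ A ∧ x w < x v} e.injective
  rw [← h]
  congr 1
  ext w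
  constructor
  · rintro ⟨⟨a, ha, rfl⟩, h⟩
    refine ⟨a, ⟨ha, ?_⟩, rfl⟩
    simpa using h
  · rintro ⟨a, ⟨ha, h⟩, rfl⟩
    refine ⟨⟨a, ha, rfl⟩, ?_⟩
    simpa using h

theorem mem_image_sym2 (e : V ≃ V) (B : Set (Sym2 V)) (a b : V) :
    s(e a, e b) ∈ Sym2.map e '' B ↔ s(a, b) ∈ B := by
  rw [← Sym2.map_mk]
  exact (Sym2.map.injective e.injective).mem_set_image

theorem isMinV_image (e : V ≃ V) (x : V → unitInterval) (B : Set (Sym2 V)) (a : V) :
    IsMinV (fun w => x (e.symm w)) (Sym2.map e '' B) (e a) ↔ IsMinV x B a := by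
  unfold IsMinV
  rw [vb_image]
  constructor
  · rintro ⟨⟨a', ha', h⟩, hmin⟩
    have haa : a' = a := e.injective h
    subst haa
    refine ⟨ha', fun w hw => ?_⟩
    have := hmin (e w) ⟨w, hw, rfl⟩
    simpa using this
  · rintro ⟨ha, hmin⟩
    refine ⟨⟨a, ha, rfl⟩, ?_⟩
    rintro _ ⟨w, hw, rfl⟩
    simpa using hmin w hw

theorem isMinN_image (e : V ≃ V) (x : V → unitInterval) (B : Set (Sym2 V)) (a b : V) :
    IsMinN (fun w => x (e.symm w)) (Sym2.map e '' B) (e a) (e b) ↔ IsMinN x B a b := by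
  unfold IsMinN
  rw [mem_image_sym2]
  constructor
  · rintro ⟨h, hmin⟩
    refine ⟨h, fun w hw => ?_⟩
    have := hmin (e w) ((mem_image_sym2 e B a w).mpr hw)
    simpa using this
  · rintro ⟨h, hmin⟩
    refine ⟨h, fun w hw => ?_⟩
    have hw' : s(e a, e (e.symm w)) ∈ Sym2.map e '' B := by simpa using hw
    have := hmin (e.symm w) ((mem_image_sym2 e B a (e.symm w)).mp hw')
    simpa using this

theorem seedIdx_image (G : SimpleGraph V) (e : V ≃ V)
    (he : ∀ a b, G.Adj (e a) (e b) ↔ G.Adj a b) (x : V → unitInterval) (B : Set (Sym2 V))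
    (a b : V) :
    seedIdx G (fun w => x (e.symm w)) (Sym2.map e '' B) (e a) (e b) = seedIdx G x B a b := by
  classical
  unfold seedIdx
  have h3 : G.neighborSet (e a) = e '' G.neighborSet a := by
    ext w
    simp only [mem_neighborSet, Set.mem_image]
    constructor
    · intro h
      refine ⟨e.symm w, ?_, by simp⟩
      rw [← he]
      simpa using h
    · rintro ⟨w', hw', rfl⟩
      exact (he _ _).mpr hw'
  rw [h3, rk_image]
  exact if_congr (and_congr (isMinV_image e x B a) (isMinN_image e x B a b)) rfl rfl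

theorem fromEdgeSet_image (e : V ≃ V) (B : Set (Sym2 V)) :
    fromEdgeSet (Sym2.map e '' B) = (fromEdgeSet B).comap e.symm := by
  ext u v
  simp only [fromEdgeSet_adj, comap_adj]
  have h := mem_image_sym2 e B (e.symm u) (e.symm v)
  simp only [Equiv.apply_symm_apply] at h
  rw [h, e.symm.injective.ne_iff]

theorem edgeSet_comap (e : V ≃ V) (F : SimpleGraph V) :
    (F.comap e.symm).edgeSet = Sym2.map e '' F.edgeSet := by
  ext f
  induction f with
  | h u v =>
    have h := mem_image_sym2 e F.edgeSet (e.symm u) (e.symm v)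
    simp only [Equiv.apply_symm_apply] at h
    rw [h]
    simp

theorem comap_comap_symm (e : V ≃ V) (F : SimpleGraph V) : (F.comap e).comap e.symm = F := by
  ext u v
  simp

theorem macy_comap (e : V ≃ V) (G₀ F : SimpleGraph V) :
    MAcy (G₀.comap e.symm) (F.comap e.symm) ↔ MAcy G₀ F := by
  rw [macy_iff, macy_iff]
  have hle : F.comap e.symm ≤ G₀.comap e.symm ↔ F ≤ G₀ := by
    constructor
    · intro h u v huv
      have := @h (e u) (e v) (by simpa using huv)
      simpa using this
    · intro h u v huv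
      exact h huv
  have hac : (F.comap e.symm).IsAcyclic ↔ F.IsAcyclic := (Iso.comap e.symm F).isAcyclic_iff
  have hr : ∀ u v, (F.comap e.symm).Reachable u v ↔ F.Reachable (e.symm u) (e.symm v) :=
    fun u v => (Iso.reachable_iff (φ := Iso.comap e.symm F)).symm
  rw [hle, hac]
  constructor
  · rintro ⟨h1, h2, h3⟩
    refine ⟨h1, h2, fun u v huv => ?_⟩
    have := h3 (e u) (e v) (by simpa using huv)
    rw [hr] at this
    simpa using this
  · rintro ⟨h1, h2, h3⟩
    refine ⟨h1, h2, fun u v huv => ?_⟩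
    rw [hr]
    exact h3 _ _ huv

theorem tcode_image (e : V ≃ V) (x : V → unitInterval) (B : Set (Sym2 V)) (F : SimpleGraph V) :
    tcode (fun w => x (e.symm w)) (Sym2.map e '' B) (F.comap e.symm) = tcode x B F := by
  classical
  unfold tcode
  rw [← finsum_comp_equiv (e.prodCongr e)]
  congr 1
  funext p
  show (if (F.comap e.symm).Adj (e p.1) (e p.2) then
      2 ^ Nat.pair (rk (Vb (Sym2.map e '' B)) (fun w => x (e.symm w)) (e p.1))
        (rk (Vb (Sym2.map e '' B)) (fun w => x (e.symm w)) (e p.2)) else 0) = _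
  rw [vb_image, rk_image, rk_image]
  exact if_congr (by simp) rfl rfl

theorem trank_image (e : V ≃ V) (x : V → unitInterval) (B : Set (Sym2 V)) (F : SimpleGraph V) :
    trank (fun w => x (e.symm w)) (Sym2.map e '' B) (F.comap e.symm) = trank x B F := by
  unfold trank
  have h := Set.ncard_image_of_injective
    {F' | MAcy (fromEdgeSet B) F' ∧ tcode x B F' < tcode x B F} e.simpleGraph.injective
  rw [← h]
  congr 1
  ext F'
  constructor
  · rintro ⟨h1, h2⟩
    have hF' : (F'.comap e).comap e.symm = F' := comap_comap_symm e F'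
    refine ⟨F'.comap e, ⟨?_, ?_⟩, hF'⟩
    · rw [← hF', fromEdgeSet_image, macy_comap] at h1
      exact h1
    · rw [← hF', tcode_image, tcode_image] at h2
      exact h2
  · rintro ⟨F'', ⟨h1, h2⟩, rfl⟩
    refine ⟨?_, ?_⟩
    · rw [fromEdgeSet_image]
      exact (macy_comap e _ _).mpr h1
    · show tcode _ _ (F''.comap e.symm) < tcode _ _ (F.comap e.symm)
      rw [tcode_image, tcode_image]
      exact h2

theorem nb_image (e : V ≃ V) (B : Set (Sym2 V)) : NB (Sym2.map e '' B) = NB B := by
  unfold NB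
  have h := Set.ncard_image_of_injective
    {F' : SimpleGraph V | MAcy (fromEdgeSet B) F'} e.simpleGraph.injective
  rw [← h]
  congr 1
  ext F'
  constructor
  · intro h1
    have hF' : (F'.comap e).comap e.symm = F' := comap_comap_symm e F'
    refine ⟨F'.comap e, ?_, hF'⟩
    have h1' : MAcy (fromEdgeSet (Sym2.map e '' B)) F' := h1
    rw [← hF', fromEdgeSet_image, macy_comap] at h1'
    exact h1'
  · rintro ⟨F'', h1, rfl⟩
    show MAcy (fromEdgeSet (Sym2.map e '' B)) (F''.comap e.symm)
    rw [fromEdgeSet_image]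
    exact (macy_comap e _ _).mpr h1

/-! ### Transport of blocks along an automorphism -/

theorem cycleLinked_map (G : SimpleGraph V) (e : V ≃ V)
    (he : ∀ a b, G.Adj (e a) (e b) ↔ G.Adj a b) {e₁ e₂ : Sym2 V} (h : CycleLinked G e₁ e₂) :
    CycleLinked G (Sym2.map e e₁) (Sym2.map e e₂) := by
  obtain ⟨v, c, hc, h1, h2⟩ := h
  let φ : G →g G := ⟨e, fun {a b} h => (he a b).mpr h⟩
  refine ⟨e v, c.map φ, (Walk.isCycle_map_iff_of_injective (f := φ) e.injective).mpr hc, ?_, ?_⟩
  · rw [Walk.edges_map]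
    exact List.mem_map.mpr ⟨e₁, h1, rfl⟩
  · rw [Walk.edges_map]
    exact List.mem_map.mpr ⟨e₂, h2, rfl⟩

theorem eqvGen_map (G : SimpleGraph V) (e : V ≃ V)
    (he : ∀ a b, G.Adj (e a) (e b) ↔ G.Adj a b) {e₁ e₂ : Sym2 V}
    (h : Relation.EqvGen (CycleLinked G) e₁ e₂) :
    Relation.EqvGen (CycleLinked G) (Sym2.map e e₁) (Sym2.map e e₂) := by
  induction h with
  | rel _ _ h => exact Relation.EqvGen.rel _ _ (cycleLinked_map G e he h)
  | refl _ => exact Relation.EqvGen.refl _
  | symm _ _ _ ih => exact Relation.EqvGen.symm _ _ ih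
  | trans _ _ _ _ _ ih1 ih2 => exact Relation.EqvGen.trans _ _ _ ih1 ih2

theorem adj_symm_iff (G : SimpleGraph V) (e : V ≃ V)
    (he : ∀ a b, G.Adj (e a) (e b) ↔ G.Adj a b) (a b : V) :
    G.Adj (e.symm a) (e.symm b) ↔ G.Adj a b := by
  rw [← he]
  simp

theorem sym2_map_symm_map (e : V ≃ V) (f : Sym2 V) : Sym2.map e.symm (Sym2.map e f) = f := by
  rw [Sym2.map_map]
  have : (e.symm ∘ e : V → V) = id := by
    funext a
    simp
  rw [this, Sym2.map_id]
  rfl

theorem sym2_map_map_symm (e : V ≃ V) (f : Sym2 V) : Sym2.map e (Sym2.map e.symm f) = f := by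
  have := sym2_map_symm_map e.symm f
  simpa using this

theorem blockOf_map (G : SimpleGraph V) (e : V ≃ V)
    (he : ∀ a b, G.Adj (e a) (e b) ↔ G.Adj a b) (e₁ : Sym2 V) :
    blockOf G (Sym2.map e e₁) = Sym2.map e '' blockOf G e₁ := by
  ext f
  constructor
  · intro hf
    refine ⟨Sym2.map e.symm f, ?_, sym2_map_map_symm e f⟩
    have := eqvGen_map G e.symm (adj_symm_iff G e he) hf
    rw [sym2_map_symm_map] at this
    exact this
  · rintro ⟨f', hf', rfl⟩
    exact eqvGen_map G e he hf'

theorem mem_edgeSet_map (G : SimpleGraph V) (e : V ≃ V)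
    (he : ∀ a b, G.Adj (e a) (e b) ↔ G.Adj a b) (f : Sym2 V) :
    Sym2.map e f ∈ G.edgeSet ↔ f ∈ G.edgeSet := by
  induction f with
  | h a b => exact he a b

/-- Equivariance of the selected edge set. -/
theorem psiD_image (G : SimpleGraph V) (e : V ≃ V)
    (he : ∀ a b, G.Adj (e a) (e b) ↔ G.Adj a b) (x : V → unitInterval)
    (ξ : V → ℕ → unitInterval) :
    PsiD G (seedIdx G (fun w => x (e.symm w))) (trank (fun w => x (e.symm w)))
      (fun w => ξ (e.symm w)) = Sym2.map e '' PsiD G (seedIdx G x) (trank x) ξ := by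
  ext f
  have hf : f = Sym2.map e (Sym2.map e.symm f) := (sym2_map_map_symm e f).symm
  set f₀ := Sym2.map e.symm f with hf₀
  rw [hf, (Sym2.map.injective e.injective).mem_set_image]
  unfold PsiD
  simp only [Set.mem_ofPred_eq]
  rw [mem_edgeSet_map G e he, blockOf_map G e he]
  apply and_congr Iff.rfl
  rw [e.simpleGraph.surjective.exists]
  apply exists_congr
  intro F
  show ChosenD _ _ _ _ (F.comap e.symm) ∧ Sym2.map e f₀ ∈ (F.comap e.symm).edgeSet ↔ _
  have h1 : Sym2.map e f₀ ∈ (F.comap e.symm).edgeSet ↔ f₀ ∈ F.edgeSet := by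
    rw [edgeSet_comap]
    exact (Sym2.map.injective e.injective).mem_set_image
  rw [h1]
  apply and_congr _ Iff.rfl
  unfold ChosenD
  rw [fromEdgeSet_image, macy_comap]
  apply and_congr Iff.rfl
  rw [e.surjective.exists]
  apply exists_congr
  intro a
  rw [e.surjective.exists]
  apply exists_congr
  intro b
  rw [seedIdx_image G e he, trank_image, nb_image]
  simp only [Equiv.symm_apply_apply]

theorem phi_equivariant (G : SimpleGraph V) (γ : G ≃g G) (u : V → unitInterval) :
    Phi G (fun v => u (γ.symm v)) = Sym2.map γ '' Phi G u :=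
  psiD_image G γ.toEquiv (fun _ _ => γ.map_adj_iff) (fun v => splitMap (u v) 0)
    (fun v => splitMap (u v))

end Vale.Agent.Lib.P143
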