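import Mathlib
import Vale.Agent.Lib.P143.Defs
import Vale.Agent.Lib.P143.Defs3
import Vale.Agent.Lib.P143.Graph
import Vale.Agent.Lib.P143.Factor

/-!
# Measurable dependence of the blocks on the graph
-/

namespace Vale.Agent.Lib.P143

open SimpleGraph MeasureTheory Set

variable {V : Type}

theorem measurableSet_adj (a b : V) :
    MeasurableSet[graphMS V] {G : SimpleGraph V | G.Adj a b} :=
  MeasurableSpace.measurableSet_generateFrom ⟨a, b, rfl⟩

theorem measurableSet_mem_edgeSet (e : Sym2 V) :
    MeasurableSet[graphMS V] {G : SimpleGraph V | e ∈ G.edgeSet} := by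
  induction e with
  | h a b => exact measurableSet_adj a b

theorem countable_sym2 [Countable V] : Countable (Sym2 V) :=
  Function.Surjective.countable (f := fun p : V × V => s(p.1, p.2))
    (fun e => by
      induction e with
      | h a b => exact ⟨(a, b), rfl⟩)

/-! ### Cycles -/

theorem cycleLinked_iff_top (G : SimpleGraph V) (f g : Sym2 V) :
    CycleLinked G f g ↔ ∃ (v : V) (c : (⊤ : SimpleGraph V).Walk v v),
      c.IsCycle ∧ f ∈ c.edges ∧ g ∈ c.edges ∧ ∀ e ∈ c.edges, e ∈ G.edgeSet := by
  constructor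
  · rintro ⟨v, c, hc, hf, hg⟩
    have hall : ∀ e ∈ c.edges, e ∈ (⊤ : SimpleGraph V).edgeSet :=
      fun e he => edgeSet_subset_edgeSet.mpr le_top (c.edges_subset_edgeSet he)
    refine ⟨v, c.transfer ⊤ hall, hc.transfer hall, ?_, ?_, ?_⟩
    · rw [Walk.edges_transfer]
      exact hf
    · rw [Walk.edges_transfer]
      exact hg
    · intro e he
      rw [Walk.edges_transfer] at he
      exact c.edges_subset_edgeSet he
  · rintro ⟨v, c, hc, hf, hg, hall⟩
    refine ⟨v, c.transfer G hall, hc.transfer hall, ?_, ?_⟩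
    · rw [Walk.edges_transfer]
      exact hf
    · rw [Walk.edges_transfer]
      exact hg

theorem measurableSet_cycleLinked [Countable V] (f g : Sym2 V) :
    MeasurableSet[graphMS V] {G : SimpleGraph V | CycleLinked G f g} := by
  classical
  have hcw : ∀ v : V, Countable ((⊤ : SimpleGraph V).Walk v v) := fun v =>
    Function.Injective.countable (f := fun c : (⊤ : SimpleGraph V).Walk v v => c.support)
      (fun c c' h => Walk.ext_support h)
  have hset : {G : SimpleGraph V | CycleLinked G f g} =
      ⋃ v : V, ⋃ c : (⊤ : SimpleGraph V).Walk v v,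
        {G : SimpleGraph V | c.IsCycle ∧ f ∈ c.edges ∧ g ∈ c.edges ∧
          ∀ e ∈ c.edges, e ∈ G.edgeSet} := by
    ext G
    simp only [mem_ofPred_eq, mem_iUnion]
    exact cycleLinked_iff_top G f g
  rw [hset]
  refine MeasurableSet.iUnion (fun v => ?_)
  haveI := hcw v
  refine MeasurableSet.iUnion (fun c => ?_)
  by_cases hc : c.IsCycle ∧ f ∈ c.edges ∧ g ∈ c.edges
  · have h2 : {G : SimpleGraph V | c.IsCycle ∧ f ∈ c.edges ∧ g ∈ c.edges ∧
        ∀ e ∈ c.edges, e ∈ G.edgeSet} =
        ⋂ e ∈ {e | e ∈ c.edges}, {G : SimpleGraph V | e ∈ G.edgeSet} := by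
      ext G
      simp only [mem_ofPred_eq, mem_iInter, hc.1, hc.2.1, hc.2.2, true_and]
    rw [h2]
    exact MeasurableSet.biInter (List.finite_toSet c.edges).countable
      (fun e _ => measurableSet_mem_edgeSet e)
  · have h2 : {G : SimpleGraph V | c.IsCycle ∧ f ∈ c.edges ∧ g ∈ c.edges ∧
        ∀ e ∈ c.edges, e ∈ G.edgeSet} = ∅ := by
      ext G
      simp only [mem_ofPred_eq, mem_empty_iff_false, iff_false]
      rintro ⟨h1, h2, h3, _⟩
      exact hc ⟨h1, h2, h3⟩
    rw [h2]
    exact @MeasurableSet.empty _ (graphMS V)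

/-! ### Characterisation of the block of an edge -/

/-- `C` is closed under the relation of lying on a common cycle. -/
def ClosedL (G : SimpleGraph V) (C : Set (Sym2 V)) : Prop :=
  ∀ f ∈ C, ∀ g, g ∉ C → ¬ CycleLinked G f g

theorem cycleLinked_symm {G : SimpleGraph V} {f g : Sym2 V} (h : CycleLinked G f g) :
    CycleLinked G g f := by
  obtain ⟨v, c, hc, h1, h2⟩ := h
  exact ⟨v, c, hc, h2, h1⟩

theorem eqvGen_mem_closed {G : SimpleGraph V} {C : Set (Sym2 V)} (hC : ClosedL G C)
    {a b : Sym2 V} (h : Relation.EqvGen (CycleLinked G) a b) : a ∈ C ↔ b ∈ C := by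
  induction h with
  | rel a b hab =>
    constructor
    · intro ha
      by_contra hb
      exact hC a ha b hb hab
    · intro hb
      by_contra ha
      exact hC b hb a ha (cycleLinked_symm hab)
  | refl a => exact Iff.rfl
  | symm a b _ ih => exact ih.symm
  | trans a b c _ _ ih1 ih2 => exact ih1.trans ih2

theorem closedL_blockOf (G : SimpleGraph V) (e : Sym2 V) : ClosedL G (blockOf G e) := by
  intro f hf g hg hfg
  exact hg (Relation.EqvGen.trans _ _ _ hf (Relation.EqvGen.rel _ _ hfg))

theorem blockOf_eq_iff (G : SimpleGraph V) (e : Sym2 V) (B : Set (Sym2 V)) :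
    blockOf G e = B ↔
      e ∈ B ∧ ClosedL G B ∧ ∀ C, C ⊆ B → e ∈ C → ClosedL G C → C = B := by
  constructor
  · rintro rfl
    refine ⟨mem_blockOf_self G e, closedL_blockOf G e, ?_⟩
    intro C hCB heC hC
    apply Set.Subset.antisymm hCB
    intro f hf
    exact (eqvGen_mem_closed hC hf).mp heC
  · rintro ⟨heB, hB, hmin⟩
    apply hmin
    · intro f hf
      exact (eqvGen_mem_closed hB hf).mp heB
    · exact mem_blockOf_self G e
    · exact closedL_blockOf G e

theorem measurableSet_closedL [Countable V] (C : Set (Sym2 V)) :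
    MeasurableSet[graphMS V] {G : SimpleGraph V | ClosedL G C} := by
  haveI := countable_sym2 (V := V)
  have hset : {G : SimpleGraph V | ClosedL G C} =
      ⋂ f ∈ C, ⋂ g ∈ Cᶜ, {G : SimpleGraph V | CycleLinked G f g}ᶜ := by
    ext G
    simp only [mem_ofPred_eq, mem_iInter, mem_compl_iff]
    exact Iff.rfl
  rw [hset]
  refine MeasurableSet.biInter (Set.to_countable C) (fun f _ => ?_)
  refine MeasurableSet.biInter (Set.to_countable Cᶜ) (fun g _ => ?_)
  exact (measurableSet_cycleLinked f g).compl

theorem measurableSet_blockOf_eq [Countable V] (e : Sym2 V) (B : Set (Sym2 V))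
    (hB : B.Finite) : MeasurableSet[graphMS V] {G : SimpleGraph V | blockOf G e = B} := by
  classical
  have hset : {G : SimpleGraph V | blockOf G e = B} =
      {G : SimpleGraph V | e ∈ B} ∩ {G : SimpleGraph V | ClosedL G B} ∩
        ⋂ C ∈ {C : Set (Sym2 V) | C ⊆ B},
          {G : SimpleGraph V | e ∈ C → ClosedL G C → C = B} := by
    ext G
    simp only [mem_ofPred_eq, mem_inter_iff, mem_iInter]
    rw [blockOf_eq_iff]
    constructor
    · rintro ⟨h1, h2, h3⟩
      exact ⟨⟨h1, h2⟩, fun C hCB heC hC => h3 C hCB heC hC⟩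
    · rintro ⟨⟨h1, h2⟩, h3⟩
      exact ⟨h1, h2, fun C hCB heC hC => h3 C hCB heC hC⟩
  rw [hset]
  refine MeasurableSet.inter (MeasurableSet.inter ?_ (measurableSet_closedL B)) ?_
  · by_cases he : e ∈ B
    · simp only [he]
      exact @MeasurableSet.univ _ (graphMS V)
    · simp only [he]
      exact @MeasurableSet.empty _ (graphMS V)
  · refine MeasurableSet.biInter hB.finite_subsets.countable (fun C _ => ?_)
    by_cases h : e ∈ C ∧ C ≠ B
    · have h2 : {G : SimpleGraph V | e ∈ C → ClosedL G C → C = B} =
          {G : SimpleGraph V | ClosedL G C}ᶜ := by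
        ext G
        simp only [mem_ofPred_eq, mem_compl_iff, h.1, h.2, forall_true_left, imp_false]
      rw [h2]
      exact (measurableSet_closedL C).compl
    · have h2 : {G : SimpleGraph V | e ∈ C → ClosedL G C → C = B} = Set.univ := by
        ext G
        simp only [mem_ofPred_eq, mem_univ, iff_true]
        intro heC _
        by_contra hne
        exact h ⟨heC, hne⟩
      rw [h2]
      exact @MeasurableSet.univ _ (graphMS V)

theorem measurableSet_neighborSet_eq [Countable V] (a : V) (N : Set V) :
    MeasurableSet[graphMS V] {G : SimpleGraph V | G.neighborSet a = N} := by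
  classical
  have hset : {G : SimpleGraph V | G.neighborSet a = N} =
      ⋂ w : V, {G : SimpleGraph V | G.Adj a w ↔ w ∈ N} := by
    ext G
    simp only [mem_ofPred_eq, mem_iInter]
    constructor
    · intro h w
      rw [← h]
      exact Iff.rfl
    · intro h
      ext w
      exact h w
  rw [hset]
  refine MeasurableSet.iInter (fun w => ?_)
  by_cases hw : w ∈ N
  · simp only [hw, iff_true]
    exact measurableSet_adj a w
  · simp only [hw, iff_false]
    exact (measurableSet_adj a w).compl

end Vale.Agent.Lib.P143
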