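import Mathlib
import Vale.Agent.Lib.P143.Defs
import Vale.Agent.Lib.P143.Graph
import Vale.Agent.Lib.P143.Split
import Vale.Agent.Lib.P143.Factor

/-!
# Combinatorics of the selection rule for labels without ties
-/

namespace Vale.Agent.Lib.P143

open SimpleGraph

variable {V : Type}

/-! ### Ranks -/

section Rank

variable {α β : Type} [LinearOrder β]

theorem rank_lt_card (A : Set α) (hA : A.Finite) (key : α → β) {a : α} (ha : a ∈ A) :
    Set.ncard {a' | a' ∈ A ∧ key a' < key a} < Set.ncard A := by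
  apply Set.ncard_lt_ncard _ hA
  refine ⟨fun a' h => h.1, fun h => ?_⟩
  exact lt_irrefl _ (h ha).2

theorem rank_lt_rank (A : Set α) (hA : A.Finite) (key : α → β) {a b : α} (ha : a ∈ A)
    (hab : key a < key b) :
    Set.ncard {a' | a' ∈ A ∧ key a' < key a} < Set.ncard {a' | a' ∈ A ∧ key a' < key b} := by
  apply Set.ncard_lt_ncard _ (hA.subset (fun _ h => h.1))
  refine ⟨fun a' h => ⟨h.1, lt_trans h.2 hab⟩, fun h => ?_⟩
  exact lt_irrefl _ (h ⟨ha, hab⟩).2

theorem rank_injOn (A : Set α) (hA : A.Finite) (key : α → β) (hinj : Set.InjOn key A) :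
    Set.InjOn (fun a => Set.ncard {a' | a' ∈ A ∧ key a' < key a}) A := by
  intro a ha b hb hab
  by_contra hne
  have hk : key a ≠ key b := fun h => hne (hinj ha hb h)
  rcases lt_or_gt_of_ne hk with h | h
  · exact absurd hab (rank_lt_rank A hA key ha h).ne
  · exact absurd hab (rank_lt_rank A hA key hb h).ne'

theorem rank_surj (A : Set α) (hA : A.Finite) (key : α → β) (hinj : Set.InjOn key A)
    {k : ℕ} (hk : k < Set.ncard A) :
    ∃ a ∈ A, Set.ncard {a' | a' ∈ A ∧ key a' < key a} = k := by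
  have himg : (fun a => Set.ncard {a' | a' ∈ A ∧ key a' < key a}) '' A = Set.Iio (Set.ncard A) := by
    apply Set.eq_of_subset_of_ncard_le _ _ (Set.finite_Iio _)
    · rintro _ ⟨a, ha, rfl⟩
      exact rank_lt_card A hA key ha
    · rw [(rank_injOn A hA key hinj).ncard_image]
      have : Set.Iio (Set.ncard A) = ((Finset.range (Set.ncard A) : Finset ℕ) : Set ℕ) := by
        ext n
        simp
      rw [this, Set.ncard_coe_finset, Finset.card_range]
  have hmem : k ∈ (fun a => Set.ncard {a' | a' ∈ A ∧ key a' < key a}) '' A := by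
    rw [himg]
    exact hk
  obtain ⟨a, ha, hak⟩ := hmem
  exact ⟨a, ha, hak⟩

end Rank

/-! ### Vertices of a block -/

theorem vb_finite (B : Set (Sym2 V)) (hB : B.Finite) : (Vb B).Finite := by
  have : Vb B = ⋃ e ∈ B, {v | v ∈ e} := by
    ext v
    simp [Vb]
  rw [this]
  apply Set.Finite.biUnion hB
  intro e _
  induction e with
  | h a b =>
    apply (Set.toFinite ({a, b} : Set V)).subset
    intro v hv
    simpa using hv

theorem mem_vb_left {B : Set (Sym2 V)} {a b : V} (h : s(a, b) ∈ B) : a ∈ Vb B :=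
  ⟨s(a, b), h, Sym2.mem_mk_left a b⟩

theorem mem_vb_right {B : Set (Sym2 V)} {a b : V} (h : s(a, b) ∈ B) : b ∈ Vb B :=
  ⟨s(a, b), h, Sym2.mem_mk_right a b⟩

/-! ### Minimisers -/

theorem exists_unique_min (x : V → unitInterval) (B : Set (Sym2 V)) (hBfin : (Vb B).Finite)
    (hBne : (Vb B).Nonempty) (hinj : Set.InjOn x (Vb B)) :
    ∃ a b, IsMinV x B a ∧ IsMinN x B a b ∧
      ∀ a' b', IsMinV x B a' → IsMinN x B a' b' → a' = a ∧ b' = b := by
  obtain ⟨a, ha, hamin⟩ := Set.exists_min_image (Vb B) x hBfin hBne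
  have hNne : {w | s(a, w) ∈ B}.Nonempty := by
    obtain ⟨e, he, hae⟩ := ha
    obtain ⟨w, rfl⟩ := Sym2.mem_iff_exists.mp hae
    exact ⟨w, he⟩
  have hNsub : {w | s(a, w) ∈ B} ⊆ Vb B := fun w hw => mem_vb_right hw
  obtain ⟨b, hb, hbmin⟩ := Set.exists_min_image {w | s(a, w) ∈ B} x (hBfin.subset hNsub) hNne
  refine ⟨a, b, ⟨ha, hamin⟩, ⟨hb, hbmin⟩, ?_⟩
  rintro a' b' ⟨ha', hmin'⟩ ⟨hb', hbmin'⟩
  have haa : a' = a := hinj ha' ha (le_antisymm (hmin' a ha) (hamin a' ha'))
  subst haa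
  refine ⟨rfl, ?_⟩
  exact hinj (mem_vb_right hb') (mem_vb_right hb) (le_antisymm (hbmin' b hb) (hbmin b' hb'))

theorem seed_ne (G : SimpleGraph V) (x : V → unitInterval) (B B' : Set (Sym2 V))
    (hdisj : Disjoint B B') (hBE : B ⊆ G.edgeSet) (hB'E : B' ⊆ G.edgeSet) (a b a' b' : V)
    (hN : (G.neighborSet a).Finite) (hinj : Set.InjOn x (G.neighborSet a))
    (h1 : IsMinN x B a b) (h2 : IsMinN x B' a' b') :
    (a, rk (G.neighborSet a) x b + 1) ≠ (a', rk (G.neighborSet a') x b' + 1) := by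
  intro h
  obtain ⟨haa, hr⟩ := Prod.mk.inj h
  subst haa
  have hb : b ∈ G.neighborSet a := hBE h1.1
  have hb' : b' ∈ G.neighborSet a := hB'E h2.1
  have hbb : b = b' := rank_injOn (G.neighborSet a) hN x hinj hb hb' (Nat.succ_injective hr)
  subst hbb
  exact Set.disjoint_left.mp hdisj h1.1 h2.1

/-! ### Codes and ranks of subgraphs -/

open Classical in
theorem tcode_eq_sum (x : V → unitInterval) (B : Set (Sym2 V)) (hBfin : (Vb B).Finite)
    (F : SimpleGraph V) (hF : F ≤ fromEdgeSet B) :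
    tcode x B F = ∑ p ∈ (hBfin.toFinset ×ˢ hBfin.toFinset).filter (fun p => F.Adj p.1 p.2),
      2 ^ Nat.pair (rk (Vb B) x p.1) (rk (Vb B) x p.2) := by
  unfold tcode
  rw [finsum_eq_sum_of_support_subset (s := hBfin.toFinset ×ˢ hBfin.toFinset), Finset.sum_filter]
  intro p hp
  rw [Function.mem_support] at hp
  have hadj : F.Adj p.1 p.2 := by
    by_contra h
    exact hp (if_neg h)
  have hB : s(p.1, p.2) ∈ B := ((fromEdgeSet_adj _).mp (hF hadj)).1
  simp only [Finset.coe_product, Set.Finite.coe_toFinset, Set.mem_prod]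
  exact ⟨mem_vb_left hB, mem_vb_right hB⟩

theorem tcode_injOn (x : V → unitInterval) (B : Set (Sym2 V)) (hBfin : (Vb B).Finite)
    (hinj : Set.InjOn x (Vb B)) :
    Set.InjOn (tcode x B) {F : SimpleGraph V | F ≤ fromEdgeSet B} := by
  classical
  intro F hF F' hF' h
  have hrk : Set.InjOn (rk (Vb B) x) (Vb B) := rank_injOn (Vb B) hBfin x hinj
  set T : Finset (V × V) := hBfin.toFinset ×ˢ hBfin.toFinset with hT
  set c : V × V → ℕ := fun p => Nat.pair (rk (Vb B) x p.1) (rk (Vb B) x p.2) with hc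
  have hcinj : Set.InjOn c (T : Set (V × V)) := by
    intro p hp q hq hpq
    simp only [hT, Finset.coe_product, Set.Finite.coe_toFinset, Set.mem_prod] at hp hq
    have h2 := Nat.pair_eq_pair.mp hpq
    exact Prod.ext (hrk hp.1 hq.1 h2.1) (hrk hp.2 hq.2 h2.2)
  rw [tcode_eq_sum x B hBfin F hF, tcode_eq_sum x B hBfin F' hF'] at h
  have him : ∀ (F₁ : SimpleGraph V),
      ∑ p ∈ T.filter (fun p => F₁.Adj p.1 p.2), 2 ^ c p =
        ∑ i ∈ (T.filter (fun p => F₁.Adj p.1 p.2)).image c, 2 ^ i := by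
    intro F₁
    rw [Finset.sum_image]
    intro p hp q hq hpq
    exact hcinj (Finset.mem_filter.mp hp).1 (Finset.mem_filter.mp hq).1 hpq
  have h' : ∑ i ∈ (T.filter (fun p => F.Adj p.1 p.2)).image c, 2 ^ i =
      ∑ i ∈ (T.filter (fun p => F'.Adj p.1 p.2)).image c, 2 ^ i := by
    rw [← him F, ← him F']
    exact h
  have himg := Finset.geomSum_injective (n := 2) le_rfl h'
  -- adjacency transfers
  have key : ∀ (F₁ F₂ : SimpleGraph V), F₁ ≤ fromEdgeSet B →
      (T.filter (fun p => F₁.Adj p.1 p.2)).image c = (T.filter (fun p => F₂.Adj p.1 p.2)).image c →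
      F₁ ≤ F₂ := by
    intro F₁ F₂ hF₁ himg a b hab
    have hB : s(a, b) ∈ B := ((fromEdgeSet_adj _).mp (hF₁ hab)).1
    have hmemT : (a, b) ∈ T := by
      simp only [hT, Finset.mem_product, Set.Finite.mem_toFinset]
      exact ⟨mem_vb_left hB, mem_vb_right hB⟩
    have h1 : c (a, b) ∈ (T.filter (fun p => F₁.Adj p.1 p.2)).image c :=
      Finset.mem_image_of_mem c (Finset.mem_filter.mpr ⟨hmemT, hab⟩)
    rw [himg] at h1
    obtain ⟨q, hq, hqc⟩ := Finset.mem_image.mp h1
    have hq' := Finset.mem_filter.mp hq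
    have hqeq : q = (a, b) := hcinj hq'.1 hmemT hqc
    rw [hqeq] at hq'
    exact hq'.2
  exact le_antisymm (key F F' hF himg) (key F' F hF' himg.symm)

theorem trank_lt (x : V → unitInterval) (B : Set (Sym2 V))
    (hfin : {F : SimpleGraph V | MAcy (fromEdgeSet B) F}.Finite) {F : SimpleGraph V}
    (hF : MAcy (fromEdgeSet B) F) : trank x B F < NB B :=
  rank_lt_card {F : SimpleGraph V | MAcy (fromEdgeSet B) F} hfin (tcode x B) hF

theorem trank_injOn (x : V → unitInterval) (B : Set (Sym2 V))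
    (hfin : {F : SimpleGraph V | MAcy (fromEdgeSet B) F}.Finite)
    (hinj : Set.InjOn (tcode x B) {F : SimpleGraph V | MAcy (fromEdgeSet B) F}) :
    Set.InjOn (trank x B) {F : SimpleGraph V | MAcy (fromEdgeSet B) F} :=
  rank_injOn {F : SimpleGraph V | MAcy (fromEdgeSet B) F} hfin (tcode x B) hinj

theorem trank_surj (x : V → unitInterval) (B : Set (Sym2 V))
    (hfin : {F : SimpleGraph V | MAcy (fromEdgeSet B) F}.Finite)
    (hinj : Set.InjOn (tcode x B) {F : SimpleGraph V | MAcy (fromEdgeSet B) F})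
    {k : ℕ} (hk : k < NB B) : ∃ F, MAcy (fromEdgeSet B) F ∧ trank x B F = k :=
  rank_surj {F : SimpleGraph V | MAcy (fromEdgeSet B) F} hfin (tcode x B) hinj hk

end Vale.Agent.Lib.P143
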