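import Mathlib
import Vale.Agent.Lib.P143.Defs
import Vale.Agent.Lib.P143.Graph
import Vale.Agent.Lib.P143.Split
import Vale.Agent.Lib.P143.Factor
import Vale.Agent.Lib.P143.Generic

/-!
# Measurability of the combinatorial data, and the law of `pick`
-/

namespace Vale.Agent.Lib.P143

open SimpleGraph MeasureTheory Set

variable {V : Type}

section Measurability

variable {Ω' : Type} {m' : MeasurableSpace Ω'}

theorem measurable_ncard {α : Type} (A : Set α) (hA : A.Finite) (P : Ω' → α → Prop)
    (hP : ∀ a ∈ A, MeasurableSet {u | P u a}) :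
    Measurable (fun u => Set.ncard {a | a ∈ A ∧ P u a}) := by
  classical
  have h : ∀ u, Set.ncard {a | a ∈ A ∧ P u a} = ∑ a ∈ hA.toFinset, if P u a then 1 else 0 := by
    intro u
    rw [← Finset.card_filter, ← Set.ncard_coe_finset]
    congr 1
    ext a
    simp
  simp only [h]
  apply Finset.measurable_sum
  intro a ha
  exact Measurable.ite (hP a (hA.mem_toFinset.mp ha)) measurable_const measurable_const

variable (X : Ω' → V → unitInterval) (hX : ∀ v, Measurable (fun u => X u v))

include hX

theorem measurable_rk (A : Set V) (hA : A.Finite) (v : V) :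
    Measurable (fun u => rk A (X u) v) :=
  measurable_ncard A hA (fun u w => X u w < X u v) (fun w _ => measurableSet_lt (hX w) (hX v))

theorem measurableSet_isMinV (B : Set (Sym2 V)) (hB : (Vb B).Finite) (a : V) :
    MeasurableSet {u | IsMinV (X u) B a} := by
  by_cases ha : a ∈ Vb B
  · have : {u | IsMinV (X u) B a} = ⋂ w ∈ Vb B, {u | X u a ≤ X u w} := by
      ext u
      simp only [IsMinV, mem_ofPred_eq, mem_iInter]
      exact ⟨fun h => h.2, fun h => ⟨ha, h⟩⟩
    rw [this]
    exact MeasurableSet.biInter hB.countable (fun w _ => measurableSet_le (hX a) (hX w))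
  · have : {u | IsMinV (X u) B a} = ∅ := by
      ext u
      simp only [IsMinV, mem_ofPred_eq, mem_empty_iff_false, iff_false, not_and]
      exact fun h => absurd h ha
    rw [this]
    exact MeasurableSet.empty

theorem measurableSet_isMinN (B : Set (Sym2 V)) (hB : (Vb B).Finite) (a b : V) :
    MeasurableSet {u | IsMinN (X u) B a b} := by
  by_cases hab : s(a, b) ∈ B
  · have : {u | IsMinN (X u) B a b} = ⋂ w ∈ {w | s(a, w) ∈ B}, {u | X u b ≤ X u w} := by
      ext u
      simp only [IsMinN, mem_ofPred_eq, mem_iInter]
      exact ⟨fun h => h.2, fun h => ⟨hab, h⟩⟩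
    rw [this]
    have hfin : {w | s(a, w) ∈ B}.Finite := hB.subset (fun w hw => mem_vb_right hw)
    exact MeasurableSet.biInter hfin.countable (fun w _ => measurableSet_le (hX b) (hX w))
  · have : {u | IsMinN (X u) B a b} = ∅ := by
      ext u
      simp only [IsMinN, mem_ofPred_eq, mem_empty_iff_false, iff_false, not_and]
      exact fun h => absurd h hab
    rw [this]
    exact MeasurableSet.empty

theorem measurable_seedIdx (G : SimpleGraph V) (B : Set (Sym2 V)) (hB : (Vb B).Finite)
    (a b : V) (hN : (G.neighborSet a).Finite) :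
    Measurable (fun u => seedIdx G (X u) B a b) := by
  classical
  unfold seedIdx
  apply Measurable.ite
  · exact (measurableSet_isMinV X hX B hB a).inter (measurableSet_isMinN X hX B hB a b)
  · exact (measurable_rk X hX _ hN b).add measurable_const
  · exact measurable_const

theorem measurable_tcode (B : Set (Sym2 V)) (hB : (Vb B).Finite) (F : SimpleGraph V)
    (hF : F ≤ fromEdgeSet B) : Measurable (fun u => tcode (X u) B F) := by
  classical
  simp only [fun u => tcode_eq_sum (X u) B hB F hF]
  apply Finset.measurable_sum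
  intro p _
  have h1 : Measurable (fun u => (rk (Vb B) (X u) p.1, rk (Vb B) (X u) p.2)) :=
    (measurable_rk X hX _ hB p.1).prodMk (measurable_rk X hX _ hB p.2)
  exact (measurable_of_countable (fun q : ℕ × ℕ => 2 ^ Nat.pair q.1 q.2)).comp h1

theorem measurable_trank (B : Set (Sym2 V)) (hB : (Vb B).Finite)
    (hMA : {F : SimpleGraph V | MAcy (fromEdgeSet B) F}.Finite) (F : SimpleGraph V)
    (hF : MAcy (fromEdgeSet B) F) : Measurable (fun u => trank (X u) B F) := by
  apply measurable_ncard {F' : SimpleGraph V | MAcy (fromEdgeSet B) F'} hMA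
    (fun u F' => tcode (X u) B F' < tcode (X u) B F)
  intro F' hF'
  exact measurableSet_lt (measurable_tcode X hX B hB F' (macy_iff.mp hF').1)
    (measurable_tcode X hX B hB F (macy_iff.mp hF).1)

end Measurability

/-! ### The selection index -/

theorem measurable_pick (N : ℕ) : Measurable (pick N) := by
  unfold pick
  apply Measurable.min _ measurable_const
  exact Nat.measurable_floor.comp (measurable_const.mul measurable_subtype_coe)

theorem pick_lt (N : ℕ) (hN : 0 < N) (z : unitInterval) : pick N z < N := by
  unfold pick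
  have : min ⌊(N : ℝ) * (z : ℝ)⌋₊ (N - 1) ≤ N - 1 := min_le_right _ _
  omega

theorem volume_pick (N : ℕ) (k : ℕ) (hk : k < N) :
    (volume : Measure unitInterval) {z | pick N z = k} = ENNReal.ofReal (1 / (N : ℝ)) := by
  have hN : (0 : ℝ) < N := by
    have : 0 < N := by omega
    exact_mod_cast this
  have hk0 : (0 : ℝ) ≤ (k : ℝ) / N := by positivity
  have hk1 : (k : ℝ) / N ≤ 1 := by
    rw [div_le_one hN]
    exact_mod_cast hk.le
  by_cases hlast : k + 1 = N
  · -- the last index
    have hset : {z : unitInterval | pick N z = k} = Ici (⟨(k : ℝ) / N, hk0, hk1⟩ : unitInterval) := by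
      ext z
      simp only [mem_ofPred_eq, mem_Ici, pick]
      have hNk : N - 1 = k := by omega
      rw [hNk, min_eq_right_iff, Nat.le_floor_iff (mul_nonneg hN.le z.2.1)]
      rw [← Subtype.coe_le_coe]
      simp only
      rw [div_le_iff₀ hN, mul_comm]
    rw [hset, unitInterval.volume_Ici]
    congr 1
    simp only
    have : (N : ℝ) = k + 1 := by exact_mod_cast hlast.symm
    rw [this]
    field_simp
    ring
  · have hk' : k + 1 < N := by omega
    have hk2 : ((k : ℝ) + 1) / N ≤ 1 := by
      rw [div_le_one hN]
      exact_mod_cast hk'.le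
    have hk3 : (0 : ℝ) ≤ ((k : ℝ) + 1) / N := by positivity
    have hset : {z : unitInterval | pick N z = k} =
        Ico (⟨(k : ℝ) / N, hk0, hk1⟩ : unitInterval) ⟨((k : ℝ) + 1) / N, hk3, hk2⟩ := by
      ext z
      simp only [mem_ofPred_eq, mem_Ico, pick]
      have hNk : k < N - 1 := by omega
      have h1 : min ⌊(N : ℝ) * (z : ℝ)⌋₊ (N - 1) = k ↔ ⌊(N : ℝ) * (z : ℝ)⌋₊ = k := by
        constructor
        · intro h
          rcases min_choice ⌊(N : ℝ) * (z : ℝ)⌋₊ (N - 1) with h' | h'
          · rw [h'] at h
            exact h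
          · rw [h'] at h
            omega
        · intro h
          rw [h]
          exact min_eq_left hNk.le
      rw [h1, Nat.floor_eq_iff (mul_nonneg hN.le z.2.1)]
      rw [← Subtype.coe_le_coe, ← Subtype.coe_lt_coe]
      simp only
      rw [div_le_iff₀ hN, lt_div_iff₀ hN, mul_comm]
    rw [hset, unitInterval.volume_Ico]
    congr 1
    simp only
    field_simp
    ring

end Vale.Agent.Lib.P143
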