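import Mathlib
import Vale.Agent.Lib.P143.Defs
import Vale.Agent.Lib.P143.Graph
import Vale.Agent.Lib.P143.Split
import Vale.Agent.Lib.P143.Factor
import Vale.Agent.Lib.P143.Generic
import Vale.Agent.Lib.P143.Meas

/-!
# The law of the factor map
-/

namespace Vale.Agent.Lib.P143

open SimpleGraph MeasureTheory Set ProbabilityTheory

variable {V : Type}

/-! ### A partition lemma -/

theorem measure_of_cells {Ω : Type} {m : MeasurableSpace Ω} (μ : Measure Ω)
    [IsProbabilityMeasure μ] {D : Type} [Countable D] (pat : Ω → D)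
    (m₁ m₂ : MeasurableSpace Ω) (hind : Indep m₁ m₂ μ) (h₁ : m₁ ≤ m) (h₂ : m₂ ≤ m)
    (hpat : ∀ d, MeasurableSet[m₁] (pat ⁻¹' {d}))
    (R : D → Set Ω) (hR : ∀ d, MeasurableSet[m₂] (R d)) (c : ENNReal)
    (hc : ∀ d, μ (pat ⁻¹' {d}) ≠ 0 → μ (R d) = c)
    (E : Set Ω) (hE : ∀ d, E ∩ pat ⁻¹' {d} = R d ∩ pat ⁻¹' {d}) :
    MeasurableSet[m] E ∧ μ E = c := by
  have hEeq : E = ⋃ d, (pat ⁻¹' {d} ∩ R d) := by
    ext u
    simp only [mem_iUnion, mem_inter_iff, mem_preimage, mem_singleton_iff]
    constructor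
    · intro hu
      have h : u ∈ E ∩ pat ⁻¹' {pat u} := ⟨hu, rfl⟩
      rw [hE] at h
      exact ⟨pat u, rfl, h.1⟩
    · rintro ⟨d, hd, hu⟩
      have h : u ∈ R d ∩ pat ⁻¹' {d} := ⟨hu, hd⟩
      rw [← hE] at h
      exact h.1
  have hmeas : ∀ d, MeasurableSet[m] (pat ⁻¹' {d} ∩ R d) :=
    fun d => @MeasurableSet.inter Ω m _ _ (h₁ _ (hpat d)) (h₂ _ (hR d))
  have hdisj : Pairwise (Function.onFun Disjoint (fun d => pat ⁻¹' {d} ∩ R d)) := by
    intro d d' hdd
    rw [Function.onFun, Set.disjoint_left]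
    rintro u ⟨h1, -⟩ ⟨h2, -⟩
    exact hdd (h1.symm.trans h2)
  have hdisj' : Pairwise (Function.onFun Disjoint (fun d => pat ⁻¹' {d})) := by
    intro d d' hdd
    rw [Function.onFun, Set.disjoint_left]
    intro u h1 h2
    exact hdd (h1.symm.trans h2)
  refine ⟨hEeq ▸ MeasurableSet.iUnion (m := m) hmeas, ?_⟩
  rw [hEeq, measure_iUnion (μ := μ) hdisj hmeas]
  have hterm : ∀ d, μ (pat ⁻¹' {d} ∩ R d) = c * μ (pat ⁻¹' {d}) := by
    intro d
    rw [(Indep_iff m₁ m₂ μ).mp hind _ _ (hpat d) (hR d)]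
    by_cases h0 : μ (pat ⁻¹' {d}) = 0
    · rw [h0]
      simp
    · rw [hc d h0, mul_comm]
  simp only [hterm]
  rw [ENNReal.tsum_mul_left, ← measure_iUnion (μ := μ) hdisj' (fun d => h₁ _ (hpat d))]
  have huniv : (⋃ d, pat ⁻¹' {d}) = univ := by
    ext u
    simp
  rw [huniv, measure_univ, mul_one]

/-! ### The two independent families of labels -/

/-- The sigma-algebra generated by one of the split labels. -/
noncomputable def mZ (p : V × ℕ) : MeasurableSpace (V → unitInterval) :=
  MeasurableSpace.comap (fun u : V → unitInterval => splitMap (u p.1) p.2) inferInstance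

/-- The sigma-algebra generated by the ordering labels. -/
noncomputable def mX : MeasurableSpace (V → unitInterval) := ⨆ p ∈ {p : V × ℕ | p.2 = 0}, mZ p

/-- The sigma-algebra generated by the seed labels. -/
noncomputable def mXi : MeasurableSpace (V → unitInterval) := ⨆ p ∈ {p : V × ℕ | p.2 ≠ 0}, mZ p

theorem mZ_le (p : V × ℕ) : mZ p ≤ MeasurableSpace.pi := (measurable_Z p).comap_le

theorem mX_le : (mX : MeasurableSpace (V → unitInterval)) ≤ MeasurableSpace.pi :=
  iSup₂_le (fun p _ => mZ_le p)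

theorem mXi_le : (mXi : MeasurableSpace (V → unitInterval)) ≤ MeasurableSpace.pi :=
  iSup₂_le (fun p _ => mZ_le p)

theorem indep_mX_mXi : Indep (mX : MeasurableSpace (V → unitInterval)) mXi (labelMeasure V) := by
  have h : iIndep (fun p : V × ℕ => mZ p) (labelMeasure V) := iIndepFun_Z.iIndep
  exact indep_iSup_of_disjoint mZ_le h
    (Set.disjoint_left.mpr (fun p (h1 : p.2 = 0) (h2 : p.2 ≠ 0) => h2 h1))

theorem measurable_X (v : V) :
    Measurable[mX] (fun u : V → unitInterval => splitMap (u v) 0) := by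
  have h1 : Measurable[mZ (v, 0)] (fun u : V → unitInterval => splitMap (u v) 0) :=
    comap_measurable _
  exact h1.mono (le_iSup₂ (f := fun (p : V × ℕ) (_ : p ∈ {p : V × ℕ | p.2 = 0}) => mZ p)
    (v, 0) rfl) le_rfl

theorem measurableSet_xi (a : V) (j : ℕ) (hj : j ≠ 0) (s : Set unitInterval)
    (hs : MeasurableSet s) :
    MeasurableSet[mXi] {u : V → unitInterval | splitMap (u a) j ∈ s} := by
  have h1 : MeasurableSet[mZ (a, j)] {u : V → unitInterval | splitMap (u a) j ∈ s} :=
    ⟨s, hs, rfl⟩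
  exact (le_iSup₂ (f := fun (p : V × ℕ) (_ : p ∈ {p : V × ℕ | p.2 ≠ 0}) => mZ p)
    (a, j) hj) _ h1

/-! ### Ties have probability zero -/

theorem measure_tie (v w : V) (hvw : v ≠ w) :
    labelMeasure V {u | splitMap (u v) 0 = splitMap (u w) 0} = 0 := by
  have hne : ((v, 0) : V × ℕ) ≠ (w, 0) := by
    intro h
    exact hvw (Prod.mk.inj h).1
  have hind : IndepFun (fun u : V → unitInterval => splitMap (u v) 0)
      (fun u : V → unitInterval => splitMap (u w) 0) (labelMeasure V) :=
    (iIndepFun_Z (V := V)).indepFun hne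
  have hlaw := (indepFun_iff_map_prod_eq_prod_map_map (measurable_Z (V := V) (v, 0)).aemeasurable
    (measurable_Z (V := V) (w, 0)).aemeasurable).mp hind
  have hv := map_Z (V := V) (v, 0)
  have hw := map_Z (V := V) (w, 0)
  simp only at hv hw hlaw
  rw [hv, hw] at hlaw
  have hdiag : MeasurableSet {p : unitInterval × unitInterval | p.1 = p.2} :=
    (isClosed_eq continuous_fst continuous_snd).measurableSet
  have hpair : Measurable (fun u : V → unitInterval => (splitMap (u v) 0, splitMap (u w) 0)) :=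
    (measurable_Z (V := V) (v, 0)).prodMk (measurable_Z (V := V) (w, 0))
  have hset : {u : V → unitInterval | splitMap (u v) 0 = splitMap (u w) 0} =
      (fun u : V → unitInterval => (splitMap (u v) 0, splitMap (u w) 0)) ⁻¹'
        {p : unitInterval × unitInterval | p.1 = p.2} := rfl
  rw [hset, ← Measure.map_apply hpair hdiag, hlaw, Measure.prod_apply hdiag]
  have hz : ∀ a : unitInterval, (volume : Measure unitInterval)
      (Prod.mk a ⁻¹' {p : unitInterval × unitInterval | p.1 = p.2}) = 0 := by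
    intro a
    have : Prod.mk a ⁻¹' {p : unitInterval × unitInterval | p.1 = p.2} = {a} := by
      ext b
      simp [eq_comm]
    rw [this]
    exact measure_singleton a
  simp only [hz, lintegral_zero]

theorem measure_not_injOn (W : Set V) (hW : W.Finite) :
    labelMeasure V {u | ¬ Set.InjOn (fun v => splitMap (u v) 0) W} = 0 := by
  have hsub : {u : V → unitInterval | ¬ Set.InjOn (fun v => splitMap (u v) 0) W} ⊆
      ⋃ v ∈ W, ⋃ w ∈ {w | w ∈ W ∧ v ≠ w}, {u | splitMap (u v) 0 = splitMap (u w) 0} := by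
    intro u hu
    simp only [Set.InjOn, mem_ofPred_eq, not_forall] at hu
    obtain ⟨v, hv, w, hw, heq, hne⟩ := hu
    simp only [mem_iUnion]
    exact ⟨v, hv, w, ⟨hw, hne⟩, heq⟩
  apply measure_mono_null hsub
  rw [measure_biUnion_null_iff hW.countable]
  intro v _
  rw [measure_biUnion_null_iff (hW.subset (fun w h => h.1)).countable]
  intro w hw
  exact measure_tie v w hw.2

/-! ### The acceptance sets -/

/-- The set of seed labels for which the subgraph selected in the block `B` meets `K'`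
exactly in `S'`. -/
def Dset (x₀ : V → unitInterval) (B K' S' : Set (Sym2 V)) : Set unitInterval :=
  {z | ∃ F, (MAcy (fromEdgeSet B) F ∧ F.edgeSet ∩ K' = S') ∧ trank x₀ B F = pick (NB B) z}

theorem dset_eq_biUnion (x₀ : V → unitInterval) (B K' S' : Set (Sym2 V))
    (hfin : {F : SimpleGraph V | MAcy (fromEdgeSet B) F ∧ F.edgeSet ∩ K' = S'}.Finite) :
    Dset x₀ B K' S' = ⋃ F ∈ hfin.toFinset, {z | pick (NB B) z = trank x₀ B F} := by
  ext z
  simp only [Dset, mem_ofPred_eq, mem_iUnion, Set.Finite.mem_toFinset, exists_prop]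
  constructor
  · rintro ⟨F, hF, h⟩
    exact ⟨F, hF, h.symm⟩
  · rintro ⟨F, hF, h⟩
    exact ⟨F, hF, h.symm⟩

theorem measurableSet_dset (x₀ : V → unitInterval) (B K' S' : Set (Sym2 V))
    (hMA : {F : SimpleGraph V | MAcy (fromEdgeSet B) F}.Finite) :
    MeasurableSet (Dset x₀ B K' S') := by
  have hfin : {F : SimpleGraph V | MAcy (fromEdgeSet B) F ∧ F.edgeSet ∩ K' = S'}.Finite :=
    hMA.subset (fun F hF => hF.1)
  rw [dset_eq_biUnion x₀ B K' S' hfin]
  exact Finset.measurableSet_biUnion _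
    (fun F _ => measurable_pick (NB B) (measurableSet_singleton _))

theorem volume_dset (x₀ : V → unitInterval) (B K' S' : Set (Sym2 V))
    (hMA : {F : SimpleGraph V | MAcy (fromEdgeSet B) F}.Finite)
    (hinj : Set.InjOn (tcode x₀ B) {F : SimpleGraph V | MAcy (fromEdgeSet B) F}) :
    (volume : Measure unitInterval) (Dset x₀ B K' S') =
      ENNReal.ofReal ((cnt (fromEdgeSet B) K' S' : ℝ) / (cnt (fromEdgeSet B) ∅ ∅ : ℝ)) := by
  have hfin : {F : SimpleGraph V | MAcy (fromEdgeSet B) F ∧ F.edgeSet ∩ K' = S'}.Finite :=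
    hMA.subset (fun F hF => hF.1)
  rw [dset_eq_biUnion x₀ B K' S' hfin, measure_biUnion_finset]
  · have hterm : ∀ F ∈ hfin.toFinset, (volume : Measure unitInterval)
        {z | pick (NB B) z = trank x₀ B F} = ENNReal.ofReal (1 / (NB B : ℝ)) := by
      intro F hF
      exact volume_pick (NB B) _ (trank_lt x₀ B hMA ((hfin.mem_toFinset.mp hF).1))
    rw [Finset.sum_congr rfl hterm, Finset.sum_const, nsmul_eq_mul,
      ← ENNReal.ofReal_natCast, ← ENNReal.ofReal_mul (Nat.cast_nonneg _)]
    congr 1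
    have h1 : hfin.toFinset.card = cnt (fromEdgeSet B) K' S' := by
      unfold cnt
      rw [Set.ncard_eq_toFinset_card _ hfin]
    have h2 : NB B = cnt (fromEdgeSet B) ∅ ∅ := by
      rw [cnt_empty]
      rfl
    rw [h1, h2]
    ring
  · intro F hF F' hF' hne
    rw [Function.onFun, Set.disjoint_left]
    intro z hz hz'
    apply hne
    have hF1 := (hfin.mem_toFinset.mp hF).1
    have hF2 := (hfin.mem_toFinset.mp hF').1
    exact trank_injOn x₀ B hMA hinj hF1 hF2 (hz.symm.trans hz')
  · intro F _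
    exact measurable_pick (NB B) (measurableSet_singleton _)

end Vale.Agent.Lib.P143
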