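import Mathlib
import Vale.Agent.Lib.P143.Defs
import Vale.Agent.Lib.P143.Graph
import Vale.Agent.Lib.P143.Split
import Vale.Agent.Lib.P143.Factor
import Vale.Agent.Lib.P143.Generic
import Vale.Agent.Lib.P143.Meas
import Vale.Agent.Lib.P143.Law

/-!
# The law of the factor map for a fixed generic ordering
-/

namespace Vale.Agent.Lib.P143

open SimpleGraph MeasureTheory Set ProbabilityTheory

variable {V : Type}

/-- The properties of a block that are used below. -/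
structure GoodB (G : SimpleGraph V) (B : Set (Sym2 V)) : Prop where
  sub : B ⊆ G.edgeSet
  fin : B.Finite
  ne : B.Nonempty
  blk : ∀ e ∈ B, blockOf G e = B

theorem goodB_of_mem (G : SimpleGraph V) (hblocks : ∀ e ∈ G.edgeSet, (blockOf G e).Finite)
    (K : Set (Sym2 V)) (hK : K.Finite) (hKE : K ⊆ G.edgeSet) {B : Set (Sym2 V)}
    (hB : B ∈ blocksOf G K hK) : GoodB G B := by
  obtain ⟨e, heK, rfl⟩ := (mem_blocksOf G K hK B).mp hB
  exact ⟨blockOf_subset_edgeSet G (hKE heK), hblocks e (hKE heK), ⟨e, mem_blockOf_self G e⟩,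
    fun f hf => blockOf_eq_of_mem G hf⟩

namespace GoodB

variable {G : SimpleGraph V} {B : Set (Sym2 V)}

theorem vfin (h : GoodB G B) : (Vb B).Finite := vb_finite B h.fin

theorem vne (h : GoodB G B) : (Vb B).Nonempty := by
  obtain ⟨e, he⟩ := h.ne
  induction e with
  | h a b => exact ⟨a, mem_vb_left he⟩

theorem maFin (h : GoodB G B) : {F : SimpleGraph V | MAcy (fromEdgeSet B) F}.Finite := by
  apply finite_macy
  rw [edgeSet_fromEdgeSet_of_subset G h.sub]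
  exact h.fin

theorem nb_pos (h : GoodB G B) : 0 < NB B := by
  have h1 : cnt (fromEdgeSet B) ∅ ∅ ≠ 0 := by
    apply cnt_empty_ne_zero
    rw [edgeSet_fromEdgeSet_of_subset G h.sub]
    exact h.fin
  rw [cnt_empty] at h1
  exact Nat.pos_of_ne_zero h1

theorem tinj (h : GoodB G B) (x₀ : V → unitInterval) (hinj : Set.InjOn x₀ (Vb B)) :
    Set.InjOn (tcode x₀ B) {F : SimpleGraph V | MAcy (fromEdgeSet B) F} :=
  (tcode_injOn x₀ B h.vfin hinj).mono (fun _ hF => (macy_iff.mp hF).1)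

end GoodB

/-! ### The selected subgraph of a block, for a generic ordering -/

theorem seedIdx_pos (G : SimpleGraph V) (x₀ : V → unitInterval) (B : Set (Sym2 V)) (a b : V)
    (ha : IsMinV x₀ B a) (hb : IsMinN x₀ B a b) :
    seedIdx G x₀ B a b = rk (G.neighborSet a) x₀ b + 1 := by
  unfold seedIdx
  exact if_pos ⟨ha, hb⟩

theorem seedIdx_ne_zero (G : SimpleGraph V) (x₀ : V → unitInterval) (B : Set (Sym2 V)) (a b : V)
    (h : seedIdx G x₀ B a b ≠ 0) : IsMinV x₀ B a ∧ IsMinN x₀ B a b := by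
  by_contra hc
  apply h
  unfold seedIdx
  exact if_neg hc

theorem chosenD_iff (G : SimpleGraph V) (x₀ : V → unitInterval) (B : Set (Sym2 V)) (a b : V)
    (ha : IsMinV x₀ B a) (hb : IsMinN x₀ B a b)
    (huniq : ∀ a' b', IsMinV x₀ B a' → IsMinN x₀ B a' b' → a' = a ∧ b' = b)
    (ξ : V → ℕ → unitInterval) (F : SimpleGraph V) :
    ChosenD (seedIdx G x₀) (trank x₀) ξ B F ↔
      MAcy (fromEdgeSet B) F ∧
        trank x₀ B F = pick (NB B) (ξ a (rk (G.neighborSet a) x₀ b + 1)) := by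
  unfold ChosenD
  constructor
  · rintro ⟨hF, a', b', hne, heq⟩
    obtain ⟨h1, h2⟩ := seedIdx_ne_zero G x₀ B a' b' hne
    obtain ⟨rfl, rfl⟩ := huniq a' b' h1 h2
    rw [seedIdx_pos G x₀ B a' b' h1 h2] at heq
    exact ⟨hF, heq⟩
  · rintro ⟨hF, heq⟩
    refine ⟨hF, a, b, ?_, ?_⟩
    · rw [seedIdx_pos G x₀ B a b ha hb]
      exact Nat.succ_ne_zero _
    · rw [seedIdx_pos G x₀ B a b ha hb]
      exact heq

theorem mem_psiD_iff (G : SimpleGraph V) (x₀ : V → unitInterval) (B : Set (Sym2 V))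
    (hB : GoodB G B) (hgen : Set.InjOn x₀ (Vb B)) (a b : V)
    (ha : IsMinV x₀ B a) (hb : IsMinN x₀ B a b)
    (huniq : ∀ a' b', IsMinV x₀ B a' → IsMinN x₀ B a' b' → a' = a ∧ b' = b)
    (ξ : V → ℕ → unitInterval) (F : SimpleGraph V) (hF : MAcy (fromEdgeSet B) F)
    (hpick : trank x₀ B F = pick (NB B) (ξ a (rk (G.neighborSet a) x₀ b + 1)))
    (e : Sym2 V) (he : e ∈ B) :
    e ∈ PsiD G (seedIdx G x₀) (trank x₀) ξ ↔ e ∈ F.edgeSet := by
  unfold PsiD
  simp only [mem_ofPred_eq]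
  rw [hB.blk e he]
  constructor
  · rintro ⟨_, F', hF', heF'⟩
    obtain ⟨hF'm, hF'eq⟩ := (chosenD_iff G x₀ B a b ha hb huniq ξ F').mp hF'
    have hFF : F' = F :=
      trank_injOn x₀ B hB.maFin (hB.tinj x₀ hgen) hF'm hF (hF'eq.trans hpick.symm)
    rw [← hFF]
    exact heF'
  · intro h
    exact ⟨hB.sub he, F, (chosenD_iff G x₀ B a b ha hb huniq ξ F).mpr ⟨hF, hpick⟩, h⟩

theorem inter_eq_iff_forall {α : Type} (P K S : Set α) (hSK : S ⊆ K) :
    P ∩ K = S ↔ ∀ e ∈ K, (e ∈ P ↔ e ∈ S) := by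
  constructor
  · intro h e heK
    rw [← h]
    exact ⟨fun hp => ⟨hp, heK⟩, fun hp => hp.1⟩
  · intro h
    ext e
    constructor
    · rintro ⟨hp, hk⟩
      exact (h e hk).mp hp
    · intro hs
      exact ⟨(h e (hSK hs)).mpr hs, hSK hs⟩

theorem psiD_inter_eq_iff (G : SimpleGraph V) (K S : Set (Sym2 V)) (hK : K.Finite)
    (hSK : S ⊆ K) (x₀ : V → unitInterval)
    (hgood : ∀ B ∈ blocksOf G K hK, GoodB G B)
    (hgen : ∀ B ∈ blocksOf G K hK, Set.InjOn x₀ (Vb B))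
    (a b : ↥(blocksOf G K hK) → V)
    (ha : ∀ B : ↥(blocksOf G K hK), IsMinV x₀ B.1 (a B))
    (hb : ∀ B : ↥(blocksOf G K hK), IsMinN x₀ B.1 (a B) (b B))
    (huniq : ∀ B : ↥(blocksOf G K hK), ∀ a' b', IsMinV x₀ B.1 a' → IsMinN x₀ B.1 a' b' →
      a' = a B ∧ b' = b B)
    (ξ : V → ℕ → unitInterval) :
    PsiD G (seedIdx G x₀) (trank x₀) ξ ∩ K = S ↔
      ∀ B : ↥(blocksOf G K hK), ξ (a B) (rk (G.neighborSet (a B)) x₀ (b B) + 1) ∈
        Dset x₀ B.1 (K ∩ B.1) (S ∩ B.1) := by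
  rw [inter_eq_iff_forall _ K S hSK]
  constructor
  · intro h B
    have hB := hgood B.1 B.2
    have hlt := pick_lt (NB B.1) hB.nb_pos (ξ (a B) (rk (G.neighborSet (a B)) x₀ (b B) + 1))
    obtain ⟨F, hF, hFk⟩ := trank_surj x₀ B.1 hB.maFin (hB.tinj x₀ (hgen B.1 B.2)) hlt
    refine ⟨F, ⟨hF, ?_⟩, hFk⟩
    ext e
    constructor
    · rintro ⟨heF, heK, heB⟩
      refine ⟨?_, heB⟩
      rw [← h e heK]
      exact (mem_psiD_iff G x₀ B.1 hB (hgen B.1 B.2) (a B) (b B) (ha B) (hb B) (huniq B) ξ F hF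
        hFk e heB).mpr heF
    · rintro ⟨heS, heB⟩
      refine ⟨?_, hSK heS, heB⟩
      exact (mem_psiD_iff G x₀ B.1 hB (hgen B.1 B.2) (a B) (b B) (ha B) (hb B) (huniq B) ξ F hF
        hFk e heB).mp ((h e (hSK heS)).mpr heS)
  · intro h e heK
    have hBmem : blockOf G e ∈ blocksOf G K hK := (mem_blocksOf G K hK _).mpr ⟨e, heK, rfl⟩
    have hB := hgood _ hBmem
    obtain ⟨F, ⟨hF, hFK⟩, hFk⟩ := h ⟨blockOf G e, hBmem⟩
    have heB : e ∈ blockOf G e := mem_blockOf_self G e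
    rw [mem_psiD_iff G x₀ (blockOf G e) hB (hgen _ hBmem) _ _ (ha ⟨_, hBmem⟩) (hb ⟨_, hBmem⟩)
      (huniq ⟨_, hBmem⟩) ξ F hF hFk e heB]
    constructor
    · intro heF
      have : e ∈ F.edgeSet ∩ (K ∩ blockOf G e) := ⟨heF, heK, heB⟩
      rw [hFK] at this
      exact this.1
    · intro heS
      have : e ∈ S ∩ blockOf G e := ⟨heS, heB⟩
      rw [← hFK] at this
      exact this.1

/-! ### The law for a fixed generic ordering -/

theorem measure_section (G : SimpleGraph V) (hlf : ∀ v, (G.neighborSet v).Finite)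
    (K S : Set (Sym2 V)) (hK : K.Finite) (hSK : S ⊆ K) (x₀ : V → unitInterval)
    (hgood : ∀ B ∈ blocksOf G K hK, GoodB G B)
    (hgen : ∀ B ∈ blocksOf G K hK, Set.InjOn x₀ (Vb B))
    (hgenN : ∀ B ∈ blocksOf G K hK, ∀ a ∈ Vb B, Set.InjOn x₀ (G.neighborSet a)) :
    labelMeasure V {u | PsiD G (seedIdx G x₀) (trank x₀) (fun v => splitMap (u v)) ∩ K = S} =
      ∏ B ∈ blocksOf G K hK, ENNReal.ofReal
        ((cnt (fromEdgeSet B) (K ∩ B) (S ∩ B) : ℝ) / (cnt (fromEdgeSet B) ∅ ∅ : ℝ)) := by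
  classical
  have hex : ∀ B : ↥(blocksOf G K hK), ∃ a b, IsMinV x₀ B.1 a ∧ IsMinN x₀ B.1 a b ∧
      ∀ a' b', IsMinV x₀ B.1 a' → IsMinN x₀ B.1 a' b' → a' = a ∧ b' = b :=
    fun B => exists_unique_min x₀ B.1 (hgood B.1 B.2).vfin (hgood B.1 B.2).vne (hgen B.1 B.2)
  choose a b ha hb huniq using hex
  set idx : ↥(blocksOf G K hK) → V × ℕ :=
    fun B => (a B, rk (G.neighborSet (a B)) x₀ (b B) + 1) with hidx
  have hidx_inj : Function.Injective idx := by
    intro B B' h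
    by_contra hne
    have hne' : B.1 ≠ B'.1 := fun h' => hne (Subtype.ext h')
    obtain ⟨e, heK, he⟩ := (mem_blocksOf G K hK B.1).mp B.2
    obtain ⟨e', heK', he'⟩ := (mem_blocksOf G K hK B'.1).mp B'.2
    have hdisj : Disjoint B.1 B'.1 := by
      rw [← he, ← he']
      apply blockOf_disjoint
      rw [he, he']
      exact hne'
    exact seed_ne G x₀ B.1 B'.1 hdisj (hgood B.1 B.2).sub (hgood B'.1 B'.2).sub (a B) (b B)
      (a B') (b B') (hlf (a B)) (hgenN B.1 B.2 (a B) (ha B).1) (hb B) (hb B') h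
  have hset : {u : V → unitInterval |
      PsiD G (seedIdx G x₀) (trank x₀) (fun v => splitMap (u v)) ∩ K = S} =
      ⋂ B : ↥(blocksOf G K hK),
        (fun u : V → unitInterval => splitMap (u (idx B).1) (idx B).2) ⁻¹'
          Dset x₀ B.1 (K ∩ B.1) (S ∩ B.1) := by
    ext u
    simp only [mem_ofPred_eq, mem_iInter, mem_preimage]
    exact psiD_inter_eq_iff G K S hK hSK x₀ hgood hgen a b ha hb huniq (fun v => splitMap (u v))
  rw [hset]
  have hind := (iIndepFun_Z (V := V)).precomp hidx_inj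
  rw [hind.meas_iInter (fun B => ⟨Dset x₀ B.1 (K ∩ B.1) (S ∩ B.1),
    measurableSet_dset x₀ B.1 _ _ (hgood B.1 B.2).maFin, rfl⟩)]
  rw [← Finset.prod_coe_sort (blocksOf G K hK)]
  apply Finset.prod_congr rfl
  intro B _
  rw [← Measure.map_apply (measurable_Z (idx B))
    (measurableSet_dset x₀ B.1 _ _ (hgood B.1 B.2).maFin), map_Z (idx B)]
  exact volume_dset x₀ B.1 _ _ (hgood B.1 B.2).maFin ((hgood B.1 B.2).tinj x₀ (hgen B.1 B.2))

end Vale.Agent.Lib.P143
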