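import Mathlib
import Vale.Agent.Lib.P143.Defs
import Vale.Agent.Lib.P143.Graph
import Vale.Agent.Lib.P143.Split
import Vale.Agent.Lib.P143.Factor
import Vale.Agent.Lib.P143.Generic
import Vale.Agent.Lib.P143.Meas
import Vale.Agent.Lib.P143.Law
import Vale.Agent.Lib.P143.Local

/-!
# The law of the factor map
-/

namespace Vale.Agent.Lib.P143

open SimpleGraph MeasureTheory Set ProbabilityTheory

variable {V : Type}

/-! ### Congruence and measurability of the selected edge set -/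

theorem psiD_inter_subset (G : SimpleGraph V) (K : Set (Sym2 V))
    (σ σ' : Set (Sym2 V) → V → V → ℕ) (τ τ' : Set (Sym2 V) → SimpleGraph V → ℕ)
    (ξ : V → ℕ → unitInterval)
    (hσ : ∀ e ∈ K, ∀ a b, σ (blockOf G e) a b = σ' (blockOf G e) a b)
    (hτ : ∀ e ∈ K, ∀ F, MAcy (fromEdgeSet (blockOf G e)) F →
      τ (blockOf G e) F = τ' (blockOf G e) F) :
    PsiD G σ τ ξ ∩ K ⊆ PsiD G σ' τ' ξ ∩ K := by
  rintro e ⟨⟨heG, F, ⟨hF, a, b, hne, heq⟩, heF⟩, heK⟩
  refine ⟨⟨heG, F, ⟨hF, a, b, ?_, ?_⟩, heF⟩, heK⟩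
  · rw [← hσ e heK]
    exact hne
  · rw [← hσ e heK, ← hτ e heK F hF]
    exact heq

theorem psiD_inter_congr (G : SimpleGraph V) (K : Set (Sym2 V))
    (σ σ' : Set (Sym2 V) → V → V → ℕ) (τ τ' : Set (Sym2 V) → SimpleGraph V → ℕ)
    (ξ : V → ℕ → unitInterval)
    (hσ : ∀ e ∈ K, ∀ a b, σ (blockOf G e) a b = σ' (blockOf G e) a b)
    (hτ : ∀ e ∈ K, ∀ F, MAcy (fromEdgeSet (blockOf G e)) F →
      τ (blockOf G e) F = τ' (blockOf G e) F) :
    PsiD G σ τ ξ ∩ K = PsiD G σ' τ' ξ ∩ K :=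
  Set.Subset.antisymm (psiD_inter_subset G K σ σ' τ τ' ξ hσ hτ)
    (psiD_inter_subset G K σ' σ τ' τ ξ (fun e he a b => (hσ e he a b).symm)
      (fun e he F hF => (hτ e he F hF).symm))

theorem measurableSet_mem_psiD (G : SimpleGraph V) (σ : Set (Sym2 V) → V → V → ℕ)
    (τ : Set (Sym2 V) → SimpleGraph V → ℕ) (e : Sym2 V)
    (hMA : {F : SimpleGraph V | MAcy (fromEdgeSet (blockOf G e)) F}.Countable)
    (hσ : {p : V × V | σ (blockOf G e) p.1 p.2 ≠ 0}.Countable) :
    MeasurableSet[mXi] {u : V → unitInterval | e ∈ PsiD G σ τ (fun v => splitMap (u v))} := by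
  by_cases heG : e ∈ G.edgeSet
  · have hset : {u : V → unitInterval | e ∈ PsiD G σ τ (fun v => splitMap (u v))} =
        ⋃ F ∈ {F : SimpleGraph V | MAcy (fromEdgeSet (blockOf G e)) F ∧ e ∈ F.edgeSet},
          ⋃ p ∈ {p : V × V | σ (blockOf G e) p.1 p.2 ≠ 0},
            {u : V → unitInterval | splitMap (u p.1) (σ (blockOf G e) p.1 p.2) ∈
              pick (NB (blockOf G e)) ⁻¹' {τ (blockOf G e) F}} := by
      ext u
      simp only [PsiD, ChosenD, mem_ofPred_eq, mem_iUnion, mem_preimage, mem_singleton_iff,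
        exists_prop, Prod.exists]
      constructor
      · rintro ⟨_, F, ⟨hF, a, b, hne, heq⟩, heF⟩
        exact ⟨F, ⟨hF, heF⟩, a, b, hne, heq.symm⟩
      · rintro ⟨F, ⟨hF, heF⟩, a, b, hne, heq⟩
        exact ⟨heG, F, ⟨hF, a, b, hne, heq.symm⟩, heF⟩
    rw [hset]
    refine MeasurableSet.biUnion (hMA.mono (fun F hF => hF.1)) (fun F _ => ?_)
    refine MeasurableSet.biUnion hσ (fun p hp => ?_)
    exact measurableSet_xi p.1 _ hp _ (measurable_pick _ (measurableSet_singleton _))
  · have hset : {u : V → unitInterval | e ∈ PsiD G σ τ (fun v => splitMap (u v))} = ∅ := by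
      ext u
      simp only [PsiD, mem_ofPred_eq, mem_empty_iff_false, iff_false, not_and]
      intro h
      exact absurd h heG
    rw [hset]
    exact @MeasurableSet.empty _ mXi

theorem measurableSet_psiD_inter (G : SimpleGraph V) (σ : Set (Sym2 V) → V → V → ℕ)
    (τ : Set (Sym2 V) → SimpleGraph V → ℕ) (K S : Set (Sym2 V)) (hK : K.Finite) (hSK : S ⊆ K)
    (hMA : ∀ e ∈ K, {F : SimpleGraph V | MAcy (fromEdgeSet (blockOf G e)) F}.Countable)
    (hσ : ∀ e ∈ K, {p : V × V | σ (blockOf G e) p.1 p.2 ≠ 0}.Countable) :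
    MeasurableSet[mXi]
      {u : V → unitInterval | PsiD G σ τ (fun v => splitMap (u v)) ∩ K = S} := by
  have hset : {u : V → unitInterval | PsiD G σ τ (fun v => splitMap (u v)) ∩ K = S} =
      ⋂ e ∈ K, {u : V → unitInterval | e ∈ PsiD G σ τ (fun v => splitMap (u v)) ↔ e ∈ S} := by
    ext u
    simp only [mem_ofPred_eq, mem_iInter]
    exact inter_eq_iff_forall _ K S hSK
  rw [hset]
  refine MeasurableSet.biInter hK.countable (fun e he => ?_)
  by_cases heS : e ∈ S
  · have h1 : {u : V → unitInterval | e ∈ PsiD G σ τ (fun v => splitMap (u v)) ↔ e ∈ S} =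
        {u : V → unitInterval | e ∈ PsiD G σ τ (fun v => splitMap (u v))} := by
      ext u
      simp only [mem_ofPred_eq, heS, iff_true]
    rw [h1]
    exact measurableSet_mem_psiD G σ τ e (hMA e he) (hσ e he)
  · have h1 : {u : V → unitInterval | e ∈ PsiD G σ τ (fun v => splitMap (u v)) ↔ e ∈ S} =
        {u : V → unitInterval | e ∈ PsiD G σ τ (fun v => splitMap (u v))}ᶜ := by
      ext u
      simp only [mem_ofPred_eq, heS, iff_false, mem_compl_iff]
    rw [h1]
    exact (measurableSet_mem_psiD G σ τ e (hMA e he) (hσ e he)).compl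

/-! ### The pattern of the ordering labels -/

section Pattern

variable (G : SimpleGraph V) (K : Set (Sym2 V)) (hK : K.Finite)

/-- The index set of the seed data. -/
def J₁ : Set (Set (Sym2 V) × V × V) :=
  {j | j.1 ∈ blocksOf G K hK ∧ j.2.1 ∈ Vb j.1 ∧ j.2.2 ∈ Vb j.1}

/-- The index set of the ranking data. -/
def J₂ : Set (Set (Sym2 V) × SimpleGraph V) :=
  {j | j.1 ∈ blocksOf G K hK ∧ MAcy (fromEdgeSet j.1) j.2}

theorem finite_J₁ (hgood : ∀ B ∈ blocksOf G K hK, GoodB G B) : (J₁ G K hK).Finite := by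
  have hsub : J₁ G K hK ⊆ ⋃ B ∈ (blocksOf G K hK : Set (Set (Sym2 V))),
      ({B} : Set (Set (Sym2 V))) ×ˢ (Vb B ×ˢ Vb B) := by
    rintro ⟨B, a, b⟩ ⟨hB, ha, hb⟩
    simp only [mem_iUnion, mem_prod, mem_singleton_iff]
    exact ⟨B, hB, rfl, ha, hb⟩
  refine Set.Finite.subset (Set.Finite.biUnion (Finset.finite_toSet _) (fun B hB => ?_)) hsub
  exact (Set.finite_singleton B).prod ((hgood B hB).vfin.prod (hgood B hB).vfin)

theorem finite_J₂ (hgood : ∀ B ∈ blocksOf G K hK, GoodB G B) : (J₂ G K hK).Finite := by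
  have hsub : J₂ G K hK ⊆ ⋃ B ∈ (blocksOf G K hK : Set (Set (Sym2 V))),
      ({B} : Set (Set (Sym2 V))) ×ˢ {F : SimpleGraph V | MAcy (fromEdgeSet B) F} := by
    rintro ⟨B, F⟩ ⟨hB, hF⟩
    simp only [mem_iUnion, mem_prod, mem_singleton_iff]
    exact ⟨B, hB, rfl, hF⟩
  refine Set.Finite.subset (Set.Finite.biUnion (Finset.finite_toSet _) (fun B hB => ?_)) hsub
  exact (Set.finite_singleton B).prod (hgood B hB).maFin

/-- The pattern of the ordering labels: the seed indices and the ranks of the subgraphs of the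
blocks meeting `K`. -/
noncomputable def pat (u : V → unitInterval) : (↥(J₁ G K hK) → ℕ) × (↥(J₂ G K hK) → ℕ) :=
  (fun j => seedIdx G (fun v => splitMap (u v) 0) j.1.1 j.1.2.1 j.1.2.2,
   fun j => trank (fun v => splitMap (u v) 0) j.1.1 j.1.2)

open Classical in
/-- The seed data recovered from a pattern. -/
noncomputable def sigD (d : ↥(J₁ G K hK) → ℕ) (B : Set (Sym2 V)) (a b : V) : ℕ :=
  if h : (B, a, b) ∈ J₁ G K hK then d ⟨(B, a, b), h⟩ else 0

open Classical in
/-- The ranking data recovered from a pattern. -/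
noncomputable def tauD (d : ↥(J₂ G K hK) → ℕ) (B : Set (Sym2 V)) (F : SimpleGraph V) : ℕ :=
  if h : (B, F) ∈ J₂ G K hK then d ⟨(B, F), h⟩ else 0

theorem sigD_pat (u : V → unitInterval) (B : Set (Sym2 V)) (hB : B ∈ blocksOf G K hK)
    (a b : V) :
    sigD G K hK (pat G K hK u).1 B a b = seedIdx G (fun v => splitMap (u v) 0) B a b := by
  unfold sigD
  by_cases h : (B, a, b) ∈ J₁ G K hK
  · rw [dif_pos h]
    rfl
  · rw [dif_neg h]
    by_contra hne
    obtain ⟨h1, h2⟩ := seedIdx_ne_zero G _ B a b (fun h' => hne h'.symm)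
    exact h ⟨hB, h1.1, mem_vb_right h2.1⟩

theorem tauD_pat (u : V → unitInterval) (B : Set (Sym2 V)) (hB : B ∈ blocksOf G K hK)
    (F : SimpleGraph V) (hF : MAcy (fromEdgeSet B) F) :
    tauD G K hK (pat G K hK u).2 B F = trank (fun v => splitMap (u v) 0) B F := by
  unfold tauD
  have h : (B, F) ∈ J₂ G K hK := ⟨hB, hF⟩
  rw [dif_pos h]
  rfl

theorem sigD_support (d : ↥(J₁ G K hK) → ℕ) (B : Set (Sym2 V)) :
    {p : V × V | sigD G K hK d B p.1 p.2 ≠ 0} ⊆ Vb B ×ˢ Vb B := by
  intro p hp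
  by_contra hc
  apply hp
  unfold sigD
  rw [dif_neg]
  intro h
  exact hc ⟨h.2.1, h.2.2⟩

theorem measurableSet_pat (hlf : ∀ v, (G.neighborSet v).Finite)
    (hgood : ∀ B ∈ blocksOf G K hK, GoodB G B)
    (d : (↥(J₁ G K hK) → ℕ) × (↥(J₂ G K hK) → ℕ)) :
    MeasurableSet[mX] (pat G K hK ⁻¹' {d}) := by
  have h1 := (finite_J₁ G K hK hgood).to_subtype
  have h2 := (finite_J₂ G K hK hgood).to_subtype
  have hset : pat G K hK ⁻¹' {d} =
      (⋂ j : ↥(J₁ G K hK), (fun u : V → unitInterval =>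
        seedIdx G (fun v => splitMap (u v) 0) j.1.1 j.1.2.1 j.1.2.2) ⁻¹' {d.1 j}) ∩
      (⋂ j : ↥(J₂ G K hK), (fun u : V → unitInterval =>
        trank (fun v => splitMap (u v) 0) j.1.1 j.1.2) ⁻¹' {d.2 j}) := by
    ext u
    simp only [mem_preimage, mem_singleton_iff, mem_inter_iff, mem_iInter]
    constructor
    · intro h
      rw [← h]
      exact ⟨fun j => rfl, fun j => rfl⟩
    · rintro ⟨h1, h2⟩
      exact Prod.ext (funext h1) (funext h2)
  rw [hset]
  refine MeasurableSet.inter (m := mX) (MeasurableSet.iInter (m := mX) (fun j => ?_))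
    (MeasurableSet.iInter (m := mX) (fun j => ?_))
  · exact (measurable_seedIdx (m' := mX) (fun u v => splitMap (u v) 0) measurable_X G j.1.1
      (hgood _ j.2.1).vfin j.1.2.1 j.1.2.2 (hlf _)) (measurableSet_singleton _)
  · exact (measurable_trank (m' := mX) (fun u v => splitMap (u v) 0) measurable_X j.1.1
      (hgood _ j.2.1).vfin (hgood _ j.2.1).maFin j.1.2 j.2.2) (measurableSet_singleton _)

end Pattern

/-! ### The law of the factor map on cylinder events -/

theorem measure_phi (G : SimpleGraph V) (hlf : ∀ v, (G.neighborSet v).Finite)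
    (hblocks : ∀ e ∈ G.edgeSet, (blockOf G e).Finite)
    (K S : Set (Sym2 V)) (hK : K.Finite) (hKE : K ⊆ G.edgeSet) (hSK : S ⊆ K) :
    MeasurableSet {u | Phi G u ∩ K = S} ∧
      labelMeasure V {u | Phi G u ∩ K = S} = ∏ B ∈ blocksOf G K hK, ENNReal.ofReal
        ((cnt (fromEdgeSet B) (K ∩ B) (S ∩ B) : ℝ) / (cnt (fromEdgeSet B) ∅ ∅ : ℝ)) := by
  classical
  have hgood : ∀ B ∈ blocksOf G K hK, GoodB G B :=
    fun B hB => goodB_of_mem G hblocks K hK hKE hB
  have hmemB : ∀ e ∈ K, blockOf G e ∈ blocksOf G K hK :=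
    fun e he => (mem_blocksOf G K hK _).mpr ⟨e, he, rfl⟩
  have hfin1 := (finite_J₁ G K hK hgood).to_subtype
  have hfin2 := (finite_J₂ G K hK hgood).to_subtype
  -- the congruence between the factor map and the map with frozen pattern
  have hcongr : ∀ (u u' : V → unitInterval) (d : (↥(J₁ G K hK) → ℕ) × (↥(J₂ G K hK) → ℕ)),
      pat G K hK u = d →
      PsiD G (seedIdx G (fun v => splitMap (u v) 0)) (trank (fun v => splitMap (u v) 0))
          (fun v => splitMap (u' v)) ∩ K =
        PsiD G (sigD G K hK d.1) (tauD G K hK d.2) (fun v => splitMap (u' v)) ∩ K := by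
    intro u u' d hd
    apply psiD_inter_congr
    · intro e he a b
      rw [← hd, sigD_pat G K hK u _ (hmemB e he)]
    · intro e he F hF
      rw [← hd, tauD_pat G K hK u _ (hmemB e he) F hF]
  refine measure_of_cells (labelMeasure V) (pat G K hK) mX mXi indep_mX_mXi mX_le mXi_le
    (measurableSet_pat G K hK hlf hgood)
    (fun d => {u | PsiD G (sigD G K hK d.1) (tauD G K hK d.2) (fun v => splitMap (u v)) ∩ K = S})
    ?_ _ ?_ _ ?_
  · intro d
    apply measurableSet_psiD_inter G _ _ K S hK hSK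
    · intro e he
      exact (hgood _ (hmemB e he)).maFin.countable
    · intro e he
      exact (((hgood _ (hmemB e he)).vfin.prod (hgood _ (hmemB e he)).vfin).subset
        (sigD_support G K hK d.1 _)).countable
  · intro d hd
    set W : Set V := ⋃ B ∈ (blocksOf G K hK : Set (Set (Sym2 V))),
      (Vb B ∪ ⋃ a ∈ Vb B, G.neighborSet a) with hW
    have hWfin : W.Finite := by
      refine Set.Finite.biUnion (Finset.finite_toSet _) (fun B hB => ?_)
      exact (hgood B hB).vfin.union (Set.Finite.biUnion (hgood B hB).vfin (fun a _ => hlf a))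
    have hnull := measure_not_injOn W hWfin
    obtain ⟨u₀, hu₀d, hu₀W⟩ : ∃ u₀, pat G K hK u₀ = d ∧
        Set.InjOn (fun v => splitMap (u₀ v) 0) W := by
      by_contra hcon
      push Not at hcon
      apply hd
      apply measure_mono_null _ hnull
      intro u hu
      exact hcon u hu
    have hgen : ∀ B ∈ blocksOf G K hK, Set.InjOn (fun v => splitMap (u₀ v) 0) (Vb B) := by
      intro B hB
      apply hu₀W.mono
      intro v hv
      simp only [hW, mem_iUnion]
      exact ⟨B, hB, Or.inl hv⟩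
    have hgenN : ∀ B ∈ blocksOf G K hK, ∀ a ∈ Vb B,
        Set.InjOn (fun v => splitMap (u₀ v) 0) (G.neighborSet a) := by
      intro B hB a ha
      apply hu₀W.mono
      intro v hv
      simp only [hW, mem_iUnion]
      refine ⟨B, hB, Or.inr ?_⟩
      simp only [mem_iUnion]
      exact ⟨a, ha, hv⟩
    rw [← measure_section G hlf K S hK hSK (fun v => splitMap (u₀ v) 0) hgood hgen hgenN]
    congr 1
    ext u
    simp only [mem_ofPred_eq]
    rw [hcongr u₀ u d hu₀d]
  · intro d
    ext u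
    simp only [mem_inter_iff, mem_ofPred_eq, mem_preimage, mem_singleton_iff]
    constructor
    · rintro ⟨h, hd⟩
      refine ⟨?_, hd⟩
      rw [← hcongr u u d hd]
      exact h
    · rintro ⟨h, hd⟩
      refine ⟨?_, hd⟩
      rw [← hcongr u u d hd] at h
      exact h

end Vale.Agent.Lib.P143
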