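import Mathlib
import Vale.Agent.Lib.P143.Defs
import Vale.Agent.Lib.P143.Graph
import Vale.Agent.Lib.P143.Split
import Vale.Agent.Lib.P143.Factor
import Vale.Agent.Lib.P143.Generic
import Vale.Agent.Lib.P143.Local

/-!
# Locality of the factor map

Whether an edge is selected depends only on the labels of the vertices of its block and of
their neighbours.
-/

namespace Vale.Agent.Lib.P143

open SimpleGraph MeasureTheory Set

variable {V : Type}

theorem rk_congr (A : Set V) (x x' : V → unitInterval) (v : V) (hA : ∀ w ∈ A, x w = x' w)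
    (hv : x v = x' v) : rk A x v = rk A x' v := by
  unfold rk
  congr 1
  ext w
  simp only [mem_ofPred_eq]
  constructor
  · rintro ⟨hw, h⟩
    refine ⟨hw, ?_⟩
    rw [← hA w hw, ← hv]
    exact h
  · rintro ⟨hw, h⟩
    refine ⟨hw, ?_⟩
    rw [hA w hw, hv]
    exact h

theorem isMinV_congr (x x' : V → unitInterval) (B : Set (Sym2 V)) (a : V)
    (h : ∀ w ∈ Vb B, x w = x' w) : IsMinV x B a → IsMinV x' B a := by
  rintro ⟨ha, hmin⟩
  refine ⟨ha, fun w hw => ?_⟩
  rw [← h a ha, ← h w hw]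
  exact hmin w hw

theorem isMinN_congr (x x' : V → unitInterval) (B : Set (Sym2 V)) (a b : V)
    (h : ∀ w ∈ Vb B, x w = x' w) : IsMinN x B a b → IsMinN x' B a b := by
  rintro ⟨hab, hmin⟩
  refine ⟨hab, fun w hw => ?_⟩
  rw [← h b (mem_vb_right hab), ← h w (mem_vb_right hw)]
  exact hmin w hw

theorem seedIdx_congr (G : SimpleGraph V) (x x' : V → unitInterval) (B : Set (Sym2 V))
    (a b : V) (h : ∀ w ∈ Vb B, x w = x' w)
    (hN : a ∈ Vb B → ∀ w, G.Adj a w → x w = x' w) :
    seedIdx G x B a b = seedIdx G x' B a b := by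
  classical
  unfold seedIdx
  by_cases hc : IsMinV x B a ∧ IsMinN x B a b
  · have hc' : IsMinV x' B a ∧ IsMinN x' B a b :=
      ⟨isMinV_congr x x' B a h hc.1, isMinN_congr x x' B a b h hc.2⟩
    rw [if_pos hc, if_pos hc']
    congr 1
    apply rk_congr
    · intro w hw
      exact hN hc.1.1 w hw
    · exact h b (mem_vb_right hc.2.1)
  · have hc' : ¬ (IsMinV x' B a ∧ IsMinN x' B a b) := fun hh =>
      hc ⟨isMinV_congr x' x B a (fun w hw => (h w hw).symm) hh.1,
        isMinN_congr x' x B a b (fun w hw => (h w hw).symm) hh.2⟩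
    rw [if_neg hc, if_neg hc']

theorem tcode_congr (x x' : V → unitInterval) (B : Set (Sym2 V)) (F : SimpleGraph V)
    (hF : F ≤ fromEdgeSet B) (h : ∀ w ∈ Vb B, x w = x' w) : tcode x B F = tcode x' B F := by
  classical
  unfold tcode
  congr 1
  funext p
  by_cases hp : F.Adj p.1 p.2
  · rw [if_pos hp, if_pos hp]
    have hp' := hF hp
    rw [fromEdgeSet_adj] at hp'
    rw [rk_congr (Vb B) x x' p.1 h (h _ (mem_vb_left hp'.1)),
      rk_congr (Vb B) x x' p.2 h (h _ (mem_vb_right hp'.1))]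
  · rw [if_neg hp, if_neg hp]

theorem trank_congr (x x' : V → unitInterval) (B : Set (Sym2 V)) (F : SimpleGraph V)
    (hF : MAcy (fromEdgeSet B) F) (h : ∀ w ∈ Vb B, x w = x' w) :
    trank x B F = trank x' B F := by
  unfold trank
  congr 1
  ext F'
  simp only [mem_ofPred_eq]
  constructor
  · rintro ⟨h1, h2⟩
    refine ⟨h1, ?_⟩
    rw [← tcode_congr x x' B F' (macy_iff.mp h1).1 h, ← tcode_congr x x' B F (macy_iff.mp hF).1 h]
    exact h2
  · rintro ⟨h1, h2⟩
    refine ⟨h1, ?_⟩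
    rw [tcode_congr x x' B F' (macy_iff.mp h1).1 h, tcode_congr x x' B F (macy_iff.mp hF).1 h]
    exact h2

theorem phi_local_imp (G : SimpleGraph V) (e : Sym2 V) (u u' : V → unitInterval)
    (h : ∀ v, (∃ f ∈ blockOf G e, ∃ w ∈ f, v = w ∨ G.Adj w v) → u v = u' v) :
    e ∈ Phi G u → e ∈ Phi G u' := by
  rintro ⟨heG, F, ⟨hF, a, b, hne, heq⟩, heF⟩
  have hVb : ∀ w ∈ Vb (blockOf G e), u w = u' w :=
    fun w ⟨f, hf, hw⟩ => h w ⟨f, hf, w, hw, Or.inl rfl⟩
  have hX : ∀ w ∈ Vb (blockOf G e), splitMap (u w) 0 = splitMap (u' w) 0 :=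
    fun w hw => by rw [hVb w hw]
  have hσ : seedIdx G (fun v => splitMap (u v) 0) (blockOf G e) a b =
      seedIdx G (fun v => splitMap (u' v) 0) (blockOf G e) a b := by
    apply seedIdx_congr G _ _ _ a b hX
    rintro ⟨f, hf, ha⟩ w haw
    show splitMap (u w) 0 = splitMap (u' w) 0
    rw [h w ⟨f, hf, a, ha, Or.inr haw⟩]
  have ha : a ∈ Vb (blockOf G e) := (seedIdx_ne_zero G _ _ a b hne).1.1
  refine ⟨heG, F, ⟨hF, a, b, ?_, ?_⟩, heF⟩
  · rw [← hσ]
    exact hne
  · rw [← hσ, ← trank_congr _ _ _ F hF hX]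
    beta_reduce
    rw [← hVb a ha]
    exact heq

/-- Locality: whether `e` is selected depends only on the labels of the vertices of the block
of `e` and of their neighbours. -/
theorem phi_local (G : SimpleGraph V) (e : Sym2 V) (u u' : V → unitInterval)
    (h : ∀ v, (∃ f ∈ blockOf G e, ∃ w ∈ f, v = w ∨ G.Adj w v) → u v = u' v) :
    e ∈ Phi G u ↔ e ∈ Phi G u' :=
  ⟨phi_local_imp G e u u' h, phi_local_imp G e u' u (fun v hv => (h v hv).symm)⟩

end Vale.Agent.Lib.P143
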