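import Mathlib
import Vale.Agent.Lib.P143.Defs
import Vale.Agent.Lib.P143.Graph
import Vale.Agent.Lib.P143.Split
import Vale.Agent.Lib.P143.Factor
import Vale.Agent.Lib.P143.Cells

/-!
# The free uniform spanning forest of a graph with finite blocks is a factor of IID
-/

namespace Vale.Agent.Lib.P143

open SimpleGraph MeasureTheory Set

variable {V : Type}

theorem measurableSet_mem_phi (G : SimpleGraph V) (hlf : ∀ v, (G.neighborSet v).Finite)
    (hblocks : ∀ e ∈ G.edgeSet, (blockOf G e).Finite) (e : Sym2 V) :
    MeasurableSet {u | e ∈ Phi G u} := by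
  by_cases he : e ∈ G.edgeSet
  · have h := (measure_phi G hlf hblocks {e} {e} (Set.finite_singleton e)
      (Set.singleton_subset_iff.mpr he) subset_rfl).1
    have hset : {u | e ∈ Phi G u} = {u | Phi G u ∩ {e} = {e}} := by
      ext u
      simp only [mem_ofPred_eq, Set.inter_eq_right, Set.singleton_subset_iff]
    rw [hset]
    exact h
  · have hset : {u | e ∈ Phi G u} = ∅ := by
      ext u
      simp only [mem_ofPred_eq, mem_empty_iff_false, iff_false]
      exact fun h => he (phi_subset G u h)
    rw [hset]
    exact MeasurableSet.empty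

theorem tendsto_ustProb (G : SimpleGraph V) (hlf : ∀ v, (G.neighborSet v).Finite)
    (hblocks : ∀ e ∈ G.edgeSet, (blockOf G e).Finite) (H : ℕ → G.Subgraph)
    (hH : IsExhaustion G H) (K : Set (Sym2 V)) (hK : K.Finite) (S : Set (Sym2 V)) :
    Filter.Tendsto (fun n => ustProb G (H n) K S) Filter.atTop
      (nhds ((Measure.infinitePi (fun _ : V => (volume : Measure unitInterval)))
        {u | Phi G u ∩ K = S}).toReal) := by
  have hFG : ∀ n (F : SimpleGraph V), IsSpanningTree G (H n) F → F.edgeSet ⊆ G.edgeSet :=
    fun n F hF => edgeSet_subset_edgeSet.mpr (hF.1.trans (H n).spanningCoe_le)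
  by_cases hS : S ⊆ K ∩ G.edgeSet
  · have hK' : (K ∩ G.edgeSet).Finite := hK.subset inter_subset_left
    obtain ⟨n₀, hn₀⟩ := ustProb_eventually G H hH hblocks (K ∩ G.edgeSet) S hK'
      inter_subset_right hS
    have hm := (measure_phi G hlf hblocks (K ∩ G.edgeSet) S hK' inter_subset_right hS).2
    have hev : {u | Phi G u ∩ K = S} = {u | Phi G u ∩ (K ∩ G.edgeSet) = S} := by
      ext u
      have h1 : Phi G u ∩ K = Phi G u ∩ (K ∩ G.edgeSet) := by
        ext e
        constructor
        · rintro ⟨h1, h2⟩
          exact ⟨h1, h2, phi_subset G u h1⟩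
        · rintro ⟨h1, h2, _⟩
          exact ⟨h1, h2⟩
      simp only [mem_ofPred_eq, h1]
    have hust : ∀ n, ustProb G (H n) K S = ustProb G (H n) (K ∩ G.edgeSet) S := by
      intro n
      unfold ustProb
      have h1 : {F | IsSpanningTree G (H n) F ∧ F.edgeSet ∩ K = S} =
          {F | IsSpanningTree G (H n) F ∧ F.edgeSet ∩ (K ∩ G.edgeSet) = S} := by
        ext F
        simp only [mem_ofPred_eq, and_congr_right_iff]
        intro hF
        have h2 : F.edgeSet ∩ K = F.edgeSet ∩ (K ∩ G.edgeSet) := by
          ext e
          constructor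
          · rintro ⟨h1, h2⟩
            exact ⟨h1, h2, hFG n F hF h1⟩
          · rintro ⟨h1, h2, _⟩
            exact ⟨h1, h2⟩
        rw [h2]
      rw [h1]
    have hval : (labelMeasure V {u | Phi G u ∩ (K ∩ G.edgeSet) = S}).toReal =
        blockProb G (K ∩ G.edgeSet) S hK' := by
      rw [hm, ENNReal.toReal_prod]
      unfold blockProb
      apply Finset.prod_congr rfl
      intro B _
      rw [ENNReal.toReal_ofReal (by positivity)]
    rw [hev]
    change Filter.Tendsto (fun n => ustProb G (H n) K S) Filter.atTop
      (nhds (labelMeasure V {u | Phi G u ∩ (K ∩ G.edgeSet) = S}).toReal)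
    rw [hval]
    apply tendsto_const_nhds.congr'
    filter_upwards [Filter.eventually_ge_atTop n₀] with n hn
    rw [hust n, hn₀ n hn]
  · have hev : {u | Phi G u ∩ K = S} = ∅ := by
      ext u
      simp only [mem_ofPred_eq, mem_empty_iff_false, iff_false]
      intro h
      apply hS
      rw [← h]
      intro e he
      exact ⟨he.2, phi_subset G u he.1⟩
    have hust : ∀ n, ustProb G (H n) K S = 0 := by
      intro n
      unfold ustProb
      have h1 : {F | IsSpanningTree G (H n) F ∧ F.edgeSet ∩ K = S} = ∅ := by
        ext F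
        simp only [mem_ofPred_eq, mem_empty_iff_false, iff_false, not_and]
        intro hF h
        apply hS
        rw [← h]
        intro e he
        exact ⟨he.2, hFG n F hF he.1⟩
      rw [h1]
      simp
    rw [hev]
    simp only [hust, measure_empty, ENNReal.toReal_zero]
    exact tendsto_const_nhds

/-- The free uniform spanning forest of a locally finite graph all of whose blocks are finite
is a factor of IID, equivariant under all automorphisms of the graph. -/
theorem fusf_factor (G : SimpleGraph V) (hlf : ∀ v, (G.neighborSet v).Finite)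
    (hblocks : ∀ e ∈ G.edgeSet, (blockOf G e).Finite) :
    ∃ Φ : (V → unitInterval) → Set (Sym2 V),
      (∀ u, Φ u ⊆ G.edgeSet) ∧
      (∀ e, MeasurableSet {u | e ∈ Φ u}) ∧
      (∀ (γ : G ≃g G) (u : V → unitInterval),
        Φ (fun v => u (γ.symm v)) = Sym2.map γ '' Φ u) ∧
      ∀ H : ℕ → G.Subgraph, IsExhaustion G H → ∀ K : Set (Sym2 V), K.Finite →
        ∀ S : Set (Sym2 V),
          Filter.Tendsto (fun n => ustProb G (H n) K S) Filter.atTop
            (nhds ((Measure.infinitePi (fun _ : V => (volume : Measure unitInterval)))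
              {u | Φ u ∩ K = S}).toReal) :=
  ⟨Phi G, phi_subset G, measurableSet_mem_phi G hlf hblocks, phi_equivariant G,
    fun H hH K hK S => tendsto_ustProb G hlf hblocks H hH K hK S⟩

end Vale.Agent.Lib.P143
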