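import Mathlib
import Vale.Agent.Lib.P143.Defs
import Vale.Agent.Lib.P143.Graph

/-!
# The uniform spanning tree of a finite connected subgraph is independent over the blocks
of the ambient graph (blocks may be infinite)
-/

namespace Vale.Agent.Lib.P143

open SimpleGraph

variable {V : Type}

/-- The probability that a uniform maximal acyclic subgraph of the part of `G₀` inside `B`
meets `K ∩ B` exactly in `S ∩ B`. -/
noncomputable def traceProb (G₀ : SimpleGraph V) (B K S : Set (Sym2 V)) : ℝ :=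
  (cnt (G₀.deleteEdges Bᶜ) (K ∩ B) (S ∩ B) : ℝ) / (cnt (G₀.deleteEdges Bᶜ) ∅ ∅ : ℝ)

open Classical in
theorem cnt_blocks_gen (G : SimpleGraph V) (BB : Finset (Set (Sym2 V))) :
    ∀ G₀ : SimpleGraph V, G₀ ≤ G → (∀ B ∈ BB, ∃ e, B = blockOf G e) → ∀ K S : Set (Sym2 V),
      cnt G₀ K S = (∏ B ∈ BB, cnt (G₀.deleteEdges Bᶜ) (K ∩ B) (S ∩ B)) *
        cnt (G₀.deleteEdges (⋃ B ∈ BB, B)) (K \ ⋃ B ∈ BB, B) (S \ ⋃ B ∈ BB, B) := by
  induction BB using Finset.induction_on with
  | empty =>
    intro G₀ _ _ K S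
    simp
  | insert B BB' hB ih =>
    intro G₀ hle hblk K S
    have ih' := ih G₀ hle (fun B' hB' => hblk B' (Finset.mem_insert_of_mem hB')) K S
    obtain ⟨e₀, he₀⟩ := hblk B (Finset.mem_insert_self B BB')
    have hdisj : ∀ e ∈ B, e ∉ ⋃ B' ∈ BB', B' := by
      intro e heB heU
      simp only [Set.mem_iUnion, exists_prop] at heU
      obtain ⟨B', hB', heB'⟩ := heU
      obtain ⟨e₁, he₁⟩ := hblk B' (Finset.mem_insert_of_mem hB')
      have hne : blockOf G e₀ ≠ blockOf G e₁ := by
        intro h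
        apply hB
        rw [he₀, h, ← he₁]
        exact hB'
      have := Set.disjoint_left.mp (blockOf_disjoint G hne)
      rw [he₀] at heB
      rw [he₁] at heB'
      exact this heB heB'
    have hP : ∀ (v : V) (c : (G₀.deleteEdges (⋃ B' ∈ BB', B')).Walk v v), c.IsCycle →
        (∀ e ∈ c.edges, e ∈ B) ∨ (∀ e ∈ c.edges, e ∉ B) := by
      intro v c hc
      rw [he₀]
      exact block_cycle_closed G ((deleteEdges_le _).trans hle) e₀ v c hc
    have hsplit := cnt_split hP (K \ ⋃ B' ∈ BB', B') (S \ ⋃ B' ∈ BB', B')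
    have e1 : (G₀.deleteEdges (⋃ B' ∈ BB', B')).deleteEdges Bᶜ = G₀.deleteEdges Bᶜ := by
      apply edgeSet_injective
      rw [edgeSet_deleteEdges, edgeSet_deleteEdges, edgeSet_deleteEdges]
      ext e
      simp only [Set.mem_sdiff, Set.mem_compl_iff, not_not]
      constructor
      · exact fun h => ⟨h.1.1, h.2⟩
      · exact fun h => ⟨⟨h.1, hdisj e h.2⟩, h.2⟩
    have e2 : (K \ ⋃ B' ∈ BB', B') ∩ B = K ∩ B := by
      ext e
      simp only [Set.mem_inter_iff, Set.mem_sdiff]
      constructor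
      · exact fun h => ⟨h.1.1, h.2⟩
      · exact fun h => ⟨⟨h.1, hdisj e h.2⟩, h.2⟩
    have e3 : (S \ ⋃ B' ∈ BB', B') ∩ B = S ∩ B := by
      ext e
      simp only [Set.mem_inter_iff, Set.mem_sdiff]
      constructor
      · exact fun h => ⟨h.1.1, h.2⟩
      · exact fun h => ⟨⟨h.1, hdisj e h.2⟩, h.2⟩
    have e4 : (⋃ B' ∈ insert B BB', B') = (⋃ B' ∈ BB', B') ∪ B := by
      rw [Finset.set_biUnion_insert, Set.union_comm]
    rw [e1, e2, e3, deleteEdges_deleteEdges, Set.sdiff_sdiff, Set.sdiff_sdiff] at hsplit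
    rw [ih', hsplit, Finset.prod_insert hB, e4]
    ring

theorem cnt_trace_ne_zero (G₀ : SimpleGraph V) (h : G₀.edgeSet.Finite) (P : Set (Sym2 V)) :
    cnt (G₀.deleteEdges P) ∅ ∅ ≠ 0 := by
  apply cnt_empty_ne_zero
  exact h.subset (edgeSet_subset_edgeSet.mpr (deleteEdges_le _))

/-- The law of the uniform spanning tree of `H` on a finite set of edges of one block. -/
theorem ustProb_single (G : SimpleGraph V) (H : G.Subgraph) (hfin : H.verts.Finite)
    (hH : H.Connected) (B : Set (Sym2 V)) (hB : ∃ e, B = blockOf G e) (K S : Set (Sym2 V))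
    (hKB : K ⊆ B) (hSK : S ⊆ K) :
    ustProb G H K S = traceProb H.spanningCoe B K S := by
  classical
  have hnum : {F | IsSpanningTree G H F ∧ F.edgeSet ∩ K = S} =
      {F | MAcy H.spanningCoe F ∧ F.edgeSet ∩ K = S} := by
    ext F
    simp only [Set.mem_ofPred_eq, isSpanningTree_iff_macy G H hH]
  have hden : {F | IsSpanningTree G H F} = {F | MAcy H.spanningCoe F} := by
    ext F
    simp only [Set.mem_ofPred_eq, isSpanningTree_iff_macy G H hH]
  obtain ⟨e₀, he₀⟩ := hB
  have hP : ∀ (v : V) (c : H.spanningCoe.Walk v v), c.IsCycle →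
      (∀ e ∈ c.edges, e ∈ B) ∨ (∀ e ∈ c.edges, e ∉ B) := by
    intro v c hc
    rw [he₀]
    exact block_cycle_closed G H.spanningCoe_le e₀ v c hc
  have h1 := cnt_split hP K S
  have h2 := cnt_split hP ∅ ∅
  have hKB' : K \ B = ∅ := Set.sdiff_eq_empty.mpr hKB
  have hSB' : S \ B = ∅ := Set.sdiff_eq_empty.mpr (hSK.trans hKB)
  rw [hKB', hSB'] at h1
  simp only [Set.empty_inter, Set.empty_sdiff] at h2
  have hr : (cnt (H.spanningCoe.deleteEdges B) ∅ ∅ : ℝ) ≠ 0 := by
    exact_mod_cast cnt_trace_ne_zero H.spanningCoe (finite_edgeSet_of_finite_verts G H hfin) B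
  unfold ustProb traceProb
  rw [hnum, hden]
  have hden' : Set.ncard {F | MAcy H.spanningCoe F} = cnt H.spanningCoe ∅ ∅ := (cnt_empty _).symm
  rw [hden']
  change ((cnt H.spanningCoe K S : ℕ) : ℝ) / _ = _
  rw [h1, h2]
  push_cast
  rw [mul_div_mul_right _ _ hr]

/-- The law of the uniform spanning tree of `H` on a finite set of edges: product over the
blocks of `G` meeting `K`. -/
theorem ustProb_eq_prod_trace (G : SimpleGraph V) (H : G.Subgraph) (hfin : H.verts.Finite)
    (hH : H.Connected) (K S : Set (Sym2 V)) (hK : K.Finite) (hSK : S ⊆ K) :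
    ustProb G H K S = ∏ B ∈ blocksOf G K hK, traceProb H.spanningCoe B K S := by
  classical
  have hnum : {F | IsSpanningTree G H F ∧ F.edgeSet ∩ K = S} =
      {F | MAcy H.spanningCoe F ∧ F.edgeSet ∩ K = S} := by
    ext F
    simp only [Set.mem_ofPred_eq, isSpanningTree_iff_macy G H hH]
  have hden : {F | IsSpanningTree G H F} = {F | MAcy H.spanningCoe F} := by
    ext F
    simp only [Set.mem_ofPred_eq, isSpanningTree_iff_macy G H hH]
  have hblk : ∀ B ∈ blocksOf G K hK, ∃ e, B = blockOf G e := by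
    intro B hB'
    obtain ⟨e, -, he⟩ := (mem_blocksOf G K hK B).mp hB'
    exact ⟨e, he.symm⟩
  have hKU : K \ (⋃ B ∈ blocksOf G K hK, B) = ∅ := by
    rw [Set.sdiff_eq_empty]
    intro e he
    simp only [Set.mem_iUnion, exists_prop]
    exact ⟨blockOf G e, (mem_blocksOf G K hK _).mpr ⟨e, he, rfl⟩, mem_blockOf_self G e⟩
  have hSU : S \ (⋃ B ∈ blocksOf G K hK, B) = ∅ := by
    rw [Set.sdiff_eq_empty]
    exact hSK.trans (Set.sdiff_eq_empty.mp hKU)
  have h1 := cnt_blocks_gen G (blocksOf G K hK) H.spanningCoe H.spanningCoe_le hblk K S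
  have h2 := cnt_blocks_gen G (blocksOf G K hK) H.spanningCoe H.spanningCoe_le hblk ∅ ∅
  rw [hKU, hSU] at h1
  simp only [Set.empty_inter, Set.empty_sdiff] at h2
  have hr : (cnt (H.spanningCoe.deleteEdges (⋃ B ∈ blocksOf G K hK, B)) ∅ ∅ : ℝ) ≠ 0 := by
    exact_mod_cast cnt_trace_ne_zero H.spanningCoe (finite_edgeSet_of_finite_verts G H hfin) _
  unfold ustProb traceProb
  rw [hnum, hden]
  have hden' : Set.ncard {F | MAcy H.spanningCoe F} = cnt H.spanningCoe ∅ ∅ := (cnt_empty _).symm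
  rw [hden']
  change ((cnt H.spanningCoe K S : ℕ) : ℝ) / _ = _
  rw [h1, h2]
  push_cast
  rw [mul_div_mul_right _ _ hr, Finset.prod_div_distrib]

/-- Independence over blocks: the probability that the uniform spanning tree of `H` meets `K`
exactly in `S` is the product, over the blocks `B` of `G` meeting `K`, of the probabilities
that it meets `K ∩ B` exactly in `S ∩ B`. -/
theorem ustProb_prod (G : SimpleGraph V) (H : G.Subgraph) (hfin : H.verts.Finite)
    (hH : H.Connected) (K S : Set (Sym2 V)) (hK : K.Finite) (hSK : S ⊆ K) :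
    ustProb G H K S = ∏ B ∈ blocksOf G K hK, ustProb G H (K ∩ B) (S ∩ B) := by
  rw [ustProb_eq_prod_trace G H hfin hH K S hK hSK]
  apply Finset.prod_congr rfl
  intro B hB
  obtain ⟨e, -, he⟩ := (mem_blocksOf G K hK B).mp hB
  rw [ustProb_single G H hfin hH B ⟨e, he.symm⟩ (K ∩ B) (S ∩ B) Set.inter_subset_right
    (Set.inter_subset_inter_left B hSK)]
  unfold traceProb
  rw [Set.inter_assoc, Set.inter_self, Set.inter_assoc, Set.inter_self]

end Vale.Agent.Lib.P143
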