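import Mathlib
import Vale.Agent.Lib.P143.Defs
import Vale.Agent.Lib.P143.Graph
import Vale.Agent.Lib.P143.Split
import Vale.Agent.Lib.P143.Factor
import Vale.Agent.Lib.P143.Generic
import Vale.Agent.Lib.P143.Meas
import Vale.Agent.Lib.P143.Law

/-!
# Independent relabelling: every block gets its own i.i.d. family of labels
-/

namespace Vale.Agent.Lib.P143

open SimpleGraph MeasureTheory Set ProbabilityTheory

variable {V : Type}

/-- The number of neighbours of `v` whose label is smaller than the labels of all neighbours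
of `v` along edges of `B`; for generic labels this is the rank of the smallest neighbour of
`v` along `B`. -/
noncomputable def nbIdx (G : SimpleGraph V) (x : V → unitInterval) (B : Set (Sym2 V)) (v : V) :
    ℕ :=
  Set.ncard {w' | w' ∈ G.neighborSet v ∧ ∀ w ∈ G.neighborSet v, s(v, w) ∈ B → x w' < x w}

/-- The labels used by the block `B`. -/
noncomputable def relabel (G : SimpleGraph V) (B : Set (Sym2 V)) (u : V → unitInterval) :
    V → unitInterval :=
  fun v => splitMap (u v) (2 * nbIdx G (fun w => splitMap (u w) 0) B v + 1)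

theorem nbIdx_eq_rk (G : SimpleGraph V) (x : V → unitInterval) (B : Set (Sym2 V)) (v : V)
    (hN : (G.neighborSet v).Finite) (hB : B ⊆ G.edgeSet) (hv : v ∈ Vb B) :
    ∃ w₀, s(v, w₀) ∈ B ∧ nbIdx G x B v = rk (G.neighborSet v) x w₀ := by
  have hne : {w | w ∈ G.neighborSet v ∧ s(v, w) ∈ B}.Nonempty := by
    obtain ⟨e, he, hve⟩ := hv
    obtain ⟨w, rfl⟩ := Sym2.mem_iff_exists.mp hve
    exact ⟨w, hB he, he⟩
  obtain ⟨w₀, hw₀, hmin⟩ := Set.exists_min_image {w | w ∈ G.neighborSet v ∧ s(v, w) ∈ B} x
    (hN.subset (fun w h => h.1)) hne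
  refine ⟨w₀, hw₀.2, ?_⟩
  unfold nbIdx rk
  congr 1
  ext w'
  simp only [mem_ofPred_eq]
  constructor
  · rintro ⟨h1, h2⟩
    exact ⟨h1, h2 w₀ hw₀.1 hw₀.2⟩
  · rintro ⟨h1, h2⟩
    exact ⟨h1, fun w hw hwB => lt_of_lt_of_le h2 (hmin w ⟨hw, hwB⟩)⟩

theorem nbIdx_ne (G : SimpleGraph V) (x : V → unitInterval) (B B' : Set (Sym2 V)) (v : V)
    (hN : (G.neighborSet v).Finite) (hinj : Set.InjOn x (G.neighborSet v))
    (hB : B ⊆ G.edgeSet) (hB' : B' ⊆ G.edgeSet) (hdisj : Disjoint B B')
    (hv : v ∈ Vb B) (hv' : v ∈ Vb B') : nbIdx G x B v ≠ nbIdx G x B' v := by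
  obtain ⟨w, hw, h1⟩ := nbIdx_eq_rk G x B v hN hB hv
  obtain ⟨w', hw', h2⟩ := nbIdx_eq_rk G x B' v hN hB' hv'
  intro h
  rw [h1, h2] at h
  have hww : w = w' := rank_injOn (G.neighborSet v) hN x hinj (hB hw) (hB' hw') h
  subst hww
  exact Set.disjoint_left.mp hdisj hw hw'

/-! ### Transport along an automorphism -/

theorem nbIdx_image (G : SimpleGraph V) (e : V ≃ V)
    (he : ∀ a b, G.Adj (e a) (e b) ↔ G.Adj a b) (x : V → unitInterval) (B : Set (Sym2 V))
    (v : V) :
    nbIdx G (fun w => x (e.symm w)) (Sym2.map e '' B) (e v) = nbIdx G x B v := by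
  unfold nbIdx
  have h := Set.ncard_image_of_injective
    {w' | w' ∈ G.neighborSet v ∧ ∀ w ∈ G.neighborSet v, s(v, w) ∈ B → x w' < x w} e.injective
  rw [← h]
  congr 1
  ext w'
  simp only [mem_ofPred_eq, mem_neighborSet, Set.mem_image]
  constructor
  · rintro ⟨h1, h2⟩
    refine ⟨e.symm w', ⟨?_, ?_⟩, by simp⟩
    · rw [← he]
      simpa using h1
    · intro w hw hwB
      have := h2 (e w) ((he v w).mpr hw) ((mem_image_sym2 e B v w).mpr hwB)
      simpa using this
  · rintro ⟨w₁, ⟨h1, h2⟩, rfl⟩
    refine ⟨(he v w₁).mpr h1, ?_⟩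
    intro w hw hwB
    have hw' : G.Adj v (e.symm w) := by
      rw [← he]
      simpa using hw
    have hwB' : s(v, e.symm w) ∈ B := by
      rw [← mem_image_sym2 e B v (e.symm w)]
      simpa using hwB
    have := h2 (e.symm w) hw' hwB'
    simpa using this

theorem relabel_image (G : SimpleGraph V) (e : V ≃ V)
    (he : ∀ a b, G.Adj (e a) (e b) ↔ G.Adj a b) (B : Set (Sym2 V)) (u : V → unitInterval) :
    relabel G (Sym2.map e '' B) (fun v => u (e.symm v)) =
      fun v => relabel G B u (e.symm v) := by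
  funext v
  unfold relabel
  have h := nbIdx_image G e he (fun w => splitMap (u w) 0) B (e.symm v)
  simp only [Equiv.apply_symm_apply] at h
  rw [h]

/-! ### Measurability -/

theorem measurable_nbIdx {Ω' : Type} {m' : MeasurableSpace Ω'} (X : Ω' → V → unitInterval)
    (hX : ∀ v, Measurable (fun u => X u v)) (G : SimpleGraph V) (B : Set (Sym2 V)) (v : V)
    (hN : (G.neighborSet v).Finite) : Measurable (fun u => nbIdx G (X u) B v) := by
  apply measurable_ncard (G.neighborSet v) hN
    (fun u w' => ∀ w ∈ G.neighborSet v, s(v, w) ∈ B → X u w' < X u w)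
  intro w' _
  have hset : {u | ∀ w ∈ G.neighborSet v, s(v, w) ∈ B → X u w' < X u w} =
      ⋂ w ∈ {w | w ∈ G.neighborSet v ∧ s(v, w) ∈ B}, {u | X u w' < X u w} := by
    ext u
    simp only [mem_ofPred_eq, mem_iInter, and_imp]
  rw [hset]
  exact MeasurableSet.biInter (hN.subset (fun w h => h.1)).countable
    (fun w _ => measurableSet_lt (hX w') (hX w))

theorem measurable_eval_nat {Ω β : Type} [MeasurableSpace Ω] [MeasurableSpace β] (n : Ω → ℕ)
    (hn : Measurable n) (f : ℕ → Ω → β) (hf : ∀ k, Measurable (f k)) :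
    Measurable (fun u => f (n u) u) := by
  intro t ht
  have hset : (fun u => f (n u) u) ⁻¹' t = ⋃ k, (n ⁻¹' {k} ∩ f k ⁻¹' t) := by
    ext u
    simp only [mem_preimage, mem_iUnion, mem_inter_iff, mem_singleton_iff]
    constructor
    · intro h
      exact ⟨n u, rfl, h⟩
    · rintro ⟨k, rfl, h⟩
      exact h
  rw [hset]
  exact MeasurableSet.iUnion (fun k => (hn (measurableSet_singleton k)).inter (hf k ht))

theorem measurable_relabel (G : SimpleGraph V) (hlf : ∀ v, (G.neighborSet v).Finite)
    (B : Set (Sym2 V)) : Measurable (relabel G B) := by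
  refine measurable_pi_lambda _ (fun v => ?_)
  unfold relabel
  apply measurable_eval_nat
    (fun u : V → unitInterval => 2 * nbIdx G (fun w => splitMap (u w) 0) B v + 1) _
    (fun k (u : V → unitInterval) => splitMap (u v) k) (fun k => measurable_Z (v, k))
  exact ((measurable_nbIdx (fun (u : V → unitInterval) w => splitMap (u w) 0)
    (fun w => measurable_Z (w, 0)) G B v (hlf v)).const_mul 2).add measurable_const

/-! ### The joint law of the relabelled families -/

section JointLaw

variable (G : SimpleGraph V) (BB : Finset (Set (Sym2 V))) (c : ↥BB → ℕ)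

open Classical in
/-- The index (minus one) of the label of `v` used by the block `B`; outside the block a
filler index is used. -/
noncomputable def idx0 (x : V → unitInterval) (B : ↥BB) (v : V) : ℕ :=
  if v ∈ Vb B.1 then 2 * nbIdx G x B.1 v else 2 * c B + 1

/-- All relabelled families at once (with fillers outside the blocks). -/
noncomputable def relabelAll (u : V → unitInterval) : ↥BB × V → unitInterval :=
  fun p => splitMap (u p.2) (idx0 G BB c (fun w => splitMap (u w) 0) p.1 p.2 + 1)

theorem relabelAll_eq_relabel (u : V → unitInterval) (B : ↥BB) (v : V) (hv : v ∈ Vb B.1) :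
    relabelAll G BB c u (B, v) = relabel G B.1 u v := by
  unfold relabelAll relabel idx0
  rw [if_pos hv]

theorem idx0_ne (hc : Function.Injective c) (hsub : ∀ B ∈ BB, B ⊆ G.edgeSet)
    (hdisj : ∀ B ∈ BB, ∀ B' ∈ BB, B ≠ B' → Disjoint B B') (x : V → unitInterval) (v : V)
    (hN : (G.neighborSet v).Finite) (hinj : Set.InjOn x (G.neighborSet v)) (B B' : ↥BB)
    (hne : B ≠ B') : idx0 G BB c x B v ≠ idx0 G BB c x B' v := by
  unfold idx0
  by_cases hv : v ∈ Vb B.1
  · by_cases hv' : v ∈ Vb B'.1
    · rw [if_pos hv, if_pos hv']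
      have hne' : B.1 ≠ B'.1 := fun h => hne (Subtype.ext h)
      have := nbIdx_ne G x B.1 B'.1 v hN hinj (hsub _ B.2) (hsub _ B'.2)
        (hdisj _ B.2 _ B'.2 hne') hv hv'
      omega
    · rw [if_pos hv, if_neg hv']
      omega
  · by_cases hv' : v ∈ Vb B'.1
    · rw [if_neg hv, if_pos hv']
      omega
    · rw [if_neg hv, if_neg hv']
      have : c B ≠ c B' := fun h => hne (hc h)
      omega

theorem measurable_idx0 {Ω' : Type} {m' : MeasurableSpace Ω'} (X : Ω' → V → unitInterval)
    (hX : ∀ v, Measurable (fun u => X u v)) (B : ↥BB) (v : V)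
    (hN : (G.neighborSet v).Finite) : Measurable (fun u => idx0 G BB c (X u) B v) := by
  unfold idx0
  by_cases hv : v ∈ Vb B.1
  · simp only [if_pos hv]
    exact (measurable_nbIdx X hX G B.1 v hN).const_mul 2
  · simp only [if_neg hv]
    exact measurable_const

theorem measurable_relabelAll (hlf : ∀ v, (G.neighborSet v).Finite) :
    Measurable (relabelAll G BB c) := by
  refine measurable_pi_lambda _ (fun p => ?_)
  unfold relabelAll
  apply measurable_eval_nat
    (fun u : V → unitInterval => idx0 G BB c (fun w => splitMap (u w) 0) p.1 p.2 + 1) _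
    (fun k (u : V → unitInterval) => splitMap (u p.2) k) (fun k => measurable_Z (p.2, k))
  exact (measurable_idx0 G BB c (fun (u : V → unitInterval) w => splitMap (u w) 0)
    (fun w => measurable_Z (w, 0)) p.1 p.2 (hlf p.2)).add measurable_const

end JointLaw

end Vale.Agent.Lib.P143
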