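import Mathlib
import Vale.Agent.Lib.P143.Defs
import Vale.Agent.Lib.P143.Graph
import Vale.Agent.Lib.P143.Split
import Vale.Agent.Lib.P143.Factor
import Vale.Agent.Lib.P143.Generic
import Vale.Agent.Lib.P143.Meas
import Vale.Agent.Lib.P143.Law
import Vale.Agent.Lib.P143.Relabel

/-!
# The relabelled families are independent i.i.d. families
-/

namespace Vale.Agent.Lib.P143

open SimpleGraph MeasureTheory Set ProbabilityTheory

variable {V : Type}

section JointLaw

variable (G : SimpleGraph V) (BB : Finset (Set (Sym2 V))) (c : ↥BB → ℕ)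

/-- The joint law of all relabelled families is the product measure. -/
theorem map_relabelAll (hlf : ∀ v, (G.neighborSet v).Finite) (hc : Function.Injective c)
    (hsub : ∀ B ∈ BB, B ⊆ G.edgeSet)
    (hdisj : ∀ B ∈ BB, ∀ B' ∈ BB, B ≠ B' → Disjoint B B') :
    (labelMeasure V).map (relabelAll G BB c) =
      Measure.infinitePi (fun _ : ↥BB × V => (volume : Measure unitInterval)) := by
  classical
  apply Measure.eq_infinitePi
  intro s t ht
  rw [Measure.map_apply (measurable_relabelAll G BB c hlf)
    (MeasurableSet.pi s.countable_toSet (fun p _ => ht p))]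
  have hfin : Finite ↥s := inferInstance
  refine (measure_of_cells (labelMeasure V)
    (fun (u : V → unitInterval) (p : ↥s) =>
      idx0 G BB c (fun w => splitMap (u w) 0) p.1.1 p.1.2)
    mX mXi indep_mX_mXi mX_le mXi_le ?_
    (fun d => {u : V → unitInterval | ∀ p : ↥s, splitMap (u p.1.2) (d p + 1) ∈ t p.1})
    ?_ _ ?_ _ ?_).2
  · -- measurability of the pattern
    intro d
    have hset : (fun (u : V → unitInterval) (p : ↥s) =>
        idx0 G BB c (fun w => splitMap (u w) 0) p.1.1 p.1.2) ⁻¹' {d} =
        ⋂ p : ↥s, (fun u : V → unitInterval =>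
          idx0 G BB c (fun w => splitMap (u w) 0) p.1.1 p.1.2) ⁻¹' {d p} := by
      ext u
      simp only [mem_preimage, mem_singleton_iff, mem_iInter]
      constructor
      · intro h p
        rw [← h]
      · intro h
        exact funext h
    rw [hset]
    refine MeasurableSet.iInter (m := mX) (fun p => ?_)
    exact (measurable_idx0 (m' := mX) G BB c (fun (u : V → unitInterval) w => splitMap (u w) 0)
      measurable_X p.1.1 p.1.2 (hlf p.1.2)) (measurableSet_singleton _)
  · -- measurability of the acceptance events
    intro d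
    have hset : {u : V → unitInterval | ∀ p : ↥s, splitMap (u p.1.2) (d p + 1) ∈ t p.1} =
        ⋂ p : ↥s, {u : V → unitInterval | splitMap (u p.1.2) (d p + 1) ∈ t p.1} := by
      ext u
      simp only [mem_ofPred_eq, mem_iInter]
    rw [hset]
    refine MeasurableSet.iInter (m := mXi) (fun p => ?_)
    exact measurableSet_xi p.1.2 (d p + 1) (Nat.succ_ne_zero _) (t p.1) (ht p.1)
  · -- the probability of the acceptance events
    intro d hd
    set W : Set V := ⋃ p ∈ (s : Set (↥BB × V)), G.neighborSet p.2 with hW
    have hWfin : W.Finite :=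
      Set.Finite.biUnion (Finset.finite_toSet s) (fun p _ => hlf p.2)
    have hnull := measure_not_injOn W hWfin
    obtain ⟨u₀, hu₀d, hu₀W⟩ : ∃ u₀ : V → unitInterval,
        (fun (p : ↥s) => idx0 G BB c (fun w => splitMap (u₀ w) 0) p.1.1 p.1.2) = d ∧
        Set.InjOn (fun v => splitMap (u₀ v) 0) W := by
      by_contra hcon
      push Not at hcon
      apply hd
      apply measure_mono_null _ hnull
      intro u hu
      exact hcon u hu
    have hq : Function.Injective (fun p : ↥s => ((p.1.2, d p + 1) : V × ℕ)) := by
      intro p p' h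
      obtain ⟨h1, h2⟩ := Prod.mk.inj h
      by_contra hne
      have hB : p.1.1 ≠ p'.1.1 := by
        intro hB
        apply hne
        apply Subtype.ext
        exact Prod.ext hB h1
      have hinj : Set.InjOn (fun v => splitMap (u₀ v) 0) (G.neighborSet p.1.2) := by
        apply hu₀W.mono
        intro w hw
        simp only [hW, mem_iUnion]
        exact ⟨p.1, p.2, hw⟩
      have h3 := idx0_ne G BB c hc hsub hdisj (fun w => splitMap (u₀ w) 0) p.1.2 (hlf _) hinj
        p.1.1 p'.1.1 hB
      apply h3
      have e1 : d p = idx0 G BB c (fun w => splitMap (u₀ w) 0) p.1.1 p.1.2 := by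
        rw [← hu₀d]
      have e2 : d p' = idx0 G BB c (fun w => splitMap (u₀ w) 0) p'.1.1 p'.1.2 := by
        rw [← hu₀d]
      rw [← e1, h1, ← e2]
      omega
    have hset : {u : V → unitInterval | ∀ p : ↥s, splitMap (u p.1.2) (d p + 1) ∈ t p.1} =
        ⋂ p : ↥s, (fun u : V → unitInterval => splitMap (u (p.1.2, d p + 1).1)
          (p.1.2, d p + 1).2) ⁻¹' t p.1 := by
      ext u
      simp only [mem_ofPred_eq, mem_iInter, mem_preimage]
    rw [hset]
    have hind := (iIndepFun_Z (V := V)).precomp hq
    rw [hind.meas_iInter (fun p => ⟨t p.1, ht p.1, rfl⟩)]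
    rw [← Finset.prod_coe_sort s (fun p => (volume : Measure unitInterval) (t p))]
    apply Finset.prod_congr rfl
    intro p _
    rw [← Measure.map_apply (measurable_Z (p.1.2, d p + 1)) (ht p.1), map_Z (p.1.2, d p + 1)]
  · -- on each cell the event is the acceptance event
    intro d
    ext u
    simp only [mem_inter_iff, mem_preimage, mem_singleton_iff, mem_ofPred_eq, Set.mem_pi,
      Finset.mem_coe]
    constructor
    · rintro ⟨h, hd⟩
      refine ⟨fun p => ?_, hd⟩
      have := h p.1 p.2
      unfold relabelAll at this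
      rw [← hd]
      exact this
    · rintro ⟨h, hd⟩
      refine ⟨fun p hp => ?_, hd⟩
      have := h ⟨p, hp⟩
      unfold relabelAll
      rw [← hd] at this
      exact this

end JointLaw

end Vale.Agent.Lib.P143
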