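import Mathlib
import Vale.Agent.Lib.P143.Defs
import Vale.Agent.Lib.P143.Graph
import Vale.Agent.Lib.P143.Split
import Vale.Agent.Lib.P143.Factor
import Vale.Agent.Lib.P143.Relabel
import Vale.Agent.Lib.P143.RelabelLaw

/-!
# Events of different blocks, expressed through the relabelled families, are independent
-/

namespace Vale.Agent.Lib.P143

open SimpleGraph MeasureTheory Set ProbabilityTheory

variable {V : Type}

/-- For pairwise disjoint edge sets `B` and events `A B` depending only on the labels at the
vertices of `B`, the events `relabel G B u ∈ A B` are independent, each with the probability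
of `A B`. -/
theorem measure_relabel_prod (G : SimpleGraph V) (BB : Finset (Set (Sym2 V)))
    (hlf : ∀ v, (G.neighborSet v).Finite)
    (hsub : ∀ B ∈ BB, B ⊆ G.edgeSet)
    (hdisj : ∀ B ∈ BB, ∀ B' ∈ BB, B ≠ B' → Disjoint B B')
    (A : ↥BB → Set (V → unitInterval)) (hA : ∀ B, MeasurableSet (A B))
    (hloc : ∀ (B : ↥BB) (w w' : V → unitInterval), (∀ v ∈ Vb B.1, w v = w' v) →
      (w ∈ A B ↔ w' ∈ A B)) :
    labelMeasure V {u | ∀ B : ↥BB, relabel G B.1 u ∈ A B} =
      ∏ B : ↥BB, labelMeasure V (A B) := by
  classical
  set c : ↥BB → ℕ := fun B => (BB.equivFin B : ℕ) with hc_def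
  have hc : Function.Injective c := fun B B' h => BB.equivFin.injective (Fin.val_injective h)
  have hmap := map_relabelAll G BB c hlf hc hsub hdisj
  have hcurry := Measure.infinitePi_map_curry
    (fun (_ : ↥BB) (_ : V) => (volume : Measure unitInterval))
  have hmeasQ : Measurable (fun u : V → unitInterval =>
      MeasurableEquiv.curry ↥BB V unitInterval (relabelAll G BB c u)) :=
    (MeasurableEquiv.curry ↥BB V unitInterval).measurable.comp (measurable_relabelAll G BB c hlf)
  have hQ : (labelMeasure V).map (fun u : V → unitInterval =>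
      MeasurableEquiv.curry ↥BB V unitInterval (relabelAll G BB c u)) =
      Measure.infinitePi (fun _ : ↥BB => labelMeasure V) := by
    have h1 := Measure.map_map (μ := labelMeasure V)
      (MeasurableEquiv.curry ↥BB V unitInterval).measurable (measurable_relabelAll G BB c hlf)
    have h2 : (fun u : V → unitInterval =>
        MeasurableEquiv.curry ↥BB V unitInterval (relabelAll G BB c u)) =
        (MeasurableEquiv.curry ↥BB V unitInterval) ∘ (relabelAll G BB c) := rfl
    rw [h2, ← h1, hmap, hcurry]
    rfl
  have hset : {u | ∀ B : ↥BB, relabel G B.1 u ∈ A B} =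
      (fun u : V → unitInterval =>
        MeasurableEquiv.curry ↥BB V unitInterval (relabelAll G BB c u)) ⁻¹'
        (Set.pi Set.univ A) := by
    ext u
    simp only [mem_ofPred_eq, mem_preimage, Set.mem_pi, mem_univ, forall_true_left]
    apply forall_congr'
    intro B
    apply hloc
    intro v hv
    exact (relabelAll_eq_relabel G BB c u B v hv).symm
  rw [hset, ← Measure.map_apply hmeasQ (MeasurableSet.univ_pi hA), hQ, Measure.infinitePi_eq_pi,
    Measure.pi_pi]

end Vale.Agent.Lib.P143
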