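import Mathlib
import Vale.Agent.Lib.P143.Defs
import Vale.Agent.Lib.P143.Graph
import Vale.Agent.Lib.P143.Split
import Vale.Agent.Lib.P143.Factor
import Vale.Agent.Lib.P143.Local
import Vale.Agent.Lib.P143.Prod
import Vale.Agent.Lib.P143.Relabel
import Vale.Agent.Lib.P143.RelabelProd

/-!
# Gluing factors for the blocks into a factor for the whole graph
-/

namespace Vale.Agent.Lib.P143

open SimpleGraph MeasureTheory Set

variable {V : Type}

/-- `Ψ` realises the restriction to `B` of the free uniform spanning forest of `G` as a factor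
of the labels at the vertices of `B`. -/
structure IsRestrFactor (G : SimpleGraph V) (B : Set (Sym2 V))
    (Ψ : (V → unitInterval) → Set (Sym2 V)) : Prop where
  inside : ∀ u, Ψ u ⊆ B
  meas : ∀ e, MeasurableSet {u | e ∈ Ψ u}
  dep : ∀ u u' : V → unitInterval, (∀ v ∈ Vb B, u v = u' v) → Ψ u = Ψ u'
  law : ∀ H : ℕ → G.Subgraph, IsExhaustion G H → ∀ K : Set (Sym2 V), K.Finite → K ⊆ B →
    ∀ S : Set (Sym2 V), S ⊆ K → Filter.Tendsto (fun n => ustProb G (H n) K S) Filter.atTop
      (nhds (labelMeasure V {u | Ψ u ∩ K = S}).toReal)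

/-- The glued factor: every block uses its own relabelled family of labels. -/
def PhiR (G : SimpleGraph V) (Ψ : Set (Sym2 V) → (V → unitInterval) → Set (Sym2 V))
    (u : V → unitInterval) : Set (Sym2 V) :=
  {e | e ∈ G.edgeSet ∧ e ∈ Ψ (blockOf G e) (relabel G (blockOf G e) u)}

theorem phiR_subset (G : SimpleGraph V) (Ψ : Set (Sym2 V) → (V → unitInterval) → Set (Sym2 V))
    (u : V → unitInterval) : PhiR G Ψ u ⊆ G.edgeSet :=
  fun _ he => he.1

theorem measurableSet_mem_phiR (G : SimpleGraph V) (hlf : ∀ v, (G.neighborSet v).Finite)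
    (Ψ : Set (Sym2 V) → (V → unitInterval) → Set (Sym2 V))
    (hΨ : ∀ e ∈ G.edgeSet, ∀ f, MeasurableSet {u | f ∈ Ψ (blockOf G e) u}) (e : Sym2 V) :
    MeasurableSet {u | e ∈ PhiR G Ψ u} := by
  by_cases he : e ∈ G.edgeSet
  · have hset : {u | e ∈ PhiR G Ψ u} =
        relabel G (blockOf G e) ⁻¹' {w | e ∈ Ψ (blockOf G e) w} := by
      ext u
      simp only [PhiR, mem_ofPred_eq, mem_preimage, he, true_and]
    rw [hset]
    exact measurable_relabel G hlf (blockOf G e) (hΨ e he e)
  · have hset : {u | e ∈ PhiR G Ψ u} = ∅ := by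
      ext u
      simp only [mem_ofPred_eq, mem_empty_iff_false, iff_false]
      exact fun h => he (phiR_subset G Ψ u h)
    rw [hset]
    exact MeasurableSet.empty

theorem phiR_image (G : SimpleGraph V) (Ψ : Set (Sym2 V) → (V → unitInterval) → Set (Sym2 V))
    (e : V ≃ V) (he : ∀ a b, G.Adj (e a) (e b) ↔ G.Adj a b)
    (hΨ : ∀ f ∈ G.edgeSet, ∀ w : V → unitInterval,
      Ψ (Sym2.map e '' blockOf G f) (fun v => w (e.symm v)) = Sym2.map e '' Ψ (blockOf G f) w)
    (u : V → unitInterval) :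
    PhiR G Ψ (fun v => u (e.symm v)) = Sym2.map e '' PhiR G Ψ u := by
  ext f
  have hf : f = Sym2.map e (Sym2.map e.symm f) := (sym2_map_map_symm e f).symm
  set f₀ := Sym2.map e.symm f with hf₀
  rw [hf, (Sym2.map.injective e.injective).mem_set_image]
  unfold PhiR
  simp only [Set.mem_ofPred_eq]
  rw [mem_edgeSet_map G e he, blockOf_map G e he, relabel_image G e he]
  constructor
  · rintro ⟨h1, h2⟩
    refine ⟨h1, ?_⟩
    rw [hΨ f₀ h1] at h2
    exact (Sym2.map.injective e.injective).mem_set_image.mp h2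
  · rintro ⟨h1, h2⟩
    refine ⟨h1, ?_⟩
    rw [hΨ f₀ h1]
    exact (Sym2.map.injective e.injective).mem_set_image.mpr h2

theorem phiR_equivariant (G : SimpleGraph V)
    (Ψ : Set (Sym2 V) → (V → unitInterval) → Set (Sym2 V)) (γ : G ≃g G)
    (hΨ : ∀ f ∈ G.edgeSet, ∀ w : V → unitInterval,
      Ψ (Sym2.map γ '' blockOf G f) (fun v => w (γ.symm v)) = Sym2.map γ '' Ψ (blockOf G f) w)
    (u : V → unitInterval) :
    PhiR G Ψ (fun v => u (γ.symm v)) = Sym2.map γ '' PhiR G Ψ u :=
  phiR_image G Ψ γ.toEquiv (fun _ _ => γ.map_adj_iff) hΨ u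

theorem measurableSet_inter_eq {Ω : Type} [MeasurableSpace Ω] (P : Ω → Set (Sym2 V))
    (hP : ∀ e, MeasurableSet {u | e ∈ P u}) (K S : Set (Sym2 V)) (hK : K.Finite)
    (hSK : S ⊆ K) : MeasurableSet {u | P u ∩ K = S} := by
  classical
  have hset : {u | P u ∩ K = S} = ⋂ e ∈ K, {u | e ∈ P u ↔ e ∈ S} := by
    ext u
    simp only [mem_ofPred_eq, mem_iInter]
    exact inter_eq_iff_forall (P u) K S hSK
  rw [hset]
  refine MeasurableSet.biInter hK.countable (fun e _ => ?_)
  by_cases heS : e ∈ S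
  · simp only [heS, iff_true]
    exact hP e
  · simp only [heS, iff_false]
    exact (hP e).compl

/-- The law of the glued factor on a finite set of edges: the product over the blocks. -/
theorem measure_phiR (G : SimpleGraph V) (hlf : ∀ v, (G.neighborSet v).Finite)
    (Ψ : Set (Sym2 V) → (V → unitInterval) → Set (Sym2 V))
    (hΨ : ∀ e ∈ G.edgeSet, IsRestrFactor G (blockOf G e) (Ψ (blockOf G e)))
    (K S : Set (Sym2 V)) (hK : K.Finite) (hKE : K ⊆ G.edgeSet) (hSK : S ⊆ K) :
    labelMeasure V {u | PhiR G Ψ u ∩ K = S} =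
      ∏ B ∈ blocksOf G K hK, labelMeasure V {w | Ψ B w ∩ (K ∩ B) = S ∩ B} := by
  classical
  have hsub : ∀ B ∈ blocksOf G K hK, B ⊆ G.edgeSet := by
    intro B hB
    obtain ⟨e, he, rfl⟩ := (mem_blocksOf G K hK B).mp hB
    exact blockOf_subset_edgeSet G (hKE he)
  have hdisj : ∀ B ∈ blocksOf G K hK, ∀ B' ∈ blocksOf G K hK, B ≠ B' → Disjoint B B' := by
    intro B hB B' hB' hne
    obtain ⟨e, he, rfl⟩ := (mem_blocksOf G K hK B).mp hB
    obtain ⟨e', he', rfl⟩ := (mem_blocksOf G K hK B').mp hB'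
    exact blockOf_disjoint G hne
  have hfac : ∀ B ∈ blocksOf G K hK, IsRestrFactor G B (Ψ B) := by
    intro B hB
    obtain ⟨e, he, rfl⟩ := (mem_blocksOf G K hK B).mp hB
    exact hΨ e (hKE he)
  have hA : ∀ B : ↥(blocksOf G K hK),
      MeasurableSet {w | Ψ B.1 w ∩ (K ∩ B.1) = S ∩ B.1} := by
    intro B
    exact measurableSet_inter_eq (Ψ B.1) (hfac B.1 B.2).meas (K ∩ B.1) (S ∩ B.1)
      (hK.subset inter_subset_left) (inter_subset_inter_left _ hSK)
  have hloc : ∀ (B : ↥(blocksOf G K hK)) (w w' : V → unitInterval),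
      (∀ v ∈ Vb B.1, w v = w' v) →
      (w ∈ {w | Ψ B.1 w ∩ (K ∩ B.1) = S ∩ B.1} ↔ w' ∈ {w | Ψ B.1 w ∩ (K ∩ B.1) = S ∩ B.1}) := by
    intro B w w' h
    simp only [mem_ofPred_eq]
    rw [(hfac B.1 B.2).dep w w' h]
  have hset : {u | PhiR G Ψ u ∩ K = S} =
      {u | ∀ B : ↥(blocksOf G K hK),
        relabel G B.1 u ∈ {w | Ψ B.1 w ∩ (K ∩ B.1) = S ∩ B.1}} := by
    ext u
    simp only [mem_ofPred_eq]
    rw [inter_eq_iff_forall _ K S hSK]
    constructor
    · intro h B
      rw [inter_eq_iff_forall _ (K ∩ B.1) (S ∩ B.1) (inter_subset_inter_left _ hSK)]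
      rintro e ⟨heK, heB⟩
      obtain ⟨e', he', hBe'⟩ := (mem_blocksOf G K hK B.1).mp B.2
      have hBe : blockOf G e = B.1 := by
        rw [← hBe'] at heB ⊢
        exact blockOf_eq_of_mem G heB
      have h1 := h e heK
      unfold PhiR at h1
      simp only [mem_ofPred_eq, hKE heK, true_and, hBe] at h1
      rw [h1]
      exact ⟨fun hs => ⟨hs, heB⟩, fun hs => hs.1⟩
    · intro h e heK
      have hB : blockOf G e ∈ blocksOf G K hK := (mem_blocksOf G K hK _).mpr ⟨e, heK, rfl⟩
      have h1 := h ⟨blockOf G e, hB⟩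
      rw [inter_eq_iff_forall _ (K ∩ blockOf G e) (S ∩ blockOf G e)
        (inter_subset_inter_left _ hSK)] at h1
      have h2 := h1 e ⟨heK, mem_blockOf_self G e⟩
      unfold PhiR
      simp only [mem_ofPred_eq, hKE heK, true_and]
      rw [h2]
      exact ⟨fun hs => hs.1, fun hs => ⟨hs, mem_blockOf_self G e⟩⟩
  rw [hset, measure_relabel_prod G (blocksOf G K hK) hlf hsub hdisj _ hA hloc]
  exact Finset.prod_coe_sort (blocksOf G K hK)
    (fun B => labelMeasure V {w | Ψ B w ∩ (K ∩ B) = S ∩ B})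

/-- Reduction of the convergence statement to finite sets of edges of `G` and `S ⊆ K`. -/
theorem tendsto_ustProb_of_edges (G : SimpleGraph V) (H : ℕ → G.Subgraph)
    (P : (V → unitInterval) → Set (Sym2 V)) (hP : ∀ u, P u ⊆ G.edgeSet)
    (h : ∀ K S : Set (Sym2 V), K.Finite → K ⊆ G.edgeSet → S ⊆ K →
      Filter.Tendsto (fun n => ustProb G (H n) K S) Filter.atTop
        (nhds (labelMeasure V {u | P u ∩ K = S}).toReal))
    (K : Set (Sym2 V)) (hK : K.Finite) (S : Set (Sym2 V)) :
    Filter.Tendsto (fun n => ustProb G (H n) K S) Filter.atTop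
      (nhds (labelMeasure V {u | P u ∩ K = S}).toReal) := by
  have hFG : ∀ n (F : SimpleGraph V), IsSpanningTree G (H n) F → F.edgeSet ⊆ G.edgeSet :=
    fun n F hF => edgeSet_subset_edgeSet.mpr (hF.1.trans (H n).spanningCoe_le)
  by_cases hS : S ⊆ K ∩ G.edgeSet
  · have hK' : (K ∩ G.edgeSet).Finite := hK.subset inter_subset_left
    have hev : {u | P u ∩ K = S} = {u | P u ∩ (K ∩ G.edgeSet) = S} := by
      ext u
      have h1 : P u ∩ K = P u ∩ (K ∩ G.edgeSet) := by
        ext e
        constructor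
        · rintro ⟨h1, h2⟩
          exact ⟨h1, h2, hP u h1⟩
        · rintro ⟨h1, h2, _⟩
          exact ⟨h1, h2⟩
      simp only [mem_ofPred_eq, h1]
    have hust : ∀ n, ustProb G (H n) K S = ustProb G (H n) (K ∩ G.edgeSet) S := by
      intro n
      unfold ustProb
      have h1 : {F | IsSpanningTree G (H n) F ∧ F.edgeSet ∩ K = S} =
          {F | IsSpanningTree G (H n) F ∧ F.edgeSet ∩ (K ∩ G.edgeSet) = S} := by
        ext F
        simp only [mem_ofPred_eq, and_congr_right_iff]
        intro hF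
        have h2 : F.edgeSet ∩ K = F.edgeSet ∩ (K ∩ G.edgeSet) := by
          ext e
          constructor
          · rintro ⟨h1, h2⟩
            exact ⟨h1, h2, hFG n F hF h1⟩
          · rintro ⟨h1, h2, _⟩
            exact ⟨h1, h2⟩
        rw [h2]
      rw [h1]
    rw [hev]
    simp only [hust]
    exact h (K ∩ G.edgeSet) S hK' inter_subset_right hS
  · have hev : {u | P u ∩ K = S} = ∅ := by
      ext u
      simp only [mem_ofPred_eq, mem_empty_iff_false, iff_false]
      intro h
      apply hS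
      rw [← h]
      intro e he
      exact ⟨he.2, hP u he.1⟩
    have hust : ∀ n, ustProb G (H n) K S = 0 := by
      intro n
      unfold ustProb
      have h1 : {F | IsSpanningTree G (H n) F ∧ F.edgeSet ∩ K = S} = ∅ := by
        ext F
        simp only [mem_ofPred_eq, mem_empty_iff_false, iff_false, not_and]
        intro hF h
        apply hS
        rw [← h]
        intro e he
        exact ⟨he.2, hFG n F hF he.1⟩
      rw [h1]
      simp
    rw [hev]
    simp only [hust, measure_empty, ENNReal.toReal_zero]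
    exact tendsto_const_nhds

/-- The glued factor has the law of the free uniform spanning forest of `G`. -/
theorem tendsto_ustProb_phiR (G : SimpleGraph V) (hlf : ∀ v, (G.neighborSet v).Finite)
    (Ψ : Set (Sym2 V) → (V → unitInterval) → Set (Sym2 V))
    (hΨ : ∀ e ∈ G.edgeSet, IsRestrFactor G (blockOf G e) (Ψ (blockOf G e)))
    (H : ℕ → G.Subgraph) (hH : IsExhaustion G H) (K : Set (Sym2 V)) (hK : K.Finite)
    (S : Set (Sym2 V)) :
    Filter.Tendsto (fun n => ustProb G (H n) K S) Filter.atTop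
      (nhds (labelMeasure V {u | PhiR G Ψ u ∩ K = S}).toReal) := by
  refine tendsto_ustProb_of_edges G H (PhiR G Ψ) (phiR_subset G Ψ) ?_ K hK S
  intro K S hK hKE hSK
  rw [measure_phiR G hlf Ψ hΨ K S hK hKE hSK, ENNReal.toReal_prod]
  have hprod : ∀ n, ustProb G (H n) K S =
      ∏ B ∈ blocksOf G K hK, ustProb G (H n) (K ∩ B) (S ∩ B) :=
    fun n => ustProb_prod G (H n) (hH.finite n) (hH.connected n) K S hK hSK
  simp only [hprod]
  apply tendsto_finsetProd
  intro B hB
  obtain ⟨e, he, rfl⟩ := (mem_blocksOf G K hK B).mp hB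
  exact (hΨ e (hKE he)).law H hH (K ∩ blockOf G e) (hK.subset inter_subset_left)
    inter_subset_right (S ∩ blockOf G e) (inter_subset_inter_left _ hSK)

end Vale.Agent.Lib.P143
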