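import Mathlib
import Vale.Agent.Lib.P143.Defs
import Vale.Agent.Lib.P143.Graph
import Vale.Agent.Lib.P143.Split
import Vale.Agent.Lib.P143.Factor
import Vale.Agent.Lib.P143.Cells
import Vale.Agent.Lib.P143.Main
import Vale.Agent.Lib.P143.Iso
import Vale.Agent.Lib.P143.Loc
import Vale.Agent.Lib.P143.Reduce

/-!
# Finite blocks: the uniform spanning tree of a finite block is a factor of the labels of
the block
-/

namespace Vale.Agent.Lib.P143

open SimpleGraph MeasureTheory Set

variable {V : Type}

theorem eqvGen_fromEdgeSet (G : SimpleGraph V) (e₀ : Sym2 V) (he₀ : e₀ ∈ G.edgeSet)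
    {a b : Sym2 V} (h : Relation.EqvGen (CycleLinked G) a b) :
    a ∈ blockOf G e₀ →
      Relation.EqvGen (CycleLinked (fromEdgeSet (blockOf G e₀))) a b := by
  have hB : blockOf G e₀ ⊆ G.edgeSet := blockOf_subset_edgeSet G he₀
  induction h with
  | rel a b hab =>
    intro ha
    obtain ⟨v, c, hc, hac, hbc⟩ := hab
    have hall : ∀ e ∈ c.edges, e ∈ blockOf G e₀ := by
      rcases block_cycle_closed G (le_refl G) e₀ v c hc with h | h
      · exact h
      · exact absurd ha (h a hac)
    have hall' : ∀ e ∈ c.edges, e ∈ (fromEdgeSet (blockOf G e₀)).edgeSet := by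
      intro e he
      rw [edgeSet_fromEdgeSet_of_subset G hB]
      exact hall e he
    refine Relation.EqvGen.rel _ _ ⟨v, c.transfer _ hall', hc.transfer hall', ?_, ?_⟩
    · rw [Walk.edges_transfer]
      exact hac
    · rw [Walk.edges_transfer]
      exact hbc
  | refl a => exact fun _ => Relation.EqvGen.refl _
  | symm a b hab ih =>
    intro hb
    have ha : a ∈ blockOf G e₀ :=
      Relation.EqvGen.trans _ _ _ hb (Relation.EqvGen.symm _ _ hab)
    exact Relation.EqvGen.symm _ _ (ih ha)
  | trans a b c hab hbc ih1 ih2 =>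
    intro ha
    have hb : b ∈ blockOf G e₀ := Relation.EqvGen.trans _ _ _ ha hab
    exact Relation.EqvGen.trans _ _ _ (ih1 ha) (ih2 hb)

/-- A block of `G`, viewed as a graph, has a single block. -/
theorem blockOf_fromEdgeSet (G : SimpleGraph V) (e₀ : Sym2 V) (he₀ : e₀ ∈ G.edgeSet)
    (e : Sym2 V) (he : e ∈ blockOf G e₀) :
    blockOf (fromEdgeSet (blockOf G e₀)) e = blockOf G e₀ := by
  have hB : blockOf G e₀ ⊆ G.edgeSet := blockOf_subset_edgeSet G he₀
  apply Set.Subset.antisymm
  · have h1 : e ∈ (fromEdgeSet (blockOf G e₀)).edgeSet := by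
      rw [edgeSet_fromEdgeSet_of_subset G hB]
      exact he
    have h2 := blockOf_subset_edgeSet (fromEdgeSet (blockOf G e₀)) h1
    rw [edgeSet_fromEdgeSet_of_subset G hB] at h2
    exact h2
  · intro f hf
    have hef : Relation.EqvGen (CycleLinked G) e f :=
      Relation.EqvGen.trans _ _ _ (Relation.EqvGen.symm _ _ he) hf
    exact eqvGen_fromEdgeSet G e₀ he₀ hef he

/-- Along an exhaustion, the law of the uniform spanning tree on a finite edge set is
eventually given by the block product (when the blocks meeting the set are finite). -/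
theorem ustProb_eventually' (G : SimpleGraph V) (H : ℕ → G.Subgraph) (hH : IsExhaustion G H)
    (K S : Set (Sym2 V)) (hK : K.Finite) (hKE : K ⊆ G.edgeSet) (hSK : S ⊆ K)
    (hfinB : ∀ e ∈ K, (blockOf G e).Finite) :
    ∃ n₀, ∀ n, n₀ ≤ n → ustProb G (H n) K S = blockProb G K S hK := by
  classical
  have hUfin : (⋃ B ∈ blocksOf G K hK, B).Finite := by
    apply Set.Finite.biUnion (Finset.finite_toSet _)
    intro B hB
    obtain ⟨e, he, rfl⟩ := (mem_blocksOf G K hK B).mp hB
    exact hfinB e he
  have hUE : (⋃ B ∈ blocksOf G K hK, B) ⊆ G.edgeSet := by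
    intro f hf
    simp only [Set.mem_iUnion, exists_prop] at hf
    obtain ⟨B, hB, hfB⟩ := hf
    obtain ⟨e, he, rfl⟩ := (mem_blocksOf G K hK B).mp hB
    exact blockOf_subset_edgeSet G (hKE he) hfB
  choose f hf using hH.edges
  let g : Sym2 V → ℕ := fun e => if h : e ∈ G.edgeSet then f e h else 0
  refine ⟨hUfin.toFinset.sup g, fun n hn => ?_⟩
  apply ustProb_eq_blockProb G (H n) (hH.finite n) (hH.connected n) K S hK hSK
  intro B hB e he
  have heU : e ∈ ⋃ B ∈ blocksOf G K hK, B := by
    simp only [Set.mem_iUnion, exists_prop]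
    exact ⟨B, hB, he⟩
  have hge : g e ≤ n := le_trans (Finset.le_sup (f := g) (hUfin.mem_toFinset.mpr heU)) hn
  have hmem : e ∈ (H (g e)).edgeSet := by
    have := hf e (hUE heU)
    simpa [g, hUE heU] using this
  exact Subgraph.edgeSet_mono (hH.mono hge) hmem

/-- For a finite block, the factor of the block graph realises the restriction of the free
uniform spanning forest of `G` to the block. -/
theorem isRestrFactor_fin (G : SimpleGraph V) (hlf : ∀ v, (G.neighborSet v).Finite)
    (e₀ : Sym2 V) (he₀ : e₀ ∈ G.edgeSet) (hfin : (blockOf G e₀).Finite) :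
    IsRestrFactor G (blockOf G e₀) (Phi (fromEdgeSet (blockOf G e₀))) := by
  have hB : blockOf G e₀ ⊆ G.edgeSet := blockOf_subset_edgeSet G he₀
  have hE : (fromEdgeSet (blockOf G e₀)).edgeSet = blockOf G e₀ :=
    edgeSet_fromEdgeSet_of_subset G hB
  have hlf' : ∀ v, ((fromEdgeSet (blockOf G e₀)).neighborSet v).Finite := by
    intro v
    apply (hlf v).subset
    intro w hw
    have hw' : (fromEdgeSet (blockOf G e₀)).Adj v w := hw
    rw [fromEdgeSet_adj] at hw'
    exact hB hw'.1
  have hblocks' : ∀ e ∈ (fromEdgeSet (blockOf G e₀)).edgeSet,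
      (blockOf (fromEdgeSet (blockOf G e₀)) e).Finite := by
    intro e he
    apply hfin.subset
    have := blockOf_subset_edgeSet (fromEdgeSet (blockOf G e₀)) he
    rw [hE] at this
    exact this
  refine ⟨?_, ?_, ?_, ?_⟩
  · intro u e he
    have := phi_subset (fromEdgeSet (blockOf G e₀)) u he
    rw [hE] at this
    exact this
  · exact measurableSet_mem_phi (fromEdgeSet (blockOf G e₀)) hlf' hblocks'
  · intro u u' h
    ext e
    by_cases he : e ∈ (fromEdgeSet (blockOf G e₀)).edgeSet
    · apply phi_local
      rintro v ⟨f, hf, w, hw, hvw⟩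
      have hfB : f ∈ blockOf G e₀ := by
        have := blockOf_subset_edgeSet (fromEdgeSet (blockOf G e₀)) he hf
        rw [hE] at this
        exact this
      rcases hvw with rfl | hadj
      · exact h v ⟨f, hfB, hw⟩
      · rw [fromEdgeSet_adj] at hadj
        exact h v ⟨s(w, v), hadj.1, Sym2.mem_mk_right w v⟩
    · constructor
      · exact fun h' => absurd (phi_subset _ u h') he
      · exact fun h' => absurd (phi_subset _ u' h') he
  · intro H hH K hK hKB S hSK
    have hKE : K ⊆ G.edgeSet := hKB.trans hB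
    have hKE' : K ⊆ (fromEdgeSet (blockOf G e₀)).edgeSet := by
      rw [hE]
      exact hKB
    have hfinK : ∀ e ∈ K, (blockOf G e).Finite := by
      intro e he
      rw [blockOf_eq_of_mem G (hKB he)]
      exact hfin
    obtain ⟨n₀, hn₀⟩ := ustProb_eventually' G H hH K S hK hKE hSK hfinK
    have hm := (measure_phi (fromEdgeSet (blockOf G e₀)) hlf' hblocks' K S hK hKE' hSK).2
    have hblk : blocksOf (fromEdgeSet (blockOf G e₀)) K hK = blocksOf G K hK := by
      classical
      unfold blocksOf
      apply Finset.image_congr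
      intro e he
      have heK : e ∈ K := hK.mem_toFinset.mp he
      rw [blockOf_fromEdgeSet G e₀ he₀ e (hKB heK), blockOf_eq_of_mem G (hKB heK)]
    have hval : (labelMeasure V {u | Phi (fromEdgeSet (blockOf G e₀)) u ∩ K = S}).toReal =
        blockProb G K S hK := by
      rw [hm, ENNReal.toReal_prod, hblk]
      unfold blockProb
      apply Finset.prod_congr rfl
      intro B _
      rw [ENNReal.toReal_ofReal (by positivity)]
    rw [hval]
    apply tendsto_const_nhds.congr'
    filter_upwards [Filter.eventually_ge_atTop n₀] with n hn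
    rw [hn₀ n hn]

/-- The factors of the finite blocks are compatible with the automorphisms of `G`. -/
theorem phi_fromEdgeSet_image (e : V ≃ V) (B : Set (Sym2 V)) (u : V → unitInterval) :
    Phi (fromEdgeSet (Sym2.map e '' B)) (fun v => u (e.symm v)) =
      Sym2.map e '' Phi (fromEdgeSet B) u := by
  have he : ∀ a b, (fromEdgeSet (Sym2.map e '' B)).Adj (e a) (e b) ↔
      (fromEdgeSet B).Adj a b := by
    intro a b
    rw [fromEdgeSet_adj, fromEdgeSet_adj, mem_image_sym2 e B a b, e.injective.ne_iff]
  exact psiD_image2 (fromEdgeSet B) (fromEdgeSet (Sym2.map e '' B)) e he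
    (fun v => splitMap (u v) 0) (fun v => splitMap (u v))

end Vale.Agent.Lib.P143
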