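import Mathlib
import Vale.Agent.Lib.P143.Defs
import Vale.Agent.Lib.P143.Defs3
import Vale.Agent.Lib.P143.Graph
import Vale.Agent.Lib.P143.Split
import Vale.Agent.Lib.P143.Factor
import Vale.Agent.Lib.P143.Generic
import Vale.Agent.Lib.P143.Main
import Vale.Agent.Lib.P143.Iso
import Vale.Agent.Lib.P143.Loc
import Vale.Agent.Lib.P143.FinBlock
import Vale.Agent.Lib.P143.BorelG

/-!
# The guarded factor map is a jointly measurable function of the graph and the labels
-/

namespace Vale.Agent.Lib.P143

open SimpleGraph MeasureTheory Set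

variable {V : Type}

/-- The block of `e` is finite and its vertices have finitely many neighbours. -/
def Guard (G : SimpleGraph V) (e : Sym2 V) : Prop :=
  (blockOf G e).Finite ∧ ∀ a ∈ Vb (blockOf G e), (G.neighborSet a).Finite

/-- The guarded factor map: the factor map, switched off at the edges whose block is infinite
or not locally finite. -/
noncomputable def PhiG (G : SimpleGraph V) (u : V → unitInterval) : Set (Sym2 V) :=
  {e | e ∈ Phi G u ∧ Guard G e}

theorem phiG_subset (G : SimpleGraph V) (u : V → unitInterval) : PhiG G u ⊆ G.edgeSet :=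
  fun _ he => phi_subset G u he.1

theorem phiG_eq_phi (G : SimpleGraph V) (hlf : ∀ v, (G.neighborSet v).Finite)
    (hblocks : ∀ e ∈ G.edgeSet, (blockOf G e).Finite) (u : V → unitInterval) :
    PhiG G u = Phi G u := by
  ext e
  constructor
  · exact fun h => h.1
  · intro h
    exact ⟨h, hblocks e (phi_subset G u h), fun a _ => hlf a⟩

/-! ### Dependence of the factor map on the graph -/

theorem mem_vb_of_mem_edge {B : Set (Sym2 V)} {a b : V} (h : s(a, b) ∈ B) : a ∈ Vb B :=
  ⟨s(a, b), h, Sym2.mem_mk_left a b⟩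

/-- Whether `e` is selected depends on the graph only through the block of `e` and the
neighbourhoods of the vertices of this block. -/
theorem phi_congr_graph_imp (G G' : SimpleGraph V) (e : Sym2 V) (u : V → unitInterval)
    (hB : blockOf G e = blockOf G' e)
    (hN : ∀ a ∈ Vb (blockOf G e), G.neighborSet a = G'.neighborSet a) :
    e ∈ Phi G u → e ∈ Phi G' u := by
  rintro ⟨heG, F, ⟨hF, a, b, hne, heq⟩, heF⟩
  have hseed : ∀ a b, seedIdx G (fun v => splitMap (u v) 0) (blockOf G e) a b =
      seedIdx G' (fun v => splitMap (u v) 0) (blockOf G e) a b := by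
    intro a b
    unfold seedIdx
    by_cases hc : IsMinV (fun v => splitMap (u v) 0) (blockOf G e) a ∧
        IsMinN (fun v => splitMap (u v) 0) (blockOf G e) a b
    · rw [if_pos hc, if_pos hc, hN a hc.1.1]
    · rw [if_neg hc, if_neg hc]
  have heG' : e ∈ G'.edgeSet := by
    induction e with
    | h x y =>
      have hx : x ∈ Vb (blockOf G s(x, y)) := mem_vb_of_mem_edge (mem_blockOf_self G _)
      have hy : y ∈ G.neighborSet x := heG
      rw [hN x hx] at hy
      exact hy
  refine ⟨heG', F, ⟨?_, a, b, ?_, ?_⟩, heF⟩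
  · rw [← hB]
    exact hF
  · rw [← hB, ← hseed]
    exact hne
  · rw [← hB, ← hseed]
    exact heq

theorem phi_congr_graph (G G' : SimpleGraph V) (e : Sym2 V) (u : V → unitInterval)
    (hB : blockOf G e = blockOf G' e)
    (hN : ∀ a ∈ Vb (blockOf G e), G.neighborSet a = G'.neighborSet a) :
    e ∈ Phi G u ↔ e ∈ Phi G' u :=
  ⟨phi_congr_graph_imp G G' e u hB hN,
    phi_congr_graph_imp G' G e u hB.symm (fun a ha => (hN a (hB ▸ ha)).symm)⟩

/-! ### The star of a block -/

/-- The edges of `G` with an endpoint in the block of `e`. -/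
def starE (G : SimpleGraph V) (e : Sym2 V) : Set (Sym2 V) :=
  {f | ∃ a w, a ∈ Vb (blockOf G e) ∧ G.Adj a w ∧ f = s(a, w)}

theorem starE_subset (G : SimpleGraph V) (e : Sym2 V) : starE G e ⊆ G.edgeSet := by
  rintro f ⟨a, w, -, haw, rfl⟩
  exact haw

theorem starE_finite (G : SimpleGraph V) (e : Sym2 V) (h : Guard G e) : (starE G e).Finite := by
  have hset : starE G e ⊆ ⋃ a ∈ Vb (blockOf G e), (fun w => s(a, w)) '' G.neighborSet a := by
    rintro f ⟨a, w, ha, haw, rfl⟩
    simp only [mem_iUnion, exists_prop]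
    exact ⟨a, ha, w, haw, rfl⟩
  apply Set.Finite.subset _ hset
  exact Set.Finite.biUnion (vb_finite _ h.1) (fun a ha => (h.2 a ha).image _)

theorem blockOf_subset_starE (G : SimpleGraph V) (e : Sym2 V) (he : e ∈ G.edgeSet) :
    blockOf G e ⊆ starE G e := by
  intro f hf
  have hfG := blockOf_subset_edgeSet G he hf
  induction f with
  | h a w => exact ⟨a, w, mem_vb_of_mem_edge hf, hfG, rfl⟩

theorem blockOf_mono {G₁ G₂ : SimpleGraph V} (h : G₁ ≤ G₂) (e : Sym2 V) :
    blockOf G₁ e ⊆ blockOf G₂ e := by
  intro f hf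
  refine Relation.EqvGen.mono ?_ e f hf
  rintro a b ⟨v, c, hc, ha, hb⟩
  have hall : ∀ e' ∈ c.edges, e' ∈ G₂.edgeSet :=
    fun e' he' => edgeSet_subset_edgeSet.mpr h (c.edges_subset_edgeSet he')
  refine ⟨v, c.transfer G₂ hall, hc.transfer hall, ?_, ?_⟩
  · rw [Walk.edges_transfer]
    exact ha
  · rw [Walk.edges_transfer]
    exact hb

theorem blockOf_star (G : SimpleGraph V) (e : Sym2 V) (he : e ∈ G.edgeSet) :
    blockOf (fromEdgeSet (starE G e)) e = blockOf G e := by
  apply Set.Subset.antisymm
  · apply blockOf_mono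
    intro a b hab
    rw [fromEdgeSet_adj] at hab
    exact starE_subset G e hab.1
  · intro f hf
    have h1 := eqvGen_fromEdgeSet G e he hf (mem_blockOf_self G e)
    have h2 : fromEdgeSet (blockOf G e) ≤ fromEdgeSet (starE G e) :=
      fromEdgeSet_mono (blockOf_subset_starE G e he)
    exact blockOf_mono h2 e h1

theorem neighborSet_star (G : SimpleGraph V) (e : Sym2 V) (a : V)
    (ha : a ∈ Vb (blockOf G e)) :
    (fromEdgeSet (starE G e)).neighborSet a = G.neighborSet a := by
  ext w
  simp only [mem_neighborSet, fromEdgeSet_adj]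
  constructor
  · rintro ⟨h, -⟩
    exact starE_subset G e h
  · intro h
    exact ⟨⟨a, w, ha, h, rfl⟩, G.ne_of_adj h⟩

theorem finite_neighborSet_fromEdgeSet (T : Set (Sym2 V)) (hT : T.Finite) (a : V) :
    ((fromEdgeSet T).neighborSet a).Finite := by
  apply Set.Finite.of_finite_image (f := fun w => s(a, w))
  · apply hT.subset
    rintro _ ⟨w, hw, rfl⟩
    have hw' : (fromEdgeSet T).Adj a w := hw
    rw [fromEdgeSet_adj] at hw'
    exact hw'.1
  · intro w _ w' _ h
    have h' : s(a, w) = s(a, w') := h
    rw [Sym2.eq_iff] at h'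
    rcases h' with ⟨-, h2⟩ | ⟨h1, h2⟩
    · exact h2
    · rw [← h1, h2]

theorem finite_blockOf_fromEdgeSet (T : Set (Sym2 V)) (hT : T.Finite) (e : Sym2 V)
    (he : e ∈ (fromEdgeSet T).edgeSet) : (blockOf (fromEdgeSet T) e).Finite := by
  apply hT.subset
  intro f hf
  have := blockOf_subset_edgeSet (fromEdgeSet T) he hf
  rw [edgeSet_fromEdgeSet] at this
  exact this.1

/-! ### Joint measurability -/

/-- The graphs that look like the finite graph with edge set `T` around the block of `e`. -/
def pieceG (e : Sym2 V) (T : Set (Sym2 V)) : Set (SimpleGraph V) :=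
  {G | blockOf G e = blockOf (fromEdgeSet T) e ∧
    ∀ a ∈ Vb (blockOf (fromEdgeSet T) e), G.neighborSet a = (fromEdgeSet T).neighborSet a}

theorem measurableSet_pieceG [Countable V] (e : Sym2 V) (T : Set (Sym2 V)) (hT : T.Finite)
    (he : e ∈ (fromEdgeSet T).edgeSet) : MeasurableSet[graphMS V] (pieceG e T) := by
  have hset : pieceG e T = {G : SimpleGraph V | blockOf G e = blockOf (fromEdgeSet T) e} ∩
      ⋂ a ∈ Vb (blockOf (fromEdgeSet T) e),
        {G : SimpleGraph V | G.neighborSet a = (fromEdgeSet T).neighborSet a} := by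
    ext G
    simp only [pieceG, mem_ofPred_eq, mem_inter_iff, mem_iInter]
  rw [hset]
  refine MeasurableSet.inter
    (measurableSet_blockOf_eq e _ (finite_blockOf_fromEdgeSet T hT e he)) ?_
  exact MeasurableSet.biInter (Set.to_countable _)
    (fun a _ => measurableSet_neighborSet_eq a _)

theorem mem_phiG_iff_piece (e : Sym2 V) (G : SimpleGraph V) (u : V → unitInterval) :
    e ∈ PhiG G u ↔ ∃ T : Finset (Sym2 V),
      G ∈ pieceG e (T : Set (Sym2 V)) ∧ e ∈ Phi (fromEdgeSet (T : Set (Sym2 V))) u := by
  constructor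
  · rintro ⟨hphi, hguard⟩
    have heG : e ∈ G.edgeSet := phi_subset G u hphi
    have hfin := starE_finite G e hguard
    refine ⟨hfin.toFinset, ?_, ?_⟩
    · rw [Set.Finite.coe_toFinset]
      refine ⟨(blockOf_star G e heG).symm, ?_⟩
      intro a ha
      rw [blockOf_star G e heG] at ha
      exact (neighborSet_star G e a ha).symm
    · rw [Set.Finite.coe_toFinset]
      exact (phi_congr_graph G _ e u (blockOf_star G e heG).symm
        (fun a ha => (neighborSet_star G e a ha).symm)).mp hphi
  · rintro ⟨T, ⟨hB, hN⟩, hphi⟩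
    have heT : e ∈ (fromEdgeSet (T : Set (Sym2 V))).edgeSet := phi_subset _ u hphi
    have hphiG : e ∈ Phi G u :=
      (phi_congr_graph G _ e u hB (fun a ha => hN a (hB ▸ ha))).mpr hphi
    refine ⟨hphiG, ?_, ?_⟩
    · rw [hB]
      exact finite_blockOf_fromEdgeSet _ T.finite_toSet e heT
    · intro a ha
      rw [hN a (hB ▸ ha)]
      exact finite_neighborSet_fromEdgeSet _ T.finite_toSet a

/-- The guarded factor map is jointly measurable in the graph and the labels. -/
theorem measurableSet_mem_phiG [Countable V] (e : Sym2 V) :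
    MeasurableSet[(graphMS V).prod MeasurableSpace.pi]
      {p : SimpleGraph V × (V → unitInterval) | e ∈ PhiG p.1 p.2} := by
  letI : MeasurableSpace (SimpleGraph V) := graphMS V
  haveI := countable_sym2 (V := V)
  have hset : {p : SimpleGraph V × (V → unitInterval) | e ∈ PhiG p.1 p.2} =
      ⋃ T : Finset (Sym2 V), (pieceG e (T : Set (Sym2 V))) ×ˢ
        {u : V → unitInterval | e ∈ Phi (fromEdgeSet (T : Set (Sym2 V))) u} := by
    ext p
    simp only [mem_ofPred_eq, mem_iUnion, mem_prod]
    exact mem_phiG_iff_piece e p.1 p.2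
  rw [hset]
  refine MeasurableSet.iUnion (fun T => ?_)
  by_cases heT : e ∈ (fromEdgeSet (T : Set (Sym2 V))).edgeSet
  · refine MeasurableSet.prod (measurableSet_pieceG e _ T.finite_toSet heT) ?_
    apply measurableSet_mem_phi
    · exact fun a => finite_neighborSet_fromEdgeSet _ T.finite_toSet a
    · exact fun f hf => finite_blockOf_fromEdgeSet _ T.finite_toSet f hf
  · have hempty : {u : V → unitInterval | e ∈ Phi (fromEdgeSet (T : Set (Sym2 V))) u} = ∅ := by
      ext u
      simp only [mem_ofPred_eq, mem_empty_iff_false, iff_false]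
      exact fun h => heT (phi_subset _ u h)
    rw [hempty, Set.prod_empty]
    exact MeasurableSet.empty

end Vale.Agent.Lib.P143
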