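import Mathlib
import Vale.Agent.Lib.P143.Defs

/-!
# Existence of exhaustions of connected locally finite graphs
-/

namespace Vale.Agent.Lib.P143

open SimpleGraph Set

variable {V : Type}

/-- The set of vertices reached from `o` in at most `n` steps. -/
def ballSet (G : SimpleGraph V) (o : V) : ℕ → Set V
  | 0 => {o}
  | n + 1 => ballSet G o n ∪ ⋃ w ∈ ballSet G o n, G.neighborSet w

theorem ballSet_finite (G : SimpleGraph V) (hlf : ∀ v, (G.neighborSet v).Finite) (o : V) :
    ∀ n, (ballSet G o n).Finite
  | 0 => Set.finite_singleton o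
  | n + 1 => (ballSet_finite G hlf o n).union
      (Set.Finite.biUnion (ballSet_finite G hlf o n) (fun w _ => hlf w))

theorem ballSet_mono (G : SimpleGraph V) (o : V) : Monotone (ballSet G o) :=
  monotone_nat_of_le_succ (fun _ => Set.subset_union_left)

theorem mem_ballSet_succ (G : SimpleGraph V) (o : V) (n : ℕ) {a c : V} (ha : a ∈ ballSet G o n)
    (h : G.Adj a c) : c ∈ ballSet G o (n + 1) := by
  refine Or.inr ?_
  simp only [mem_iUnion]
  exact ⟨a, ha, h⟩

theorem mem_ballSet_of_walk (G : SimpleGraph V) (o : V) {a b : V} (p : G.Walk a b) :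
    ∀ n : ℕ, a ∈ ballSet G o n → b ∈ ballSet G o (n + p.length) := by
  induction p with
  | nil => intro n ha; exact ha
  | cons h p ih =>
    intro n ha
    have h1 := ih (n + 1) (mem_ballSet_succ G o n ha h)
    rw [Walk.length_cons]
    have h2 : n + 1 + p.length = n + (p.length + 1) := by omega
    rw [← h2]
    exact h1

theorem exists_walk_in_ballSet (G : SimpleGraph V) (o : V) :
    ∀ n, ∀ v ∈ ballSet G o n, ∃ p : G.Walk o v, ∀ w ∈ p.support, w ∈ ballSet G o n := by
  intro n
  induction n with
  | zero =>
    intro v hv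
    have hv' : v = o := hv
    subst hv'
    exact ⟨Walk.nil, fun w hw => by
      rw [Walk.support_nil, List.mem_singleton] at hw
      exact hw⟩
  | succ n ih =>
    intro v hv
    rcases hv with hv | hv
    · obtain ⟨p, hp⟩ := ih v hv
      exact ⟨p, fun w hw => ballSet_mono G o (Nat.le_succ n) (hp w hw)⟩
    · simp only [mem_iUnion] at hv
      obtain ⟨a, ha, hav'⟩ := hv
      have hav : G.Adj a v := hav'
      obtain ⟨p, hp⟩ := ih a ha
      refine ⟨p.concat hav, fun w hw => ?_⟩
      rw [Walk.support_concat, List.mem_append, List.mem_singleton] at hw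
      rcases hw with hw | hw
      · exact ballSet_mono G o (Nat.le_succ n) (hp w hw)
      · rw [hw]
        exact mem_ballSet_succ G o n ha hav

/-- A connected locally finite graph has an exhaustion by finite connected subgraphs. -/
theorem exists_exhaustion (G : SimpleGraph V) (hc : G.Connected)
    (hlf : ∀ v, (G.neighborSet v).Finite) : ∃ H : ℕ → G.Subgraph, IsExhaustion G H := by
  obtain ⟨o⟩ := hc.nonempty
  have hcover : ∀ v, ∃ n, v ∈ ballSet G o n := by
    intro v
    obtain ⟨p⟩ := hc.preconnected o v
    exact ⟨0 + p.length, mem_ballSet_of_walk G o p 0 rfl⟩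
  refine ⟨fun n => (⊤ : G.Subgraph).induce (ballSet G o n), ?_, ?_, ?_, ?_, ?_⟩
  · intro n
    exact ballSet_finite G hlf o n
  · intro n
    rw [Subgraph.connected_iff_forall_exists_walk_subgraph]
    refine ⟨⟨o, ballSet_mono G o (Nat.zero_le n) rfl⟩, ?_⟩
    intro u v hu hv
    obtain ⟨p, hp⟩ := exists_walk_in_ballSet G o n u hu
    obtain ⟨q, hq⟩ := exists_walk_in_ballSet G o n v hv
    refine ⟨p.reverse.append q, ?_⟩
    refine le_trans (Walk.toSubgraph_le_induce_support _) ?_
    apply Subgraph.induce_mono_right
    intro w hw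
    have hw' : w ∈ (p.reverse.append q).support := hw
    rw [Walk.mem_support_append_iff, Walk.support_reverse, List.mem_reverse] at hw'
    rcases hw' with hw' | hw'
    · exact hp w hw'
    · exact hq w hw'
  · intro n m hnm
    exact Subgraph.induce_mono_right (ballSet_mono G o hnm)
  · intro v
    exact hcover v
  · intro e
    induction e with
    | h a b =>
      intro hab
      obtain ⟨n, hn⟩ := hcover a
      obtain ⟨m, hm⟩ := hcover b
      refine ⟨max n m, ?_⟩
      rw [Subgraph.mem_edgeSet]
      exact ⟨ballSet_mono G o (le_max_left n m) hn, ballSet_mono G o (le_max_right n m) hm, hab⟩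

end Vale.Agent.Lib.P143
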