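import Mathlib
import Vale.Agent.Lib.P143.Defs
import Vale.Agent.Lib.P143.Defs3
import Vale.Agent.Lib.P143.Graph
import Vale.Agent.Lib.P143.Split
import Vale.Agent.Lib.P143.Factor
import Vale.Agent.Lib.P143.Main
import Vale.Agent.Lib.P143.Iso
import Vale.Agent.Lib.P143.Loc
import Vale.Agent.Lib.P143.Exhaust
import Vale.Agent.Lib.P143.BorelG
import Vale.Agent.Lib.P143.BorelPhi

/-!
# The free uniform spanning forest as a Borel, isomorphism-invariant, finitary factor of IID
-/

namespace Vale.Agent.Lib.P143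

open SimpleGraph MeasureTheory Set

variable {V V' : Type}

theorem neighborSet_image2 (G : SimpleGraph V) (G' : SimpleGraph V') (e : V ≃ V')
    (he : ∀ a b, G'.Adj (e a) (e b) ↔ G.Adj a b) (a : V) :
    G'.neighborSet (e a) = e '' G.neighborSet a := by
  ext w
  simp only [mem_neighborSet, Set.mem_image]
  constructor
  · intro h
    refine ⟨e.symm w, ?_, by simp⟩
    rw [← he]
    simpa using h
  · rintro ⟨w', hw', rfl⟩
    exact (he a w').mpr hw'

theorem guard_image2 (G : SimpleGraph V) (G' : SimpleGraph V') (e : V ≃ V')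
    (he : ∀ a b, G'.Adj (e a) (e b) ↔ G.Adj a b) (f : Sym2 V) :
    Guard G' (Sym2.map e f) ↔ Guard G f := by
  unfold Guard
  rw [blockOf_map2 G G' e he, vb_image2]
  apply and_congr
  · exact Set.finite_image_iff (Sym2.map.injective e.injective).injOn
  · constructor
    · intro h a ha
      have h1 := h (e a) ⟨a, ha, rfl⟩
      rw [neighborSet_image2 G G' e he] at h1
      exact (Set.finite_image_iff e.injective.injOn).mp h1
    · rintro h _ ⟨a, ha, rfl⟩
      rw [neighborSet_image2 G G' e he]
      exact (h a ha).image _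

/-- The guarded factor map commutes with every graph isomorphism. -/
theorem phiG_iso (G : SimpleGraph V) (G' : SimpleGraph V') (γ : G ≃g G')
    (u : V → unitInterval) :
    PhiG G' (fun v => u (γ.symm v)) = Sym2.map γ '' PhiG G u := by
  have he : ∀ a b, G'.Adj (γ.toEquiv a) (γ.toEquiv b) ↔ G.Adj a b := fun _ _ => γ.map_adj_iff
  ext f
  have hf : f = Sym2.map γ.toEquiv (Sym2.map γ.toEquiv.symm f) :=
    (sym2_map_map_symm2 γ.toEquiv f).symm
  constructor
  · rintro ⟨h1, h2⟩
    rw [phi_iso G G' γ u] at h1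
    obtain ⟨f₀, hf₀, rfl⟩ := h1
    exact ⟨f₀, ⟨hf₀, (guard_image2 G G' γ.toEquiv he f₀).mp h2⟩, rfl⟩
  · rintro ⟨f₀, ⟨hf₀, hg⟩, rfl⟩
    refine ⟨?_, (guard_image2 G G' γ.toEquiv he f₀).mpr hg⟩
    rw [phi_iso G G' γ u]
    exact ⟨f₀, hf₀, rfl⟩

/-- Locality of the guarded factor map. -/
theorem phiG_local (G : SimpleGraph V) (e : Sym2 V) (u u' : V → unitInterval)
    (h : ∀ v, (∃ f ∈ blockOf G e, ∃ w ∈ f, v = w ∨ G.Adj w v) → u v = u' v) :
    e ∈ PhiG G u ↔ e ∈ PhiG G u' :=
  and_congr (phi_local G e u u' h) Iff.rfl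

/-- One rule, defined for all graphs at once, commuting with all graph isomorphisms, jointly
measurable in the graph and the labels, finitary, whose law on every locally finite graph with
finite blocks is the free uniform spanning forest. -/
theorem fusf_borel_graph_factor :
    (∀ (V : Type) (G : SimpleGraph V), G.Connected → (∀ v, (G.neighborSet v).Finite) →
      ∃ H : ℕ → G.Subgraph, IsExhaustion G H) ∧
    ∃ Φ : ∀ (V : Type) (G : SimpleGraph V), (V → unitInterval) → Set (Sym2 V),
      (∀ (V V' : Type) (G : SimpleGraph V) (G' : SimpleGraph V') (φ : G ≃g G')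
        (u : V → unitInterval), Φ V' G' (fun v => u (φ.symm v)) = Sym2.map φ '' Φ V G u) ∧
      (∀ (V : Type) (G : SimpleGraph V) (u : V → unitInterval), Φ V G u ⊆ G.edgeSet) ∧
      (∀ (V : Type) [Countable V] (e : Sym2 V),
        MeasurableSet[(graphMS V).prod MeasurableSpace.pi]
          {p : SimpleGraph V × (V → unitInterval) | e ∈ Φ V p.1 p.2}) ∧
      (∀ (V : Type) (G : SimpleGraph V) (e : Sym2 V) (u u' : V → unitInterval),
        (∀ v, (∃ f ∈ blockOf G e, ∃ w ∈ f, v = w ∨ G.Adj w v) → u v = u' v) →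
          (e ∈ Φ V G u ↔ e ∈ Φ V G u')) ∧
      ∀ (V : Type) (G : SimpleGraph V), (∀ v, (G.neighborSet v).Finite) →
        (∀ e ∈ G.edgeSet, (blockOf G e).Finite) →
          (∀ e, MeasurableSet {u | e ∈ Φ V G u}) ∧
          ∀ H : ℕ → G.Subgraph, IsExhaustion G H → ∀ K : Set (Sym2 V), K.Finite →
            ∀ S : Set (Sym2 V),
              Filter.Tendsto (fun n => ustProb G (H n) K S) Filter.atTop
                (nhds ((Measure.infinitePi (fun _ : V => (volume : Measure unitInterval)))
                  {u | Φ V G u ∩ K = S}).toReal) := by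
  refine ⟨fun _ G hc hlf => exists_exhaustion G hc hlf, fun _ G => PhiG G,
    fun _ _ G G' φ u => phiG_iso G G' φ u, fun _ G u => phiG_subset G u,
    fun _ _ e => measurableSet_mem_phiG e, fun _ G e u u' h => phiG_local G e u u' h, ?_⟩
  intro V G hlf hblocks
  have hP : ∀ u, PhiG G u = Phi G u := phiG_eq_phi G hlf hblocks
  simp only [hP]
  exact ⟨measurableSet_mem_phi G hlf hblocks,
    fun H hH K hK S => tendsto_ustProb G hlf hblocks H hH K hK S⟩

end Vale.Agent.Lib.P143
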