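import Mathlib

/-!
# Definitions for the statement: Cayley graphs
-/

namespace Vale.Agent.Lib.P143

/-- The Cayley graph of the group `Γ` with respect to the set `S`: two different elements
`g`, `h` are adjacent when `g⁻¹ * h ∈ S` or `h⁻¹ * g ∈ S`, that is when `h = g * s` or
`g = h * s` for some `s ∈ S`.  Left multiplication by any element of `Γ` preserves it. -/
def cayleyGraph {Γ : Type} [Group Γ] (S : Set Γ) : SimpleGraph Γ :=
  SimpleGraph.fromRel (fun g h => g⁻¹ * h ∈ S)

end Vale.Agent.Lib.P143
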