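import Mathlib
import Vale.Agent.Lib.P143.Defs
import Vale.Agent.Lib.P143.BorelG

namespace Vale.Agent.Lib.P143

open SimpleGraph

theorem piece_walk {V : Type} (G : SimpleGraph V) (A : Set V) (β : V → V)
    (h1 : ∀ a ∈ A, β a = a)
    (h2 : ∀ x y, G.Adj x y → ¬ (x ∈ A ∧ y ∈ A) → β x = β y) :
    ∀ {x y : V} (p : G.Walk x y), x ∉ A → y ∈ A → β x ∈ p.support := by
  intro x y p
  induction p with
  | nil => intro hx hy; exact absurd hy hx
  | cons h q ih =>
    intro hx hy
    rename_i u v w
    have e : β u = β v := h2 u v h (fun hh => hx hh.1)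
    rw [Walk.support_cons, e]
    by_cases hv : v ∈ A
    · rw [h1 v hv]
      exact List.mem_cons_of_mem _ q.start_mem_support
    · exact List.mem_cons_of_mem _ (ih hv hy)

theorem piece_path {V : Type} (G : SimpleGraph V) (A : Set V) (β : V → V)
    (h1 : ∀ a ∈ A, β a = a)
    (h2 : ∀ x y, G.Adj x y → ¬ (x ∈ A ∧ y ∈ A) → β x = β y) :
    ∀ {x y : V} (p : G.Walk x y), p.IsPath → x ∈ A → y ∈ A → ∀ w ∈ p.support, w ∈ A := by
  intro x y p
  induction p with
  | nil =>
    intro _ hx _ w hw
    rw [Walk.support_nil, List.mem_singleton] at hw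
    rw [hw]; exact hx
  | cons h q ih =>
    intro hp hx hy w hw
    rename_i u v z
    rw [Walk.cons_isPath_iff] at hp
    obtain ⟨hq, hu⟩ := hp
    rw [Walk.support_cons, List.mem_cons] at hw
    rcases hw with rfl | hw
    · exact hx
    · by_cases hv : v ∈ A
      · exact ih hq hv hy w hw
      · exfalso
        have hmem := piece_walk G A β h1 h2 q hv hy
        have e : β u = β v := h2 u v h (fun hh => hv hh.2)
        rw [← e, h1 u hx] at hmem
        exact hu hmem

theorem piece_first_edge {V : Type} (G : SimpleGraph V) {a b : V} :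
    ∀ {x : V} (r : G.Walk a x), r.IsPath → s(a, b) ∈ r.edges →
      ∃ q' : G.Walk b x, q'.IsPath ∧ a ∉ q'.support ∧ r.support = a :: q'.support := by
  intro x r
  cases r with
  | nil => intro _ he; simp at he
  | cons h q =>
    intro hp he
    rename_i v
    rw [Walk.cons_isPath_iff] at hp
    obtain ⟨hq, ha⟩ := hp
    rw [Walk.edges_cons, List.mem_cons] at he
    rcases he with he | he
    · rw [Sym2.eq_iff] at he
      rcases he with ⟨-, hbv⟩ | ⟨hav, -⟩
      · subst hbv
        exact ⟨q, hq, ha, Walk.support_cons h q⟩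
      · exact absurd hav h.ne
    · exact absurd (q.fst_mem_support_of_mem_edges he) ha

theorem piece_cycle_base {V : Type} (G : SimpleGraph V) (A : Set V) (β : V → V)
    (h1 : ∀ a ∈ A, β a = a)
    (h2 : ∀ x y, G.Adj x y → ¬ (x ∈ A ∧ y ∈ A) → β x = β y)
    {a b : V} (c : G.Walk a a) (hc : c.IsCycle) (ha : a ∈ A) (hb : b ∈ A)
    (he : s(a, b) ∈ c.edges) : ∀ w ∈ c.support, w ∈ A := by
  cases c with
  | nil => simp at he
  | cons h q =>
    rename_i x
    rw [Walk.cons_isCycle_iff] at hc
    obtain ⟨hq, hnot⟩ := hc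
    rw [Walk.edges_cons, List.mem_cons] at he
    intro w hw
    rw [Walk.support_cons, List.mem_cons] at hw
    rcases hw with rfl | hw
    · exact ha
    · rcases he with he | he
      · rw [Sym2.eq_iff] at he
        rcases he with ⟨-, hbx⟩ | ⟨hax, -⟩
        · subst hbx
          exact piece_path G A β h1 h2 q hq hb ha w hw
        · exact absurd hax h.ne
      · have he' : s(a, b) ∈ q.reverse.edges := by
          rw [Walk.edges_reverse]; exact List.mem_reverse.mpr he
        obtain ⟨q', hq', haq', hsupp⟩ := piece_first_edge G q.reverse hq.reverse he'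
        have hpath : (Walk.cons h q'.reverse).IsPath := by
          rw [Walk.cons_isPath_iff]
          refine ⟨hq'.reverse, ?_⟩
          rw [Walk.support_reverse]
          exact fun hh => haq' (List.mem_reverse.mp hh)
        have hall := piece_path G A β h1 h2 (Walk.cons h q'.reverse) hpath ha hb
        have hw' : w ∈ q.reverse.support := by
          rw [Walk.support_reverse]; exact List.mem_reverse.mpr hw
        rw [hsupp, List.mem_cons] at hw'
        rcases hw' with rfl | hw'
        · exact ha
        · apply hall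
          rw [Walk.support_cons, Walk.support_reverse]
          exact List.mem_cons_of_mem _ (List.mem_reverse.mpr hw')

theorem piece_cycle {V : Type} (G : SimpleGraph V) (A : Set V) (β : V → V)
    (h1 : ∀ a ∈ A, β a = a)
    (h2 : ∀ x y, G.Adj x y → ¬ (x ∈ A ∧ y ∈ A) → β x = β y)
    {v a b : V} (c : G.Walk v v) (hc : c.IsCycle) (ha : a ∈ A) (hb : b ∈ A)
    (he : s(a, b) ∈ c.edges) : ∀ w ∈ c.support, w ∈ A := by
  classical
  have has : a ∈ c.support := c.fst_mem_support_of_mem_edges he
  have hc' : (c.rotate a has).IsCycle := hc.rotate has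
  have he' : s(a, b) ∈ (c.rotate a has).edges := (c.rotate_edges a has).mem_iff.mpr he
  intro w hw
  exact piece_cycle_base G A β h1 h2 (c.rotate a has) hc' ha hb he' w
    ((c.mem_support_rotate_iff a has).mpr hw)

theorem blockOf_subset_of_retraction {V : Type} (G : SimpleGraph V) (A : Set V) (β : V → V)
    (h1 : ∀ a ∈ A, β a = a)
    (h2 : ∀ x y, G.Adj x y → ¬ (x ∈ A ∧ y ∈ A) → β x = β y)
    (e : Sym2 V) (heA : ∀ z ∈ e, z ∈ A) :
    blockOf G e ⊆ {f | ∀ z ∈ f, z ∈ A} := by
  have hT : ClosedL G {f : Sym2 V | ∀ z ∈ f, z ∈ A} := by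
    intro f hf g hg hlink
    obtain ⟨v, c, hc, hfc, hgc⟩ := hlink
    apply hg
    induction f using Sym2.ind with
    | _ a b =>
      induction g using Sym2.ind with
      | _ x y =>
        have ha : a ∈ A := hf a (Sym2.mem_mk_left a b)
        have hb : b ∈ A := hf b (Sym2.mem_mk_right a b)
        have hall := piece_cycle G A β h1 h2 c hc ha hb hfc
        intro z hz
        rw [Set.mem_ofPred_eq] at *
        rcases Sym2.mem_iff.mp hz with rfl | rfl
        · exact hall _ (c.fst_mem_support_of_mem_edges hgc)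
        · exact hall _ (c.snd_mem_support_of_mem_edges hgc)
  intro f hf
  exact (eqvGen_mem_closed hT hf).mp heA

end Vale.Agent.Lib.P143
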