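import Mathlib

namespace Vale.Agent.Lib.P143

open Monoid.CoprodI

section

open Classical

variable {ι : Type} (G : ι → Type) [∀ i, Group (G i)]

/-- The last letter of a list of letters if it lies in `G i`, and `1` otherwise. -/
noncomputable def syl_last (i : ι) (l : List (Σ j, G j)) : G i :=
  match l.getLast? with
  | some ⟨j, x⟩ => if h : j = i then h ▸ x else 1
  | none => 1

theorem syl_last_nil (i : ι) : syl_last G i [] = 1 := rfl

theorem syl_last_single_same (i : ι) (x : G i) : syl_last G i [⟨i, x⟩] = x := by
  simp [syl_last]

theorem syl_last_single_ne (i j : ι) (hij : j ≠ i) (x : G j) : syl_last G i [⟨j, x⟩] = 1 := by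
  simp [syl_last, hij]

theorem syl_last_cons (i : ι) (a : Σ j, G j) (l : List (Σ j, G j)) (hl : l ≠ []) :
    syl_last G i (a :: l) = syl_last G i l := by
  unfold syl_last
  rw [List.getLast?_cons_of_ne_nil hl]

theorem syl_toList (j : ι) (v : Word G) :
    v.toList = if (Word.equivPair j v).head = 1 then (Word.equivPair j v).tail.toList
      else ⟨j, (Word.equivPair j v).head⟩ :: (Word.equivPair j v).tail.toList := by
  have h : Word.rcons (Word.equivPair j v) = v := by
    rw [← Word.equivPair_symm, Equiv.symm_apply_apply]
  conv_lhs => rw [← h]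
  unfold Word.rcons
  split_ifs <;> rfl

theorem syl_smul_toList (j : ι) (z : G j) (v : Word G) :
    (of z • v).toList = if z * (Word.equivPair j v).head = 1 then
        (Word.equivPair j v).tail.toList
      else ⟨j, z * (Word.equivPair j v).head⟩ :: (Word.equivPair j v).tail.toList := by
  rw [Word.of_smul_def]
  unfold Word.rcons
  split_ifs <;> rfl

theorem syl_prod (j : ι) (v : Word G) (ht : (Word.equivPair j v).tail.toList = []) :
    v.prod = of (Word.equivPair j v).head := by
  have h : Word.rcons (Word.equivPair j v) = v := by
    rw [← Word.equivPair_symm, Equiv.symm_apply_apply]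
  conv_lhs => rw [← h]
  rw [Word.prod_rcons]
  have h1 : (Word.equivPair j v).tail.prod = 1 := by
    unfold Word.prod
    rw [ht]
    rfl
  rw [h1, mul_one]

end

theorem exists_lastSyllable {ι : Type} (G : ι → Type) [∀ i, Group (G i)] (i : ι) :
    ∃ L : Monoid.CoprodI G → G i,
      (∀ y : G i, L (Monoid.CoprodI.of y) = y) ∧
      (∀ (j : ι) (z : G j) (w : Monoid.CoprodI G),
        ¬ (w ∈ Set.range (Monoid.CoprodI.of : G i → Monoid.CoprodI G) ∧
           Monoid.CoprodI.of z * w ∈ Set.range (Monoid.CoprodI.of : G i → Monoid.CoprodI G)) →
        L (Monoid.CoprodI.of z * w) = L w) := by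
  classical
  have hequiv : ∀ (j : ι) (z : G j) (w : Monoid.CoprodI G),
      Word.equiv (of z * w) = of z • Word.equiv w := by
    intro j z w
    change (of z * w) • (Word.empty : Word G) = of z • (w • (Word.empty : Word G))
    rw [mul_smul]
  refine ⟨fun g => syl_last G i (Word.equiv g).toList, ?_, ?_⟩
  · intro y
    have h1 : Word.equiv (of y : Monoid.CoprodI G) = of y • (Word.empty : Word G) := by
      have := hequiv i y 1
      rw [mul_one] at this
      have h0 : Word.equiv (1 : Monoid.CoprodI G) = (Word.empty : Word G) := by
        change (1 : Monoid.CoprodI G) • (Word.empty : Word G) = Word.empty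
        rw [one_smul]
      rw [this, h0]
    change syl_last G i (Word.equiv (of y)).toList = y
    rw [h1, syl_smul_toList]
    have h2 : Word.equivPair i (Word.empty : Word G) = ⟨1, Word.empty, by simp [Word.fstIdx]⟩ :=
      Word.equivPair_eq_of_fstIdx_ne _
    rw [h2]
    simp only [mul_one, Word.empty_toList]
    by_cases hy : y = 1
    · rw [if_pos hy, syl_last_nil, hy]
    · rw [if_neg hy, syl_last_single_same]
  · intro j z w hnot
    change syl_last G i (Word.equiv (of z * w)).toList = syl_last G i (Word.equiv w).toList
    rw [hequiv, syl_smul_toList, syl_toList G j (Word.equiv w)]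
    set p := Word.equivPair j (Word.equiv w) with hp
    by_cases ht : p.tail.toList = []
    · -- short word
      have hw : w = of p.head := by
        have := syl_prod G j (Word.equiv w) ht
        rw [← hp] at this
        rw [← this]
        exact (Word.equiv.symm_apply_apply w).symm
      by_cases hji : j = i
      · subst hji
        exfalso
        apply hnot
        refine ⟨⟨p.head, hw.symm⟩, ⟨z * p.head, ?_⟩⟩
        rw [map_mul, ← hw]
      · rw [ht]
        split_ifs
        · rfl
        · rw [syl_last_nil, syl_last_single_ne G i j hji]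
        · rw [syl_last_nil, syl_last_single_ne G i j hji]
        · rw [syl_last_single_ne G i j hji, syl_last_single_ne G i j hji]
    · split_ifs
      · rfl
      · rw [syl_last_cons G i _ _ ht]
      · rw [syl_last_cons G i _ _ ht]
      · rw [syl_last_cons G i _ _ ht, syl_last_cons G i _ _ ht]

end Vale.Agent.Lib.P143
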