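import Mathlib
import Vale.Agent.Lib.P143.Defs
import Vale.Agent.Lib.P143.Defs4
import Vale.Agent.Lib.P143.Main
import Vale.Agent.Lib.P143.Exhaust
import Vale.Agent.Lib.P143.Piece
import Vale.Agent.Lib.P143.Syllable

/-!
# Cayley graphs of free products of finite groups have finite blocks
-/

namespace Vale.Agent.Lib.P143

open SimpleGraph MeasureTheory

section Cayley

variable {Γ : Type} [Group Γ]

theorem cayleyGraph_adj (S : Set Γ) (g h : Γ) :
    (cayleyGraph S).Adj g h ↔ g ≠ h ∧ (g⁻¹ * h ∈ S ∨ h⁻¹ * g ∈ S) := by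
  unfold cayleyGraph
  rw [SimpleGraph.fromRel_adj]

/-- Left multiplication is an automorphism of the Cayley graph. -/
def cayleyMulLeft (S : Set Γ) (γ : Γ) : cayleyGraph S ≃g cayleyGraph S where
  toEquiv := Equiv.mulLeft γ
  map_rel_iff' := by
    intro a b
    simp only [cayleyGraph_adj, Equiv.coe_mulLeft, mul_inv_rev, ne_eq, mul_right_inj]
    have h1 : a⁻¹ * γ⁻¹ * (γ * b) = a⁻¹ * b := by group
    have h2 : b⁻¹ * γ⁻¹ * (γ * a) = b⁻¹ * a := by group
    rw [h1, h2]

theorem cayleyMulLeft_apply (S : Set Γ) (γ v : Γ) : cayleyMulLeft S γ v = γ * v := rfl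

theorem cayleyMulLeft_symm_apply (S : Set Γ) (γ v : Γ) :
    (cayleyMulLeft S γ).symm v = γ⁻¹ * v := rfl

theorem cayley_locallyFinite (S : Set Γ) (hfin : S.Finite) (v : Γ) :
    ((cayleyGraph S).neighborSet v).Finite := by
  refine Set.Finite.subset ((hfin.image (fun s => v * s)).union (hfin.image (fun s => v * s⁻¹))) ?_
  intro h hh
  rw [SimpleGraph.mem_neighborSet, cayleyGraph_adj] at hh
  rcases hh.2 with h1 | h1
  · left
    exact ⟨v⁻¹ * h, h1, by group⟩
  · right
    exact ⟨h⁻¹ * v, h1, by group⟩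

theorem cayley_reachable_mul (S : Set Γ) (γ : Γ) {a b : Γ}
    (h : (cayleyGraph S).Reachable a b) : (cayleyGraph S).Reachable (γ * a) (γ * b) :=
  h.map (cayleyMulLeft S γ).toHom

theorem cayley_connected (S : Set Γ) (hgen : Subgroup.closure S = ⊤) :
    (cayleyGraph S).Connected := by
  have key : ∀ g : Γ, (cayleyGraph S).Reachable 1 g := by
    intro g
    have hg : g ∈ Subgroup.closure S := by
      rw [hgen]
      exact Subgroup.mem_top g
    induction hg using Subgroup.closure_induction with
    | mem x hx =>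
      by_cases h1 : (1 : Γ) = x
      · rw [← h1]
      · refine Adj.reachable ?_
        rw [cayleyGraph_adj]
        refine ⟨h1, Or.inl ?_⟩
        simpa using hx
    | one => exact Reachable.refl 1
    | mul x y _ _ hx hy =>
      have h2 := cayley_reachable_mul S x hy
      rw [mul_one] at h2
      exact hx.trans h2
    | inv x _ hx =>
      have h2 := cayley_reachable_mul S x⁻¹ hx
      rw [mul_one, inv_mul_cancel] at h2
      exact h2.symm
  have hne : Nonempty Γ := ⟨1⟩
  refine ⟨fun g h => ?_⟩
  exact (key g).symm.trans (key h)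

end Cayley

/-- The nontrivial elements of the factors `G i`, seen in the free product of the `G i`. -/
def freeGens {ι : Type} (G : ι → Type) [∀ i, Monoid (G i)] : Set (Monoid.CoprodI G) :=
  {g | ∃ (i : ι) (x : G i), x ≠ 1 ∧ g = Monoid.CoprodI.of x}

section FreeProduct

variable {ι : Type} (G : ι → Type) [∀ i, Group (G i)]

theorem freeGens_finite [Finite ι] [∀ i, Finite (G i)] : (freeGens G).Finite := by
  have h : freeGens G ⊆ ⋃ i : ι, Set.range (Monoid.CoprodI.of : G i → Monoid.CoprodI G) := by
    rintro g ⟨i, x, _, rfl⟩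
    exact Set.mem_iUnion.mpr ⟨i, x, rfl⟩
  exact Set.Finite.subset (Set.finite_iUnion (fun i => Set.finite_range _)) h

theorem closure_freeGens : Subgroup.closure (freeGens G) = ⊤ := by
  have key : ∀ g : Monoid.CoprodI G, g ∈ Subgroup.closure (freeGens G) := by
    intro g
    induction g using Monoid.CoprodI.induction_on with
    | one => exact Subgroup.one_mem _
    | of i m =>
      by_cases hm : m = 1
      · rw [hm, map_one]
        exact Subgroup.one_mem _
      · exact Subgroup.subset_closure ⟨i, m, hm, rfl⟩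
    | mul x y hx hy => exact Subgroup.mul_mem _ hx hy
  rw [eq_top_iff]
  intro g _
  exact key g

/-- A coset of a factor in a free product is a piece of the Cayley graph: there is a map
fixing the coset pointwise and constant along every edge not inside the coset. -/
theorem exists_coset_retraction (S : Set (Monoid.CoprodI G))
    (hS : ∀ s ∈ S, ∃ (j : ι) (z : G j), s = Monoid.CoprodI.of z)
    (g : Monoid.CoprodI G) (i : ι) :
    ∃ β : Monoid.CoprodI G → Monoid.CoprodI G,
      (∀ a ∈ Set.range (fun y : G i => g * Monoid.CoprodI.of y), β a = a) ∧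
      (∀ x y, (cayleyGraph S).Adj x y →
        ¬ (x ∈ Set.range (fun y : G i => g * Monoid.CoprodI.of y) ∧
           y ∈ Set.range (fun y : G i => g * Monoid.CoprodI.of y)) → β x = β y) := by
  obtain ⟨L, hL1, hL2⟩ := exists_lastSyllable G i
  set A : Set (Monoid.CoprodI G) :=
    Set.range (fun y : G i => g * Monoid.CoprodI.of y) with hA
  -- membership in `A` in terms of `v⁻¹ * g`
  have hmem : ∀ v : Monoid.CoprodI G,
      v⁻¹ * g ∈ Set.range (Monoid.CoprodI.of : G i → Monoid.CoprodI G) → v ∈ A := by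
    rintro v ⟨a, ha⟩
    refine ⟨a⁻¹, ?_⟩
    change g * Monoid.CoprodI.of a⁻¹ = v
    rw [map_inv, ha]
    group
  have hstep : ∀ (x' y' : Monoid.CoprodI G), y'⁻¹ * x' ∈ S → ¬ (x' ∈ A ∧ y' ∈ A) →
      L (y'⁻¹ * g) = L (x'⁻¹ * g) := by
    intro x' y' hs hnot
    obtain ⟨j, z, hz⟩ := hS _ hs
    have e1 : y'⁻¹ * g = Monoid.CoprodI.of z * (x'⁻¹ * g) := by
      rw [← hz]
      group
    rw [e1]
    refine hL2 j z (x'⁻¹ * g) ?_
    rintro ⟨hx, hy⟩
    rw [← e1] at hy
    exact hnot ⟨hmem x' hx, hmem y' hy⟩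
  refine ⟨fun v => g * (Monoid.CoprodI.of (L (v⁻¹ * g)))⁻¹, ?_, ?_⟩
  · rintro a ⟨y, rfl⟩
    have e1 : (g * Monoid.CoprodI.of y)⁻¹ * g = Monoid.CoprodI.of y⁻¹ := by
      rw [map_inv]
      group
    change g * (Monoid.CoprodI.of (L ((g * Monoid.CoprodI.of y)⁻¹ * g)))⁻¹ =
      g * Monoid.CoprodI.of y
    rw [e1, hL1, map_inv, inv_inv]
  · intro x' y' hadj hnot
    rw [cayleyGraph_adj] at hadj
    rcases hadj.2 with h | h
    · have := hstep y' x' h (fun hh => hnot ⟨hh.2, hh.1⟩)
      simp only [this]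
    · have := hstep x' y' h hnot
      simp only [this]

theorem cayley_freeProduct_blocks_finite [∀ i, Finite (G i)]
    (S : Set (Monoid.CoprodI G))
    (hS : ∀ s ∈ S, ∃ (j : ι) (z : G j), s = Monoid.CoprodI.of z)
    (e : Sym2 (Monoid.CoprodI G)) (he : e ∈ (cayleyGraph S).edgeSet) :
    (blockOf (cayleyGraph S) e).Finite := by
  -- it suffices to treat an edge from `g` to `g * of x`
  have main : ∀ (g : Monoid.CoprodI G) (i : ι) (x : G i),
      (blockOf (cayleyGraph S) s(g, g * Monoid.CoprodI.of x)).Finite := by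
    intro g i x
    obtain ⟨β, hβ1, hβ2⟩ := exists_coset_retraction G S hS g i
    have hAfin : (Set.range (fun y : G i => g * Monoid.CoprodI.of y)).Finite :=
      Set.finite_range _
    have hsub := blockOf_subset_of_retraction (cayleyGraph S) _ β hβ1 hβ2
      s(g, g * Monoid.CoprodI.of x) ?_
    · refine Set.Finite.subset ((hAfin.prod hAfin).image (fun p => s(p.1, p.2))) ?_
      refine Set.Subset.trans hsub ?_
      intro f hf
      induction f with
      | h a b =>
        exact ⟨(a, b), ⟨hf a (Sym2.mem_mk_left a b), hf b (Sym2.mem_mk_right a b)⟩, rfl⟩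
    · intro z hz
      rw [Sym2.mem_iff] at hz
      rcases hz with rfl | rfl
      · exact ⟨1, by simp⟩
      · exact ⟨x, rfl⟩
  induction e with
  | h a b =>
    rw [SimpleGraph.mem_edgeSet, cayleyGraph_adj] at he
    rcases he.2 with h | h
    · obtain ⟨i, x, hx⟩ := hS _ h
      have hb : b = a * Monoid.CoprodI.of x := by
        rw [← hx]
        group
      rw [hb]
      exact main a i x
    · obtain ⟨i, x, hx⟩ := hS _ h
      have ha : a = b * Monoid.CoprodI.of x := by
        rw [← hx]
        group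
      rw [ha, Sym2.eq_swap]
      exact main b i x

/-- The free uniform spanning forest of the Cayley graph of a free product of finite groups,
with respect to a finite set of generators taken from the factors, is a factor of IID that
commutes with left multiplication. -/
theorem fusf_cayley_freeProduct [∀ i, Finite (G i)]
    (S : Set (Monoid.CoprodI G)) (hS : S ⊆ freeGens G) (hfin : S.Finite) :
    (∀ v, ((cayleyGraph S).neighborSet v).Finite) ∧
    (Subgroup.closure S = ⊤ → (cayleyGraph S).Connected ∧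
      ∃ H : ℕ → (cayleyGraph S).Subgraph, IsExhaustion (cayleyGraph S) H) ∧
    ∃ Φ : (Monoid.CoprodI G → unitInterval) → Set (Sym2 (Monoid.CoprodI G)),
      (∀ u, Φ u ⊆ (cayleyGraph S).edgeSet) ∧
      (∀ e, MeasurableSet {u | e ∈ Φ u}) ∧
      (∀ (γ : Monoid.CoprodI G) (u : Monoid.CoprodI G → unitInterval),
        Φ (fun v => u (γ⁻¹ * v)) = Sym2.map (fun v => γ * v) '' Φ u) ∧
      ∀ H : ℕ → (cayleyGraph S).Subgraph, IsExhaustion (cayleyGraph S) H →
        ∀ K : Set (Sym2 (Monoid.CoprodI G)), K.Finite → ∀ T : Set (Sym2 (Monoid.CoprodI G)),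
          Filter.Tendsto (fun n => ustProb (cayleyGraph S) (H n) K T) Filter.atTop
            (nhds ((Measure.infinitePi
              (fun _ : Monoid.CoprodI G => (volume : Measure unitInterval)))
              {u | Φ u ∩ K = T}).toReal) := by
  have hlf := cayley_locallyFinite S hfin
  refine ⟨hlf, fun hgen => ?_, ?_⟩
  · have hc := cayley_connected S hgen
    exact ⟨hc, exists_exhaustion (cayleyGraph S) hc hlf⟩
  · have hS' : ∀ s ∈ S, ∃ (j : ι) (z : G j), s = Monoid.CoprodI.of z := by
      intro s hs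
      obtain ⟨j, z, _, hz⟩ := hS hs
      exact ⟨j, z, hz⟩
    obtain ⟨Φ, h1, h2, h3, h4⟩ := fusf_factor (cayleyGraph S) hlf
      (cayley_freeProduct_blocks_finite G S hS')
    exact ⟨Φ, h1, h2, fun γ u => h3 (cayleyMulLeft S γ) u, h4⟩

end FreeProduct

end Vale.Agent.Lib.P143
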