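import Mathlib
import Vale.Agent.Lib.P143.Defs

/-!
# Definitions for the block reduction: exhaustions of a block, factors for a block
-/

namespace Vale.Agent.Lib.P143

open SimpleGraph MeasureTheory

variable {V : Type}

/-- An exhaustion of the edge set `B` (a block of `G`, viewed as a graph on its own) by finite
connected subgraphs all of whose edges lie in `B`. -/
structure IsBlockExhaustion (G : SimpleGraph V) (B : Set (Sym2 V)) (H : ℕ → G.Subgraph) :
    Prop where
  finite : ∀ n, (H n).verts.Finite
  connected : ∀ n, (H n).Connected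
  mono : Monotone H
  inside : ∀ n, (H n).edgeSet ⊆ B
  edges : ∀ e ∈ B, ∃ n, e ∈ (H n).edgeSet

/-- `Ψ` realises the free uniform spanning forest of the block `B` as a factor of IID labels:
`Ψ u` is a set of edges of `B`, each event `e ∈ Ψ u` is measurable, `Ψ u` depends only on the
labels at the vertices of `B`, and for i.i.d. uniform labels the law of `Ψ u` is the limit of the
laws of the uniform spanning trees along every exhaustion of `B`. -/
structure IsBlockFactor (G : SimpleGraph V) (B : Set (Sym2 V))
    (Ψ : (V → unitInterval) → Set (Sym2 V)) : Prop where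
  inside : ∀ u, Ψ u ⊆ B
  meas : ∀ e, MeasurableSet {u | e ∈ Ψ u}
  dep : ∀ u u' : V → unitInterval, (∀ v, (∃ f ∈ B, v ∈ f) → u v = u' v) → Ψ u = Ψ u'
  law : ∀ H : ℕ → G.Subgraph, IsBlockExhaustion G B H → ∀ K : Set (Sym2 V), K.Finite → K ⊆ B →
    ∀ S : Set (Sym2 V), Filter.Tendsto (fun n => ustProb G (H n) K S) Filter.atTop
      (nhds ((Measure.infinitePi (fun _ : V => (volume : Measure unitInterval)))
        {u | Ψ u ∩ K = S}).toReal)

end Vale.Agent.Lib.P143
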