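import Mathlib
import Vale.Agent.Lib.P143.Defs
import Vale.Agent.Lib.P143.Defs4

/-!
# Definitions for the statement: generators of a free product, factor of IID on a Cayley graph
-/

namespace Vale.Agent.Lib.P143

open MeasureTheory

/-- The union of the sets `S i ⊆ G i`, seen in the free product of the groups `G i`. -/
def freeProdGens {ι : Type} (G : ι → Type) [∀ i, Monoid (G i)] (S : ∀ i, Set (G i)) :
    Set (Monoid.CoprodI G) :=
  {g | ∃ i, ∃ x ∈ S i, g = Monoid.CoprodI.of x}

/-- The free uniform spanning forest of the Cayley graph of `Γ` with respect to `S` is a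
`Γ`-factor of IID: there is a map `Φ` from labellings `u : Γ → [0,1]` to sets of edges of the
Cayley graph, measurable in each coordinate, commuting with left multiplication by every
element of `Γ`, such that for i.i.d. uniform labels the law of `Φ u` is the limit of the laws
of the uniform spanning trees along every exhaustion of the Cayley graph by finite connected
subgraphs. -/
def FusfIsFactor (Γ : Type) [Group Γ] (S : Set Γ) : Prop :=
  ∃ Φ : (Γ → unitInterval) → Set (Sym2 Γ),
    (∀ u, Φ u ⊆ (cayleyGraph S).edgeSet) ∧
    (∀ e, MeasurableSet {u | e ∈ Φ u}) ∧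
    (∀ (γ : Γ) (u : Γ → unitInterval),
      Φ (fun v => u (γ⁻¹ * v)) = Sym2.map (fun v => γ * v) '' Φ u) ∧
    ∀ H : ℕ → (cayleyGraph S).Subgraph, IsExhaustion (cayleyGraph S) H →
      ∀ K : Set (Sym2 Γ), K.Finite → ∀ T : Set (Sym2 Γ),
        Filter.Tendsto (fun n => ustProb (cayleyGraph S) (H n) K T) Filter.atTop
          (nhds ((Measure.infinitePi (fun _ : Γ => (volume : Measure unitInterval)))
            {u | Φ u ∩ K = T}).toReal)

end Vale.Agent.Lib.P143
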