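import Mathlib
import Vale.Agent.Lib.P143.Defs

namespace Vale.Agent.Lib.P143

open SimpleGraph

theorem emb_reach_aux {W V : Type} (f : W ↪ V) (F : SimpleGraph W) :
    ∀ {x y : V} (_p : (F.map f).Walk x y) (u : W), f u = x →
      ∃ v, f v = y ∧ F.Reachable u v := by
  intro x y p
  induction p with
  | nil => intro u hu; exact ⟨u, hu, Reachable.refl u⟩
  | cons h q ih =>
    intro u hu
    rw [SimpleGraph.map_adj] at h
    obtain ⟨a, b, hab, ha, hb⟩ := h
    have hau : a = u := f.injective (ha.trans hu.symm)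
    subst hau
    obtain ⟨v, hv, hreach⟩ := ih b hb
    exact ⟨v, hv, hab.reachable.trans hreach⟩

theorem emb_reach {W V : Type} (f : W ↪ V) (F : SimpleGraph W) (u v : W) :
    (F.map f).Reachable (f u) (f v) ↔ F.Reachable u v := by
  constructor
  · rintro ⟨p⟩
    obtain ⟨v', hv', hr⟩ := emb_reach_aux f F p u rfl
    rw [f.injective hv'] at hr
    exact hr
  · intro h
    exact h.map (SimpleGraph.Embedding.map f F).toHom

theorem emb_delete {W V : Type} (f : W ↪ V) (F : SimpleGraph W) (a b : W) :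
    (F.deleteEdges {s(a, b)}).map f = (F.map f).deleteEdges {s(f a, f b)} := by
  ext x y
  simp only [SimpleGraph.map_adj, deleteEdges_adj, Set.mem_singleton_iff]
  constructor
  · rintro ⟨a', b', ⟨hadj, hne⟩, rfl, rfl⟩
    refine ⟨⟨a', b', hadj, rfl, rfl⟩, fun h => hne ?_⟩
    apply Sym2.map.injective f.injective
    rw [Sym2.map_mk, Sym2.map_mk]
    exact h
  · rintro ⟨⟨a', b', hadj, rfl, rfl⟩, hne⟩
    refine ⟨a', b', ⟨hadj, fun h => hne ?_⟩, rfl, rfl⟩
    have := congrArg (Sym2.map f) h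
    rw [Sym2.map_mk, Sym2.map_mk] at this
    exact this

theorem emb_acyclic {W V : Type} (f : W ↪ V) (F : SimpleGraph W) :
    (F.map f).IsAcyclic ↔ F.IsAcyclic := by
  rw [isAcyclic_iff_forall_adj_isBridge, isAcyclic_iff_forall_adj_isBridge]
  constructor
  · intro h a b hab
    have h1 : (F.map f).Adj (f a) (f b) := (SimpleGraph.map_adj f F _ _).mpr ⟨a, b, hab, rfl, rfl⟩
    have h2 := h h1
    rw [isBridge_iff] at h2 ⊢
    rw [← emb_delete] at h2
    exact fun hr => h2 ((emb_reach f _ a b).mpr hr)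
  · intro h x y hxy
    rw [SimpleGraph.map_adj] at hxy
    obtain ⟨a, b, hab, rfl, rfl⟩ := hxy
    have h2 := h hab
    rw [isBridge_iff] at h2 ⊢
    rw [← emb_delete]
    exact fun hr => h2 ((emb_reach f _ a b).mp hr)

theorem ustProb_map_embedding {W V : Type} (G' : SimpleGraph W) (G : SimpleGraph V)
    (φ : G' ↪g G) (H' : G'.Subgraph) (K' S' : Set (Sym2 W)) :
    ustProb G (H'.map φ.toHom) (Sym2.map φ '' K') (Sym2.map φ '' S') = ustProb G' H' K' S' := by
  obtain ⟨f, hf⟩ : ∃ f : W ↪ V, f = φ.toEmbedding := ⟨_, rfl⟩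
  have hmapadj : ∀ x y, (H'.map φ.toHom).Adj x y ↔ ∃ a b, H'.Adj a b ∧ f a = x ∧ f b = y := by
    intro x y
    rw [hf]
    rfl
  have hverts : (H'.map φ.toHom).verts = f '' H'.verts := by
    rw [hf]
    rfl
  have hST : ∀ F' : SimpleGraph W,
      IsSpanningTree G (H'.map φ.toHom) (F'.map f) ↔ IsSpanningTree G' H' F' := by
    intro F'
    unfold IsSpanningTree
    refine and_congr ?_ (and_congr (emb_acyclic f F') ?_)
    · constructor
      · intro h a b hab
        have h1 : (F'.map f).Adj (f a) (f b) :=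
          (SimpleGraph.map_adj f F' _ _).mpr ⟨a, b, hab, rfl, rfl⟩
        have h2 := h h1
        rw [Subgraph.spanningCoe_adj, hmapadj] at h2
        obtain ⟨a', b', hab', ha', hb'⟩ := h2
        rw [f.injective ha', f.injective hb'] at hab'
        exact hab'
      · intro h x y hxy
        rw [SimpleGraph.map_adj] at hxy
        obtain ⟨a, b, hab, rfl, rfl⟩ := hxy
        rw [Subgraph.spanningCoe_adj, hmapadj]
        exact ⟨a, b, h hab, rfl, rfl⟩
    · rw [hverts]
      constructor
      · intro h u hu v hv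
        exact (emb_reach f F' u v).mp
          (h (f u) (Set.mem_image_of_mem f hu) (f v) (Set.mem_image_of_mem f hv))
      · rintro h _ ⟨u, hu, rfl⟩ _ ⟨v, hv, rfl⟩
        exact (emb_reach f F' u v).mpr (h u hu v hv)
  have hsurj : ∀ F : SimpleGraph V, IsSpanningTree G (H'.map φ.toHom) F →
      ∃ F' : SimpleGraph W, F'.map f = F := by
    intro F hF
    refine ⟨F.comap f, ?_⟩
    ext x y
    rw [SimpleGraph.map_adj]
    constructor
    · rintro ⟨a, b, hab, rfl, rfl⟩
      exact hab
    · intro hxy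
      have h2 := hF.1 hxy
      rw [Subgraph.spanningCoe_adj, hmapadj] at h2
      obtain ⟨a, b, -, rfl, rfl⟩ := h2
      exact ⟨a, b, hxy, rfl, rfl⟩
  have hedge : ∀ F' : SimpleGraph W,
      (F'.map f).edgeSet ∩ Sym2.map φ '' K' = Sym2.map φ '' S' ↔ F'.edgeSet ∩ K' = S' := by
    intro F'
    have hinj : Function.Injective (Sym2.map φ) := Sym2.map.injective φ.injective
    have e : (F'.map f).edgeSet = Sym2.map φ '' F'.edgeSet := by
      rw [SimpleGraph.edgeSet_map, hf]
      rfl
    rw [e, ← Set.image_inter hinj]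
    exact Set.image_eq_image hinj
  have hset1 : {F | IsSpanningTree G (H'.map φ.toHom) F ∧
      F.edgeSet ∩ Sym2.map φ '' K' = Sym2.map φ '' S'} =
      (fun F' : SimpleGraph W => F'.map f) '' {F' | IsSpanningTree G' H' F' ∧
        F'.edgeSet ∩ K' = S'} := by
    ext F
    constructor
    · rintro ⟨hF, hFe⟩
      obtain ⟨F', rfl⟩ := hsurj F hF
      exact ⟨F', ⟨(hST F').mp hF, (hedge F').mp hFe⟩, rfl⟩
    · rintro ⟨F', ⟨hF', hFe'⟩, rfl⟩
      exact ⟨(hST F').mpr hF', (hedge F').mpr hFe'⟩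
  have hset2 : {F | IsSpanningTree G (H'.map φ.toHom) F} =
      (fun F' : SimpleGraph W => F'.map f) '' {F' | IsSpanningTree G' H' F'} := by
    ext F
    constructor
    · intro hF
      obtain ⟨F', rfl⟩ := hsurj F hF
      exact ⟨F', (hST F').mp hF, rfl⟩
    · rintro ⟨F', hF', rfl⟩
      exact (hST F').mpr hF'
  unfold ustProb
  rw [hset1, hset2, Set.ncard_image_of_injective _ (SimpleGraph.map_injective f),
    Set.ncard_image_of_injective _ (SimpleGraph.map_injective f)]

end Vale.Agent.Lib.P143
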