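import Mathlib
import Vale.Agent.Lib.P143.Split

namespace Vale.Agent.Lib.P143

open MeasureTheory

theorem labelMeasure_map_comp {W V : Type} (f : W → V) (hf : Function.Injective f) :
    (labelMeasure V).map (fun (u : V → unitInterval) (w : W) => u (f w)) = labelMeasure W := by
  classical
  have hmeas : Measurable (fun (u : V → unitInterval) (w : W) => u (f w)) :=
    measurable_pi_lambda _ fun w => measurable_pi_apply (f w)
  unfold labelMeasure
  refine Measure.eq_infinitePi _ fun s t ht => ?_
  have hext : ∀ w, Function.extend f t (fun _ => Set.univ) (f w) = t w :=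
    fun w => hf.extend_apply t _ w
  have hmt : ∀ v, MeasurableSet (Function.extend f t (fun _ => Set.univ) v) := by
    intro v
    rw [Function.extend_def]
    split_ifs with h
    · exact ht _
    · exact MeasurableSet.univ
  have hpre : (fun (u : V → unitInterval) (w : W) => u (f w)) ⁻¹' (Set.pi (↑s) t) =
      Set.pi (↑(s.image f)) (Function.extend f t (fun _ => Set.univ)) := by
    ext u
    simp only [Set.mem_preimage, Set.mem_pi, Finset.mem_coe, Finset.mem_image]
    constructor
    · rintro h v ⟨w, hw, rfl⟩
      rw [hext]
      exact h w hw
    · intro h w hw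
      have := h (f w) ⟨w, hw, rfl⟩
      rw [hext] at this
      exact this
  rw [Measure.map_apply hmeas (MeasurableSet.pi s.countable_toSet fun w _ => ht w), hpre,
    Measure.infinitePi_pi _ fun v _ => hmt v, Finset.prod_image fun a _ b _ h => hf h]
  exact Finset.prod_congr rfl fun w _ => by rw [hext]

end Vale.Agent.Lib.P143
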