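import Mathlib
import Vale.Agent.Lib.P143.Defs
import Vale.Agent.Lib.P143.Defs2
import Vale.Agent.Lib.P143.Graph
import Vale.Agent.Lib.P143.Split
import Vale.Agent.Lib.P143.Factor
import Vale.Agent.Lib.P143.Prod
import Vale.Agent.Lib.P143.Reduce

/-!
# The trace of an exhaustion of `G` on a block is an exhaustion of the block
-/

namespace Vale.Agent.Lib.P143

open SimpleGraph MeasureTheory Set

variable {V : Type}

/-- The part of the subgraph `H` inside the edge set `B`. -/
def traceSub (G : SimpleGraph V) (H : G.Subgraph) (B : Set (Sym2 V)) : G.Subgraph where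
  verts := {v | v ∈ H.verts ∧ ∃ f ∈ B, f ∈ H.edgeSet ∧ v ∈ f}
  Adj a b := H.Adj a b ∧ s(a, b) ∈ B
  adj_sub h := H.adj_sub h.1
  edge_vert := by
    intro a b h
    exact ⟨H.edge_vert h.1, s(a, b), h.2, Subgraph.mem_edgeSet.mpr h.1, Sym2.mem_mk_left a b⟩
  symm := ⟨fun a b h => ⟨h.1.symm, Sym2.eq_swap ▸ h.2⟩⟩

theorem mem_edgeSet_traceSub (G : SimpleGraph V) (H : G.Subgraph) (B : Set (Sym2 V))
    (e : Sym2 V) : e ∈ (traceSub G H B).edgeSet ↔ e ∈ H.edgeSet ∧ e ∈ B := by
  induction e with
  | h a b => exact Iff.rfl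

theorem traceSub_spanningCoe (G : SimpleGraph V) (H : G.Subgraph) (B : Set (Sym2 V)) :
    (traceSub G H B).spanningCoe = H.spanningCoe.deleteEdges Bᶜ := by
  ext a b
  simp only [Subgraph.spanningCoe_adj, deleteEdges_adj, Set.mem_compl_iff, not_not]
  exact Iff.rfl

theorem traceSub_mono (G : SimpleGraph V) {H₁ H₂ : G.Subgraph} (h : H₁ ≤ H₂)
    (B : Set (Sym2 V)) : traceSub G H₁ B ≤ traceSub G H₂ B := by
  refine ⟨?_, ?_⟩
  · rintro v ⟨hv, f, hfB, hfH, hvf⟩
    exact ⟨h.1 hv, f, hfB, Subgraph.edgeSet_mono h hfH, hvf⟩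
  · rintro a b ⟨hab, hB⟩
    exact ⟨h.2 hab, hB⟩

/-! ### Blocks are connected -/

theorem block_reachable_aux (G : SimpleGraph V) (e₀ : Sym2 V) (he₀ : e₀ ∈ G.edgeSet)
    {e f : Sym2 V} (h : Relation.EqvGen (CycleLinked G) e f) :
    e ∈ blockOf G e₀ → ∀ a ∈ e, ∀ b ∈ f, (fromEdgeSet (blockOf G e₀)).Reachable a b := by
  classical
  have hB : blockOf G e₀ ⊆ G.edgeSet := blockOf_subset_edgeSet G he₀
  induction h with
  | rel e f hef =>
    intro he a ha b hb
    obtain ⟨v, c, hc, hec, hfc⟩ := hef
    have hall : ∀ e' ∈ c.edges, e' ∈ blockOf G e₀ := by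
      rcases block_cycle_closed G (le_refl G) e₀ v c hc with h | h
      · exact h
      · exact absurd he (h e hec)
    have hall' : ∀ e' ∈ c.edges, e' ∈ (fromEdgeSet (blockOf G e₀)).edgeSet := by
      intro e' he'
      rw [edgeSet_fromEdgeSet_of_subset G hB]
      exact hall e' he'
    obtain ⟨a', rfl⟩ := Sym2.mem_iff_exists.mp ha
    obtain ⟨b', rfl⟩ := Sym2.mem_iff_exists.mp hb
    have has : a ∈ (c.transfer _ hall').support := by
      rw [Walk.support_transfer]
      exact c.fst_mem_support_of_mem_edges hec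
    have hbs : b ∈ (c.transfer _ hall').support := by
      rw [Walk.support_transfer]
      exact c.fst_mem_support_of_mem_edges hfc
    have h1 : (fromEdgeSet (blockOf G e₀)).Reachable v a := ⟨(c.transfer _ hall').takeUntil a has⟩
    have h2 : (fromEdgeSet (blockOf G e₀)).Reachable v b := ⟨(c.transfer _ hall').takeUntil b hbs⟩
    exact h1.symm.trans h2
  | refl e =>
    intro he a ha b hb
    by_cases hab : a = b
    · rw [hab]
    · have h1 : e = s(a, b) := (Sym2.mem_and_mem_iff hab).mp ⟨ha, hb⟩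
      have h2 : (fromEdgeSet (blockOf G e₀)).Adj a b := by
        rw [fromEdgeSet_adj]
        exact ⟨h1 ▸ he, hab⟩
      exact h2.reachable
  | symm e f hef ih =>
    intro hf a ha b hb
    have he : e ∈ blockOf G e₀ :=
      Relation.EqvGen.trans _ _ _ hf (Relation.EqvGen.symm _ _ hef)
    exact (ih he b hb a ha).symm
  | trans e f g hef hfg ih1 ih2 =>
    intro he a ha c hc
    have hf : f ∈ blockOf G e₀ := Relation.EqvGen.trans _ _ _ he hef
    exact (ih1 he a ha f.out.1 (Sym2.out_fst_mem f)).trans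
      (ih2 hf f.out.1 (Sym2.out_fst_mem f) c hc)

/-- Any two vertices of a block are joined inside the block. -/
theorem block_reachable (G : SimpleGraph V) (e₀ : Sym2 V) (he₀ : e₀ ∈ G.edgeSet) {a b : V}
    (ha : a ∈ Vb (blockOf G e₀)) (hb : b ∈ Vb (blockOf G e₀)) :
    (fromEdgeSet (blockOf G e₀)).Reachable a b := by
  obtain ⟨e, heB, hae⟩ := ha
  obtain ⟨f, hfB, hbf⟩ := hb
  have hef : Relation.EqvGen (CycleLinked G) e f :=
    Relation.EqvGen.trans _ _ _ (Relation.EqvGen.symm _ _ heB) hfB
  exact block_reachable_aux G e₀ he₀ hef heB a hae b hbf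

/-! ### Paths between vertices of a block stay in the block -/

theorem reach_split (G₂ : SimpleGraph V) {F : SimpleGraph V} {a b : V} (p : F.Walk a b)
    (x y : V) (hnd : p.edges.Nodup) (hf : s(x, y) ∈ p.edges)
    (hall : ∀ e ∈ p.edges, e ≠ s(x, y) → e ∈ G₂.edgeSet) :
    (G₂.Reachable a x ∧ G₂.Reachable y b) ∨ (G₂.Reachable a y ∧ G₂.Reachable x b) := by
  induction p with
  | nil => simp at hf
  | @cons a a' b hadj p ih =>
    rw [Walk.edges_cons] at hnd hf hall
    have hnd' := List.nodup_cons.mp hnd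
    rcases List.mem_cons.mp hf with hf' | hf'
    · have hp : G₂.Reachable a' b := by
        have hall' : ∀ e ∈ p.edges, e ∈ G₂.edgeSet := by
          intro e he
          apply hall e (List.mem_cons_of_mem _ he)
          intro h
          apply hnd'.1
          rw [← hf', ← h]
          exact he
        exact ⟨p.transfer G₂ hall'⟩
      rcases Sym2.eq_iff.mp hf' with ⟨h1, h2⟩ | ⟨h1, h2⟩
      · left
        rw [h1, h2]
        exact ⟨Reachable.refl _, hp⟩
      · right
        rw [h1, h2]
        exact ⟨Reachable.refl _, hp⟩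
    · have hadj' : G₂.Adj a a' := by
        have := hall s(a, a') List.mem_cons_self (by
          intro h
          apply hnd'.1
          rw [h]
          exact hf')
        exact this
      rcases ih hnd'.2 hf' (fun e he hne => hall e (List.mem_cons_of_mem _ he) hne) with
        ⟨h1, h2⟩ | ⟨h1, h2⟩
      · left
        exact ⟨hadj'.reachable.trans h1, h2⟩
      · right
        exact ⟨hadj'.reachable.trans h1, h2⟩

/-- In an acyclic subgraph of `G`, the path between two vertices of a block of `G` uses only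
edges of the block. -/
theorem tree_path_in_block (G : SimpleGraph V) (e₀ : Sym2 V) (he₀ : e₀ ∈ G.edgeSet)
    (F : SimpleGraph V) (hFG : F ≤ G) (hF : F.IsAcyclic) {a b : V}
    (ha : a ∈ Vb (blockOf G e₀)) (hb : b ∈ Vb (blockOf G e₀)) (p : F.Walk a b)
    (hp : p.IsPath) : ∀ f ∈ p.edges, f ∈ blockOf G e₀ := by
  have hB : blockOf G e₀ ⊆ G.edgeSet := blockOf_subset_edgeSet G he₀
  intro f hf
  by_contra hfB
  induction f with
  | h x y =>
    have hG₃ : fromEdgeSet (blockOf G e₀) ⊔ F ≤ G := by
      apply sup_le _ hFG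
      intro u v huv
      rw [fromEdgeSet_adj] at huv
      exact hB huv.1
    have hadj : (fromEdgeSet (blockOf G e₀) ⊔ F).Adj x y := Or.inr (p.adj_of_mem_edges hf)
    have hreach : ((fromEdgeSet (blockOf G e₀) ⊔ F).deleteEdges {s(x, y)}).Reachable x y := by
      have hall : ∀ e ∈ p.edges, e ≠ s(x, y) →
          e ∈ ((fromEdgeSet (blockOf G e₀) ⊔ F).deleteEdges {s(x, y)}).edgeSet := by
        intro e he hne
        rw [edgeSet_deleteEdges, edgeSet_sup]
        exact ⟨Or.inr (p.edges_subset_edgeSet he), hne⟩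
      have hab : ((fromEdgeSet (blockOf G e₀) ⊔ F).deleteEdges {s(x, y)}).Reachable a b := by
        apply (block_reachable G e₀ he₀ ha hb).mono
        intro u v huv
        rw [deleteEdges_adj]
        refine ⟨Or.inl huv, ?_⟩
        intro h
        rw [fromEdgeSet_adj] at huv
        apply hfB
        rw [← Set.mem_singleton_iff.mp h]
        exact huv.1
      rcases reach_split _ p x y hp.isTrail.edges_nodup hf hall with ⟨h1, h2⟩ | ⟨h1, h2⟩
      · exact h1.symm.trans (hab.trans h2.symm)
      · exact h2.trans (hab.symm.trans h1)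
    obtain ⟨v, c, hc, hfc⟩ := adj_and_reachable_delete_edges_iff_exists_cycle.mp ⟨hadj, hreach⟩
    have hnone : ∀ e ∈ c.edges, e ∉ blockOf G e₀ := by
      rcases block_cycle_closed G hG₃ e₀ v c hc with h | h
      · exact absurd (h _ hfc) hfB
      · exact h
    have hallF : ∀ e ∈ c.edges, e ∈ F.edgeSet := by
      intro e he
      have h1 := c.edges_subset_edgeSet he
      rw [edgeSet_sup] at h1
      rcases h1 with h1 | h1
      · rw [edgeSet_fromEdgeSet_of_subset G hB] at h1
        exact absurd h1 (hnone e he)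
      · exact h1
    exact hF (c.transfer F hallF) (hc.transfer hallF)

theorem mem_support_cases {F : SimpleGraph V} {u v : V} (p : F.Walk u v) (w : V)
    (hw : w ∈ p.support) : w = u ∨ ∃ e ∈ p.edges, w ∈ e := by
  induction p with
  | nil =>
    left
    simpa using hw
  | @cons a a' b hadj p ih =>
    rw [Walk.support_cons, List.mem_cons] at hw
    rcases hw with hw | hw
    · exact Or.inl hw
    · right
      rcases ih hw with h | ⟨e, he, hwe⟩
      · exact ⟨s(a, a'), by simp, by rw [h]; exact Sym2.mem_mk_right a a'⟩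
      · exact ⟨e, by simp [he], hwe⟩

/-- The trace on a block of a finite connected subgraph meeting the block is connected. -/
theorem traceSub_connected (G : SimpleGraph V) (H : G.Subgraph)
    (hH : H.Connected) (e₀ : Sym2 V) (he₀ : e₀ ∈ H.edgeSet) :
    (traceSub G H (blockOf G e₀)).Connected := by
  classical
  have he₀G : e₀ ∈ G.edgeSet := H.edgeSet_subset he₀
  obtain ⟨F, -, hF⟩ :=
    H.spanningCoe.exists_maximal_isAcyclic_of_le_isAcyclic bot_le isAcyclic_bot
  obtain ⟨hle, hac, hr⟩ := (isSpanningTree_iff_macy G H hH F).mpr hF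
  have hFG : F ≤ G := hle.trans H.spanningCoe_le
  rw [Subgraph.connected_iff_forall_exists_walk_subgraph]
  refine ⟨?_, ?_⟩
  · induction e₀ with
    | h x y =>
      have hxy : H.Adj x y := Subgraph.mem_edgeSet.mp he₀
      exact ⟨x, H.edge_vert hxy, s(x, y), mem_blockOf_self G _, he₀, Sym2.mem_mk_left x y⟩
  · intro u v hu hv
    have huB : u ∈ Vb (blockOf G e₀) := by
      obtain ⟨_, f, hfB, _, huf⟩ := hu
      exact ⟨f, hfB, huf⟩
    have hvB : v ∈ Vb (blockOf G e₀) := by
      obtain ⟨_, f, hfB, _, hvf⟩ := hv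
      exact ⟨f, hfB, hvf⟩
    obtain ⟨q⟩ := hr u hu.1 v hv.1
    have hpB := tree_path_in_block G e₀ he₀G F hFG hac huB hvB q.toPath.1 q.toPath.2
    have hpG : ∀ e ∈ (q.toPath.1).edges, e ∈ G.edgeSet :=
      fun e he => edgeSet_subset_edgeSet.mpr hFG ((q.toPath.1).edges_subset_edgeSet he)
    refine ⟨(q.toPath.1).transfer G hpG, ?_, ?_⟩
    · intro w hw
      rw [Walk.mem_verts_toSubgraph, Walk.support_transfer] at hw
      rcases mem_support_cases _ w hw with h | ⟨e, he, hwe⟩
      · rw [h]
        exact hu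
      · have heH : e ∈ H.edgeSet := by
          have := edgeSet_subset_edgeSet.mpr hle ((q.toPath.1).edges_subset_edgeSet he)
          rw [Subgraph.edgeSet_spanningCoe] at this
          exact this
        exact ⟨Subgraph.mem_verts_of_mem_edge heH hwe, e, hpB e he, heH, hwe⟩
    · intro w w' hww'
      rw [Walk.adj_toSubgraph_iff_mem_edges, Walk.edges_transfer] at hww'
      exact ⟨hle ((q.toPath.1).adj_of_mem_edges hww'), hpB _ hww'⟩

/-- On a finite set of edges of a block, the uniform spanning tree of `H` and the uniform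
spanning tree of the trace of `H` on the block have the same law. -/
theorem ustProb_traceSub (G : SimpleGraph V) (H : G.Subgraph) (hfin : H.verts.Finite)
    (hH : H.Connected) (e₀ : Sym2 V) (he₀ : e₀ ∈ H.edgeSet) (K S : Set (Sym2 V))
    (hKB : K ⊆ blockOf G e₀) (hSK : S ⊆ K) :
    ustProb G (traceSub G H (blockOf G e₀)) K S = ustProb G H K S := by
  have hconn := traceSub_connected G H hH e₀ he₀
  rw [ustProb_single G H hfin hH (blockOf G e₀) ⟨e₀, rfl⟩ K S hKB hSK]
  have hnum : {F | IsSpanningTree G (traceSub G H (blockOf G e₀)) F ∧ F.edgeSet ∩ K = S} =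
      {F | MAcy (H.spanningCoe.deleteEdges (blockOf G e₀)ᶜ) F ∧ F.edgeSet ∩ K = S} := by
    ext F
    simp only [Set.mem_ofPred_eq, isSpanningTree_iff_macy G _ hconn, traceSub_spanningCoe]
  have hden : {F | IsSpanningTree G (traceSub G H (blockOf G e₀)) F} =
      {F | MAcy (H.spanningCoe.deleteEdges (blockOf G e₀)ᶜ) F} := by
    ext F
    simp only [Set.mem_ofPred_eq, isSpanningTree_iff_macy G _ hconn, traceSub_spanningCoe]
  unfold ustProb traceProb
  rw [hnum, hden, cnt_empty, Set.inter_eq_left.mpr hKB, Set.inter_eq_left.mpr (hSK.trans hKB)]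
  rfl

/-- A factor for the block (intrinsic law) is a factor for the restriction of the free
uniform spanning forest of `G` to the block. -/
theorem isRestrFactor_of_isBlockFactor (G : SimpleGraph V) (e₀ : Sym2 V) (he₀ : e₀ ∈ G.edgeSet)
    (Ψ : (V → unitInterval) → Set (Sym2 V)) (h : IsBlockFactor G (blockOf G e₀) Ψ) :
    IsRestrFactor G (blockOf G e₀) Ψ := by
  refine ⟨h.inside, h.meas, fun u u' huu' => h.dep u u' (fun v hv => huu' v hv), ?_⟩
  intro H hH K hK hKB S hSK
  obtain ⟨n₀, hn₀⟩ := hH.edges e₀ he₀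
  have hmem : ∀ n, e₀ ∈ (H (n + n₀)).edgeSet :=
    fun n => Subgraph.edgeSet_mono (hH.mono (Nat.le_add_left n₀ n)) hn₀
  have hBE : IsBlockExhaustion G (blockOf G e₀)
      (fun n => traceSub G (H (n + n₀)) (blockOf G e₀)) := by
    refine ⟨?_, ?_, ?_, ?_, ?_⟩
    · intro n
      exact (hH.finite (n + n₀)).subset (fun v hv => hv.1)
    · intro n
      exact traceSub_connected G (H (n + n₀)) (hH.connected _) e₀ (hmem n)
    · intro m n hmn
      exact traceSub_mono G (hH.mono (Nat.add_le_add_right hmn n₀)) _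
    · intro n e he
      exact ((mem_edgeSet_traceSub G _ _ e).mp he).2
    · intro e he
      obtain ⟨n, hn⟩ := hH.edges e (blockOf_subset_edgeSet G he₀ he)
      refine ⟨n, (mem_edgeSet_traceSub G _ _ e).mpr ⟨?_, he⟩⟩
      exact Subgraph.edgeSet_mono (hH.mono (Nat.le_add_right n n₀)) hn
  have h1 := h.law _ hBE K hK hKB S
  have h2 : ∀ n, ustProb G (traceSub G (H (n + n₀)) (blockOf G e₀)) K S =
      ustProb G (H (n + n₀)) K S :=
    fun n => ustProb_traceSub G (H (n + n₀)) (hH.finite _) (hH.connected _) e₀ (hmem n) K S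
      hKB hSK
  simp only [h2] at h1
  exact (Filter.tendsto_add_atTop_iff_nat n₀).mp h1

end Vale.Agent.Lib.P143
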