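import Mathlib
import Vale.Agent.Lib.P143.Defs
import Vale.Agent.Lib.P143.Graph
import Vale.Agent.Lib.P143.Prod
import Vale.Agent.Lib.P143.Trace
import Vale.Agent.Lib.P143.Piece

namespace Vale.Agent.Lib.P143

open SimpleGraph

variable {V : Type}

/-- A vertex of the trace on a piece lies in the piece. -/
theorem ptr_mem_piece (G : SimpleGraph V) (H : G.Subgraph) (A : Set V) {v : V}
    (hv : v ∈ (traceSub G H {f | ∀ z ∈ f, z ∈ A}).verts) : v ∈ A := by
  obtain ⟨_, f, hfP, _, hvf⟩ := hv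
  exact hfP v hvf

theorem traceSub_piece_connected (G : SimpleGraph V) (H : G.Subgraph) (hH : H.Connected)
    (A : Set V) (β : V → V) (h1 : ∀ a ∈ A, β a = a)
    (h2 : ∀ x y, G.Adj x y → ¬ (x ∈ A ∧ y ∈ A) → β x = β y)
    (e₀ : Sym2 V) (he₀ : e₀ ∈ H.edgeSet) (he₀A : ∀ z ∈ e₀, z ∈ A) :
    (traceSub G H {f | ∀ z ∈ f, z ∈ A}).Connected := by
  classical
  rw [Subgraph.connected_iff_forall_exists_walk_subgraph]
  refine ⟨?_, ?_⟩
  · induction e₀ with
    | h x y =>
      have hxy : H.Adj x y := Subgraph.mem_edgeSet.mp he₀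
      exact ⟨x, H.edge_vert hxy, s(x, y), he₀A, he₀, Sym2.mem_mk_left x y⟩
  · intro u v hu hv
    have huA : u ∈ A := ptr_mem_piece G H A hu
    have hvA : v ∈ A := ptr_mem_piece G H A hv
    obtain ⟨p, hp⟩ := (Subgraph.connected_iff_forall_exists_walk_subgraph H).mp hH |>.2 hu.1 hv.1
    have hqH : ∀ e ∈ p.bypass.edges, e ∈ H.edgeSet := by
      intro e he
      have h3 : e ∈ p.toSubgraph.edgeSet :=
        p.mem_edges_toSubgraph.mpr (p.edges_bypass_subset_edges he)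
      exact Subgraph.edgeSet_mono hp h3
    have hqA : ∀ w ∈ p.bypass.support, w ∈ A :=
      piece_path G A β h1 h2 p.bypass p.bypass_isPath huA hvA
    have hqP : ∀ e ∈ p.bypass.edges, e ∈ {f : Sym2 V | ∀ z ∈ f, z ∈ A} := by
      intro e he
      induction e with
      | h a b =>
        intro z hz
        rcases Sym2.mem_iff.mp hz with rfl | rfl
        · exact hqA _ (p.bypass.fst_mem_support_of_mem_edges he)
        · exact hqA _ (p.bypass.snd_mem_support_of_mem_edges he)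
    refine ⟨p.bypass, ?_, ?_⟩
    · intro w hw
      rw [Walk.mem_verts_toSubgraph] at hw
      rcases mem_support_cases _ w hw with h | ⟨e, he, hwe⟩
      · rw [h]
        exact hu
      · exact ⟨Subgraph.mem_verts_of_mem_edge (hqH e he) hwe, e, hqP e he, hqH e he, hwe⟩
    · intro w w' hww'
      rw [Walk.adj_toSubgraph_iff_mem_edges] at hww'
      exact ⟨Subgraph.mem_edgeSet.mp (hqH _ hww'), hqP _ hww'⟩

/-- Tracing the trace on a piece along an edge set inside the piece gives the trace of the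
original subgraph. -/
theorem ptr_traceSub_traceSub (G : SimpleGraph V) (H : G.Subgraph) (P B : Set (Sym2 V))
    (hBP : B ⊆ P) : traceSub G (traceSub G H P) B = traceSub G H B := by
  apply Subgraph.ext
  · ext v
    constructor
    · rintro ⟨hv, f, hfB, hfT, hvf⟩
      exact ⟨hv.1, f, hfB, ((mem_edgeSet_traceSub G H P f).mp hfT).1, hvf⟩
    · rintro ⟨hv, f, hfB, hfH, hvf⟩
      exact ⟨⟨hv, f, hBP hfB, hfH, hvf⟩, f, hfB,
        (mem_edgeSet_traceSub G H P f).mpr ⟨hfH, hBP hfB⟩, hvf⟩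
  · ext a b
    constructor
    · rintro ⟨hab, hB⟩
      exact ⟨hab.1, hB⟩
    · rintro ⟨hab, hB⟩
      exact ⟨⟨hab, hBP hB⟩, hB⟩

theorem ustProb_traceSub_piece (G : SimpleGraph V) (H : G.Subgraph) (hfin : H.verts.Finite)
    (hH : H.Connected) (A : Set V) (β : V → V) (h1 : ∀ a ∈ A, β a = a)
    (h2 : ∀ x y, G.Adj x y → ¬ (x ∈ A ∧ y ∈ A) → β x = β y)
    (K S : Set (Sym2 V)) (hK : K.Finite) (hne : K.Nonempty) (hKH : K ⊆ H.edgeSet)
    (hKA : ∀ e ∈ K, ∀ z ∈ e, z ∈ A) (hSK : S ⊆ K) :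
    ustProb G (traceSub G H {f | ∀ z ∈ f, z ∈ A}) K S = ustProb G H K S := by
  obtain ⟨e₀, he₀K⟩ := hne
  have hTconn : (traceSub G H {f | ∀ z ∈ f, z ∈ A}).Connected :=
    traceSub_piece_connected G H hH A β h1 h2 e₀ (hKH he₀K) (hKA e₀ he₀K)
  have hTfin : (traceSub G H {f | ∀ z ∈ f, z ∈ A}).verts.Finite :=
    hfin.subset (fun v hv => hv.1)
  rw [ustProb_prod G H hfin hH K S hK hSK,
    ustProb_prod G (traceSub G H {f | ∀ z ∈ f, z ∈ A}) hTfin hTconn K S hK hSK]
  apply Finset.prod_congr rfl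
  intro B hB
  obtain ⟨e, heK, rfl⟩ := (mem_blocksOf G K hK B).mp hB
  have heH : e ∈ H.edgeSet := hKH heK
  have heP : e ∈ {f : Sym2 V | ∀ z ∈ f, z ∈ A} := hKA e heK
  have heT : e ∈ (traceSub G H {f | ∀ z ∈ f, z ∈ A}).edgeSet :=
    (mem_edgeSet_traceSub G H _ e).mpr ⟨heH, heP⟩
  have hBP : blockOf G e ⊆ {f : Sym2 V | ∀ z ∈ f, z ∈ A} :=
    blockOf_subset_of_retraction G A β h1 h2 e (hKA e heK)
  have hH' := ustProb_traceSub G H hfin hH e heH (K ∩ blockOf G e) (S ∩ blockOf G e)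
    Set.inter_subset_right (Set.inter_subset_inter_left _ hSK)
  have hT' := ustProb_traceSub G (traceSub G H {f | ∀ z ∈ f, z ∈ A}) hTfin hTconn e heT
    (K ∩ blockOf G e) (S ∩ blockOf G e)
    Set.inter_subset_right (Set.inter_subset_inter_left _ hSK)
  rw [ptr_traceSub_traceSub G H _ (blockOf G e) hBP] at hT'
  rw [← hT', hH']

end Vale.Agent.Lib.P143
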