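import Mathlib
import Vale.Agent.Lib.P143.Defs
import Vale.Agent.Lib.P143.Graph
import Vale.Agent.Lib.P143.Split
import Vale.Agent.Lib.P143.Reduce
import Vale.Agent.Lib.P143.Trace
import Vale.Agent.Lib.P143.Piece
import Vale.Agent.Lib.P143.PieceTrace
import Vale.Agent.Lib.P143.EmbedUst
import Vale.Agent.Lib.P143.PiMap

namespace Vale.Agent.Lib.P143

open SimpleGraph MeasureTheory

/-- An edge all of whose ends lie in the range of `φ` is the image of an edge upstairs. -/
theorem ef_exists_preimage {W V : Type} (φ : W → V) (e : Sym2 V)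
    (he : ∀ z ∈ e, z ∈ Set.range φ) : ∃ e' : Sym2 W, Sym2.map φ e' = e := by
  induction e with
  | h a b =>
    obtain ⟨a', ha'⟩ := he a (Sym2.mem_mk_left a b)
    obtain ⟨b', hb'⟩ := he b (Sym2.mem_mk_right a b)
    exact ⟨s(a', b'), by rw [Sym2.map_mk, ha', hb']⟩

/-- A graph embedding preserves and reflects edges. -/
theorem ef_map_mem_edgeSet {W V : Type} {G' : SimpleGraph W} {G : SimpleGraph V} (φ : G' ↪g G)
    (e' : Sym2 W) : Sym2.map φ e' ∈ G.edgeSet ↔ e' ∈ G'.edgeSet := by
  induction e' with
  | h a b =>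
    rw [Sym2.map_mk, mem_edgeSet, mem_edgeSet]
    exact φ.map_adj_iff

/-- The ends of an image edge lie in the range. -/
theorem ef_map_mem_range {W V : Type} (φ : W → V) (e' : Sym2 W) :
    ∀ z ∈ Sym2.map φ e', z ∈ Set.range φ := by
  intro z hz
  obtain ⟨a, -, rfl⟩ := Sym2.mem_map.1 hz
  exact Set.mem_range_self a

/-- In a connected graph with at least one edge every vertex has a neighbour. -/
theorem ef_exists_adj {W : Type} (G' : SimpleGraph W) (hconn : G'.Connected) (e₀ : Sym2 W)
    (he₀ : e₀ ∈ G'.edgeSet) (w : W) : ∃ w', G'.Adj w w' := by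
  induction e₀ with
  | h a b =>
    have hab : G'.Adj a b := he₀
    obtain ⟨p⟩ := hconn.preconnected w a
    cases p with
    | nil => exact ⟨b, hab⟩
    | cons h q => exact ⟨_, h⟩

/-- Pulling back along an embedding and pushing forward again returns a subgraph whose
vertices lie in the range. -/
theorem ef_map_comap {W V : Type} {G' : SimpleGraph W} {G : SimpleGraph V} (φ : G' ↪g G)
    (T : G.Subgraph) (hT : T.verts ⊆ Set.range φ) :
    (T.comap φ.toHom).map φ.toHom = T := by
  apply Subgraph.ext
  · ext x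
    simp only [Subgraph.map_verts, Subgraph.comap_verts, Set.mem_image, Set.mem_preimage]
    constructor
    · rintro ⟨a, ha, rfl⟩
      exact ha
    · intro hx
      obtain ⟨a, rfl⟩ := hT hx
      exact ⟨a, hx, rfl⟩
  · funext x y
    simp only [Subgraph.map_adj, Relation.Map, Subgraph.comap_adj, eq_iff_iff]
    constructor
    · rintro ⟨a, b, ⟨-, hab⟩, rfl, rfl⟩
      exact hab
    · intro hxy
      obtain ⟨a, rfl⟩ := hT (T.edge_vert hxy)
      obtain ⟨b, rfl⟩ := hT (T.edge_vert hxy.symm)
      exact ⟨a, b, ⟨φ.map_adj_iff.1 (T.adj_sub hxy), hxy⟩, rfl, rfl⟩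

/-- Connectedness passes to the pull-back along an embedding when the vertices lie in the
range. -/
theorem ef_comap_connected {W V : Type} {G' : SimpleGraph W} {G : SimpleGraph V} (φ : G' ↪g G)
    (T : G.Subgraph) (hT : T.verts ⊆ Set.range φ) (hconn : T.Connected) :
    (T.comap φ.toHom).Connected := by
  have e := (φ.toCopy).isoSubgraphMap (T.comap φ.toHom)
  have h2 : ((T.comap φ.toHom).map φ.toHom).Connected := by
    rw [ef_map_comap φ T hT]
    exact hconn
  exact ⟨e.connected_iff.2 h2.coe⟩

/-- The reindexing map along `φ` is measurable. -/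
theorem ef_measurable_comp {W V : Type} (φ : W → V) :
    Measurable (fun (u : V → unitInterval) (w : W) => u (φ w)) :=
  measurable_pi_lambda _ (fun w => measurable_pi_apply (φ w))

/-- The uniform spanning tree of a finite connected subgraph meets the empty set in the empty
set with probability one. -/
theorem ef_ustProb_empty {V : Type} (G : SimpleGraph V) (H : G.Subgraph) (hfin : H.verts.Finite)
    (hH : H.Connected) : ustProb G H ∅ ∅ = 1 := by
  unfold ustProb
  have hset : {F | IsSpanningTree G H F ∧ F.edgeSet ∩ ∅ = ∅} = {F | IsSpanningTree G H F} := by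
    ext F
    simp
  rw [hset]
  have hden : {F | IsSpanningTree G H F} = {F | MAcy H.spanningCoe F} := by
    ext F
    exact isSpanningTree_iff_macy G H hH F
  rw [hden, ← cnt_empty]
  have hne := cnt_empty_ne_zero H.spanningCoe (finite_edgeSet_of_finite_verts G H hfin)
  exact div_self (by exact_mod_cast hne)

/-- A finite set of edges of `G` lies in one member of an exhaustion. -/
theorem ef_exists_index {V : Type} (G : SimpleGraph V) (H : ℕ → G.Subgraph)
    (hH : IsExhaustion G H) (K : Set (Sym2 V)) (hK : K.Finite) (hKG : K ⊆ G.edgeSet) :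
    ∃ n₀, K ⊆ (H n₀).edgeSet := by
  classical
  have hex : ∀ e : Sym2 V, ∃ n, e ∈ K → e ∈ (H n).edgeSet := by
    intro e
    by_cases he : e ∈ K
    · obtain ⟨n, hn⟩ := hH.edges e (hKG he)
      exact ⟨n, fun _ => hn⟩
    · exact ⟨0, fun h => absurd h he⟩
  choose N hN using hex
  refine ⟨hK.toFinset.sup N, fun e he => ?_⟩
  have hle : N e ≤ hK.toFinset.sup N := Finset.le_sup (f := N) (hK.mem_toFinset.2 he)
  exact Subgraph.edgeSet_mono (hH.mono hle) (hN e he)

theorem isRestrFactor_of_embedding {W V : Type} (G' : SimpleGraph W) (G : SimpleGraph V)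
    (φ : G' ↪g G) (hconn : G'.Connected) (β : V → V)
    (h1 : ∀ a ∈ Set.range φ, β a = a)
    (h2 : ∀ x y, G.Adj x y → ¬ (x ∈ Set.range φ ∧ y ∈ Set.range φ) → β x = β y)
    (Φ' : (W → unitInterval) → Set (Sym2 W))
    (hsub : ∀ u, Φ' u ⊆ G'.edgeSet)
    (hmeas : ∀ e, MeasurableSet {u | e ∈ Φ' u})
    (hlaw : ∀ H' : ℕ → G'.Subgraph, IsExhaustion G' H' → ∀ K' : Set (Sym2 W), K'.Finite →
      ∀ T' : Set (Sym2 W), Filter.Tendsto (fun n => ustProb G' (H' n) K' T') Filter.atTop
        (nhds (labelMeasure W {u | Φ' u ∩ K' = T'}).toReal)) :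
    IsRestrFactor G {e | e ∈ G.edgeSet ∧ ∀ z ∈ e, z ∈ Set.range φ}
      (fun u => Sym2.map φ '' Φ' (fun w => u (φ w))) := by
  have hinj : Function.Injective (Sym2.map φ) := Sym2.map.injective φ.injective
  have hr : Measurable (fun (u : V → unitInterval) (w : W) => u (φ w)) := ef_measurable_comp φ
  refine ⟨?_, ?_, ?_, ?_⟩
  · rintro u e ⟨e', he', rfl⟩
    exact ⟨(ef_map_mem_edgeSet φ e').2 (hsub _ he'), ef_map_mem_range φ e'⟩
  · intro e
    by_cases he : ∃ e', Sym2.map φ e' = e
    · obtain ⟨e', rfl⟩ := he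
      have hset : {u : V → unitInterval | Sym2.map φ e' ∈ Sym2.map φ '' Φ' (fun w => u (φ w))} =
          (fun (u : V → unitInterval) (w : W) => u (φ w)) ⁻¹' {u' | e' ∈ Φ' u'} := by
        ext u
        exact hinj.mem_set_image
      rw [hset]
      exact hr (hmeas e')
    · have hset : {u : V → unitInterval | e ∈ Sym2.map φ '' Φ' (fun w => u (φ w))} = ∅ := by
        apply Set.eq_empty_of_forall_notMem
        rintro u ⟨e', -, rfl⟩
        exact he ⟨e', rfl⟩
      rw [hset]
      exact MeasurableSet.empty
  · intro u u' huu'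
    by_cases hE : ∃ e₀, e₀ ∈ G'.edgeSet
    · obtain ⟨e₀, he₀⟩ := hE
      have hfun : (fun w => u (φ w)) = (fun w => u' (φ w)) := by
        funext w
        obtain ⟨w', hw'⟩ := ef_exists_adj G' hconn e₀ he₀ w
        apply huu'
        refine ⟨s(φ w, φ w'), ⟨?_, ?_⟩, Sym2.mem_mk_left _ _⟩
        · exact φ.map_adj_iff.2 hw'
        · intro z hz
          rcases Sym2.mem_iff.1 hz with rfl | rfl
          · exact Set.mem_range_self w
          · exact Set.mem_range_self w'
      change Sym2.map φ '' Φ' (fun w => u (φ w)) = Sym2.map φ '' Φ' (fun w => u' (φ w))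
      rw [hfun]
    · have hempty : ∀ x, Φ' x = ∅ := by
        intro x
        apply Set.eq_empty_of_forall_notMem
        intro e he
        exact hE ⟨e, hsub x he⟩
      change Sym2.map φ '' Φ' (fun w => u (φ w)) = Sym2.map φ '' Φ' (fun w => u' (φ w))
      rw [hempty, hempty]
  · intro H hH K hK hKB S hSK
    rcases K.eq_empty_or_nonempty with hKe | hKne
    · subst hKe
      have hS : S = ∅ := Set.subset_empty_iff.1 hSK
      subst hS
      have hconst : ∀ n, ustProb G (H n) ∅ ∅ = 1 := fun n =>
        ef_ustProb_empty G (H n) (hH.finite n) (hH.connected n)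
      have hev : {u : V → unitInterval | Sym2.map φ '' Φ' (fun w => u (φ w)) ∩ ∅ = ∅} =
          Set.univ := by
        ext u
        simp
      simp only [hconst, hev, measure_univ, ENNReal.toReal_one]
      exact tendsto_const_nhds
    · obtain ⟨K', hK'def⟩ : ∃ K' : Set (Sym2 W), K' = Sym2.map φ ⁻¹' K := ⟨_, rfl⟩
      obtain ⟨S', hS'def⟩ : ∃ S' : Set (Sym2 W), S' = Sym2.map φ ⁻¹' S := ⟨_, rfl⟩
      have hKrange : K ⊆ Set.range (Sym2.map φ) := fun e he =>
        ef_exists_preimage φ e (hKB he).2
      have hK'img : Sym2.map φ '' K' = K := by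
        rw [hK'def]
        exact Set.image_preimage_eq_of_subset hKrange
      have hS'img : Sym2.map φ '' S' = S := by
        rw [hS'def]
        exact Set.image_preimage_eq_of_subset (hSK.trans hKrange)
      have hK'fin : K'.Finite := by
        rw [hK'def]
        exact hK.preimage hinj.injOn
      have hS'K' : S' ⊆ K' := by
        rw [hK'def, hS'def]
        exact Set.preimage_mono hSK
      obtain ⟨n₀, hn₀⟩ := ef_exists_index G H hH K hK (fun e he => (hKB he).1)
      have hKn : ∀ n, K ⊆ (H (n + n₀)).edgeSet := fun n e he =>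
        Subgraph.edgeSet_mono (hH.mono (Nat.le_add_left n₀ n)) (hn₀ he)
      obtain ⟨T, hTdef⟩ : ∃ T : ℕ → G.Subgraph,
          T = fun n => traceSub G (H (n + n₀)) {f | ∀ z ∈ f, z ∈ Set.range φ} := ⟨_, rfl⟩
      have hTverts : ∀ n, (T n).verts ⊆ Set.range φ := by
        intro n v hv
        rw [hTdef] at hv
        obtain ⟨-, f, hfP, -, hvf⟩ := hv
        exact hfP v hvf
      have hTadj : ∀ n x y, (T n).Adj x y ↔
          (H (n + n₀)).Adj x y ∧ ∀ z ∈ s(x, y), z ∈ Set.range φ := by
        intro n x y
        rw [hTdef]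
        exact Iff.rfl
      have hTfin : ∀ n, (T n).verts.Finite := by
        intro n
        refine (hH.finite (n + n₀)).subset ?_
        intro v hv
        rw [hTdef] at hv
        exact hv.1
      have hTmono : Monotone T := by
        intro m n hmn
        rw [hTdef]
        exact traceSub_mono G (hH.mono (Nat.add_le_add_right hmn n₀)) _
      obtain ⟨e₀, he₀K⟩ := hKne
      have hTconn : ∀ n, (T n).Connected := by
        intro n
        rw [hTdef]
        exact traceSub_piece_connected G (H (n + n₀)) (hH.connected _) (Set.range φ) β h1 h2 e₀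
          (hKn n he₀K) (hKB he₀K).2
      obtain ⟨e₀', he₀'⟩ := ef_exists_preimage φ e₀ (hKB he₀K).2
      have he₀'G : e₀' ∈ G'.edgeSet := (ef_map_mem_edgeSet φ e₀').1 (he₀' ▸ (hKB he₀K).1)
      have hadjT : ∀ a b, G'.Adj a b → ∃ n, (T n).Adj (φ a) (φ b) := by
        intro a b hab
        have hG : s(φ a, φ b) ∈ G.edgeSet := φ.map_adj_iff.2 hab
        obtain ⟨m, hm⟩ := hH.edges _ hG
        refine ⟨m, (hTadj m _ _).2 ⟨?_, ?_⟩⟩
        · exact Subgraph.edgeSet_mono (hH.mono (Nat.le_add_right m n₀)) hm
        · intro z hz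
          rcases Sym2.mem_iff.1 hz with rfl | rfl
          · exact Set.mem_range_self a
          · exact Set.mem_range_self b
      have hExh : IsExhaustion G' (fun n => (T n).comap φ.toHom) := by
        refine ⟨?_, ?_, ?_, ?_, ?_⟩
        · intro n
          exact (hTfin n).preimage φ.injective.injOn
        · intro n
          exact ef_comap_connected φ (T n) (hTverts n) (hTconn n)
        · intro m n hmn
          exact Subgraph.comap_monotone φ.toHom (hTmono hmn)
        · intro w
          obtain ⟨w', hw'⟩ := ef_exists_adj G' hconn e₀' he₀'G w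
          obtain ⟨n, hn⟩ := hadjT w w' hw'
          exact ⟨n, (T n).edge_vert hn⟩
        · intro e he
          induction e with
          | h a b =>
            have hab : G'.Adj a b := he
            obtain ⟨n, hn⟩ := hadjT a b hab
            exact ⟨n, ⟨hab, hn⟩⟩
      have hprob : ∀ n, ustProb G' ((T n).comap φ.toHom) K' S' = ustProb G (H (n + n₀)) K S := by
        intro n
        rw [← ustProb_map_embedding G' G φ ((T n).comap φ.toHom) K' S',
          ef_map_comap φ (T n) (hTverts n), hK'img, hS'img, hTdef]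
        exact ustProb_traceSub_piece G (H (n + n₀)) (hH.finite _) (hH.connected _) (Set.range φ)
          β h1 h2 K S hK ⟨e₀, he₀K⟩ (hKn n) (fun e he => (hKB he).2) hSK
      have hevent : {u : V → unitInterval | Sym2.map φ '' Φ' (fun w => u (φ w)) ∩ K = S} =
          (fun (u : V → unitInterval) (w : W) => u (φ w)) ⁻¹' {u' | Φ' u' ∩ K' = S'} := by
        ext u
        change Sym2.map φ '' Φ' (fun w => u (φ w)) ∩ K = S ↔ Φ' (fun w => u (φ w)) ∩ K' = S'
        rw [← hK'img, ← hS'img, ← Set.image_inter hinj]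
        exact hinj.image_injective.eq_iff
      have hE : MeasurableSet {u' : W → unitInterval | Φ' u' ∩ K' = S'} :=
        measurableSet_inter_eq Φ' hmeas K' S' hK'fin hS'K'
      have hmeasure : labelMeasure V {u | Sym2.map φ '' Φ' (fun w => u (φ w)) ∩ K = S} =
          labelMeasure W {u' | Φ' u' ∩ K' = S'} := by
        rw [hevent, ← Measure.map_apply hr hE, labelMeasure_map_comp φ φ.injective]
      have h3 := hlaw (fun n => (T n).comap φ.toHom) hExh K' hK'fin S'
      simp only [hprob] at h3
      rw [← hmeasure] at h3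
      exact (Filter.tendsto_add_atTop_iff_nat n₀).mp h3

end Vale.Agent.Lib.P143
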