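import Mathlib
import Vale.Agent.Lib.P143.Defs
import Vale.Agent.Lib.P143.Defs4
import Vale.Agent.Lib.P143.Defs5
import Vale.Agent.Lib.P143.Cayley
import Vale.Agent.Lib.P143.Piece
import Vale.Agent.Lib.P143.BorelG

/-!
# Cosets of the factors in the Cayley graph of a free product
-/

namespace Vale.Agent.Lib.P143

open SimpleGraph MeasureTheory

variable {ι : Type} (G : ι → Type) [∀ i, Group (G i)]

/-- A nontrivial element of one factor does not lie in another factor. -/
theorem of_eq_of_index {i j : ι} (a : G i) (b : G j)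
    (h : (Monoid.CoprodI.of a : Monoid.CoprodI G) = Monoid.CoprodI.of b) (ha : a ≠ 1) :
    i = j := by
  classical
  by_contra hne
  have h1 := congrArg (Monoid.CoprodI.lift (Pi.mulSingle i (MonoidHom.id (G i)))) h
  rw [Monoid.CoprodI.lift_of, Monoid.CoprodI.lift_of, Pi.mulSingle_eq_same,
    Pi.mulSingle_eq_of_ne (Ne.symm hne)] at h1
  exact ha (by simpa using h1)

variable (S : ∀ i, Set (G i))

theorem freeProdGens_subset_range :
    ∀ s ∈ freeProdGens G S, ∃ (j : ι) (z : G j), s = Monoid.CoprodI.of z := by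
  rintro s ⟨j, z, _, rfl⟩
  exact ⟨j, z, rfl⟩

theorem of_mem_freeProdGens {i : ι} (a : G i) (ha : a ≠ 1) :
    Monoid.CoprodI.of a ∈ freeProdGens G S ↔ a ∈ S i := by
  constructor
  · rintro ⟨j, x, hx, h⟩
    have hij := of_eq_of_index G a x h ha
    subst hij
    rw [Monoid.CoprodI.of_injective i h]
    exact hx
  · intro h
    exact ⟨i, a, h, rfl⟩

theorem freeProdGens_finite [Finite ι] (hfin : ∀ i, (S i).Finite) :
    (freeProdGens G S).Finite := by
  have h : freeProdGens G S ⊆
      ⋃ i : ι, (Monoid.CoprodI.of : G i → Monoid.CoprodI G) '' S i := by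
    rintro g ⟨i, x, hx, rfl⟩
    exact Set.mem_iUnion.mpr ⟨i, x, hx, rfl⟩
  exact Set.Finite.subset (Set.finite_iUnion (fun i => (hfin i).image _)) h

theorem closure_freeProdGens (hgen : ∀ i, Subgroup.closure (S i) = ⊤) :
    Subgroup.closure (freeProdGens G S) = ⊤ := by
  have hof : ∀ (i : ι) (x : G i),
      Monoid.CoprodI.of x ∈ Subgroup.closure (freeProdGens G S) := by
    intro i x
    have hx : x ∈ Subgroup.closure (S i) := by
      rw [hgen i]
      exact Subgroup.mem_top x
    induction hx using Subgroup.closure_induction with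
    | mem y hy => exact Subgroup.subset_closure ⟨i, y, hy, rfl⟩
    | one =>
      rw [map_one]
      exact Subgroup.one_mem _
    | mul y z _ _ hy hz =>
      rw [map_mul]
      exact Subgroup.mul_mem _ hy hz
    | inv y _ hy =>
      rw [map_inv]
      exact Subgroup.inv_mem _ hy
  have key : ∀ g : Monoid.CoprodI G, g ∈ Subgroup.closure (freeProdGens G S) := by
    intro g
    induction g using Monoid.CoprodI.induction_on with
    | one => exact Subgroup.one_mem _
    | of i m => exact hof i m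
    | mul x y hx hy => exact Subgroup.mul_mem _ hx hy
  rw [eq_top_iff]
  intro g _
  exact key g

/-- The coset `g * G i`, as an embedded copy of the Cayley graph of `G i`. -/
def cosetEmb (g : Monoid.CoprodI G) (i : ι) :
    cayleyGraph (S i) ↪g cayleyGraph (freeProdGens G S) where
  toFun y := g * Monoid.CoprodI.of y
  inj' := by
    intro y y' h
    exact Monoid.CoprodI.of_injective i (mul_left_cancel h)
  map_rel_iff' := by
    intro y y'
    change (cayleyGraph (freeProdGens G S)).Adj (g * Monoid.CoprodI.of y)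
      (g * Monoid.CoprodI.of y') ↔ (cayleyGraph (S i)).Adj y y'
    rw [cayleyGraph_adj, cayleyGraph_adj]
    have e1 : ∀ a b : G i, (g * Monoid.CoprodI.of a)⁻¹ * (g * Monoid.CoprodI.of b) =
        (Monoid.CoprodI.of (a⁻¹ * b) : Monoid.CoprodI G) := by
      intro a b
      rw [map_mul, map_inv]
      group
    have hne1 : ∀ a b : G i, a ≠ b → a⁻¹ * b ≠ 1 := by
      intro a b hab h
      exact hab (inv_mul_eq_one.mp h)
    rw [e1, e1]
    constructor
    · rintro ⟨hne, h⟩
      have hne' : y ≠ y' := fun h' => hne (by rw [h'])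
      refine ⟨hne', ?_⟩
      rcases h with h | h
      · exact Or.inl ((of_mem_freeProdGens G S _ (hne1 y y' hne')).mp h)
      · exact Or.inr ((of_mem_freeProdGens G S _ (hne1 y' y hne'.symm)).mp h)
    · rintro ⟨hne, h⟩
      refine ⟨fun h' => hne (Monoid.CoprodI.of_injective i (mul_left_cancel h')), ?_⟩
      rcases h with h | h
      · exact Or.inl ((of_mem_freeProdGens G S _ (hne1 y y' hne)).mpr h)
      · exact Or.inr ((of_mem_freeProdGens G S _ (hne1 y' y hne.symm)).mpr h)

theorem cosetEmb_apply (g : Monoid.CoprodI G) (i : ι) (y : G i) :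
    cosetEmb G S g i y = g * Monoid.CoprodI.of y := rfl

theorem cosetEmb_mul (γ g : Monoid.CoprodI G) (i : ι) (y : G i) :
    cosetEmb G S (γ * g) i y = γ * cosetEmb G S g i y := by
  rw [cosetEmb_apply, cosetEmb_apply, mul_assoc]

theorem mem_range_cosetEmb_mul (γ g : Monoid.CoprodI G) (i : ι) (z : Monoid.CoprodI G) :
    γ * z ∈ Set.range (cosetEmb G S (γ * g) i) ↔ z ∈ Set.range (cosetEmb G S g i) := by
  constructor
  · rintro ⟨y, hy⟩
    rw [cosetEmb_mul] at hy
    exact ⟨y, mul_left_cancel hy⟩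
  · rintro ⟨y, rfl⟩
    exact ⟨y, cosetEmb_mul G S γ g i y⟩

/-- Two cosets of factors sharing two different points coincide, up to the choice of the
representative. -/
theorem coset_unique {g g' : Monoid.CoprodI G} {i i' : ι} {a b : Monoid.CoprodI G}
    (hab : a ≠ b)
    (ha : a ∈ Set.range (cosetEmb G S g i)) (hb : b ∈ Set.range (cosetEmb G S g i))
    (ha' : a ∈ Set.range (cosetEmb G S g' i')) (hb' : b ∈ Set.range (cosetEmb G S g' i')) :
    ∃ h : i = i', ∃ c : G i, g' = g * Monoid.CoprodI.of c := by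
  obtain ⟨y₁, rfl⟩ := ha
  obtain ⟨y₂, rfl⟩ := hb
  obtain ⟨z₁, hz₁⟩ := ha'
  obtain ⟨z₂, hz₂⟩ := hb'
  simp only [cosetEmb_apply] at hz₁ hz₂ hab
  have e1 : (Monoid.CoprodI.of (y₁⁻¹ * y₂) : Monoid.CoprodI G) =
      Monoid.CoprodI.of (z₁⁻¹ * z₂) := by
    have h1 : (Monoid.CoprodI.of (y₁⁻¹ * y₂) : Monoid.CoprodI G) =
        (g * Monoid.CoprodI.of y₁)⁻¹ * (g * Monoid.CoprodI.of y₂) := by
      rw [map_mul, map_inv]
      group
    have h2 : (Monoid.CoprodI.of (z₁⁻¹ * z₂) : Monoid.CoprodI G) =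
        (g' * Monoid.CoprodI.of z₁)⁻¹ * (g' * Monoid.CoprodI.of z₂) := by
      rw [map_mul, map_inv]
      group
    rw [h1, h2, hz₁, hz₂]
  have hne : y₁⁻¹ * y₂ ≠ 1 := by
    intro h
    apply hab
    rw [inv_mul_eq_one.mp h]
  have hii : i = i' := of_eq_of_index G _ _ e1 hne
  subst hii
  refine ⟨rfl, y₁ * z₁⁻¹, ?_⟩
  rw [map_mul, map_inv]
  have h3 : g' = g * Monoid.CoprodI.of y₁ * (Monoid.CoprodI.of z₁)⁻¹ := by
    rw [← hz₁]
    group
  rw [h3]
  group

end Vale.Agent.Lib.P143
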