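import Mathlib
import Vale.Agent.Lib.P143.Defs
import Vale.Agent.Lib.P143.Defs4
import Vale.Agent.Lib.P143.Defs5
import Vale.Agent.Lib.P143.Graph
import Vale.Agent.Lib.P143.Cayley
import Vale.Agent.Lib.P143.Piece
import Vale.Agent.Lib.P143.BorelG
import Vale.Agent.Lib.P143.FreeProd

/-!
# The partition of the edges of the Cayley graph of a free product into the cosets of the
factors, and the factors of IID carried by the cosets
-/

namespace Vale.Agent.Lib.P143

open SimpleGraph MeasureTheory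

variable {ι : Type} (G : ι → Type) [∀ i, Group (G i)] (S : ∀ i, Set (G i))

/-- The edges of the Cayley graph of the free product inside the coset `g * G i`. -/
def pieceEdges (g : Monoid.CoprodI G) (i : ι) : Set (Sym2 (Monoid.CoprodI G)) :=
  {e | e ∈ (cayleyGraph (freeProdGens G S)).edgeSet ∧
    ∀ z ∈ e, z ∈ Set.range (cosetEmb G S g i)}

theorem exists_piece_of_edge (e : Sym2 (Monoid.CoprodI G))
    (he : e ∈ (cayleyGraph (freeProdGens G S)).edgeSet) :
    ∃ g i, e ∈ pieceEdges G S g i := by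
  induction e with
  | h a b =>
    have hadj := he
    rw [mem_edgeSet, cayleyGraph_adj] at hadj
    rcases hadj.2 with h | h
    · obtain ⟨i, x, _, hxe⟩ := h
      refine ⟨a, i, he, ?_⟩
      intro z hz
      rw [Sym2.mem_iff] at hz
      rcases hz with rfl | rfl
      · exact ⟨1, by rw [cosetEmb_apply, map_one, mul_one]⟩
      · refine ⟨x, ?_⟩
        rw [cosetEmb_apply, ← hxe]
        group
    · obtain ⟨i, x, _, hxe⟩ := h
      refine ⟨b, i, he, ?_⟩
      intro z hz
      rw [Sym2.mem_iff] at hz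
      rcases hz with rfl | rfl
      · refine ⟨x, ?_⟩
        rw [cosetEmb_apply, ← hxe]
        group
      · exact ⟨1, by rw [cosetEmb_apply, map_one, mul_one]⟩

theorem range_cosetEmb_mul_of (g : Monoid.CoprodI G) (i : ι) (c : G i) :
    Set.range (cosetEmb G S (g * Monoid.CoprodI.of c) i) = Set.range (cosetEmb G S g i) := by
  ext z
  constructor
  · rintro ⟨y, rfl⟩
    refine ⟨c * y, ?_⟩
    rw [cosetEmb_apply, cosetEmb_apply, map_mul, mul_assoc]
  · rintro ⟨y, rfl⟩
    refine ⟨c⁻¹ * y, ?_⟩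
    rw [cosetEmb_apply, cosetEmb_apply, map_mul, map_inv]
    group

/-- An edge lies in the coset of only one factor. -/
theorem pieceEdges_unique {e : Sym2 (Monoid.CoprodI G)} {g g' : Monoid.CoprodI G} {i i' : ι}
    (h : e ∈ pieceEdges G S g i) (h' : e ∈ pieceEdges G S g' i') :
    pieceEdges G S g' i' = pieceEdges G S g i := by
  induction e with
  | h a b =>
    have hab : a ≠ b := (mem_edgeSet _ |>.mp h.1).ne
    obtain ⟨hii, c, hc⟩ := coset_unique G S hab
      (h.2 a (Sym2.mem_mk_left a b)) (h.2 b (Sym2.mem_mk_right a b))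
      (h'.2 a (Sym2.mem_mk_left a b)) (h'.2 b (Sym2.mem_mk_right a b))
    subst hii
    subst hc
    unfold pieceEdges
    rw [range_cosetEmb_mul_of]

/-- The class of an edge: the edges inside the coset containing it. -/
def pieceCls (e : Sym2 (Monoid.CoprodI G)) : Set (Sym2 (Monoid.CoprodI G)) :=
  {f | (∃ g i, e ∈ pieceEdges G S g i ∧ f ∈ pieceEdges G S g i) ∨
    (e ∉ (cayleyGraph (freeProdGens G S)).edgeSet ∧ f = e)}

theorem pieceCls_of_mem {e : Sym2 (Monoid.CoprodI G)} {g : Monoid.CoprodI G} {i : ι}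
    (h : e ∈ pieceEdges G S g i) : pieceCls G S e = pieceEdges G S g i := by
  ext f
  constructor
  · rintro (⟨g', i', he', hf'⟩ | ⟨hne, _⟩)
    · rw [← pieceEdges_unique G S h he']
      exact hf'
    · exact absurd h.1 hne
  · intro hf
    exact Or.inl ⟨g, i, h, hf⟩

theorem pieceCls_of_not_edge {e : Sym2 (Monoid.CoprodI G)}
    (h : e ∉ (cayleyGraph (freeProdGens G S)).edgeSet) : pieceCls G S e = {e} := by
  ext f
  constructor
  · rintro (⟨g', i', he', _⟩ | ⟨_, hf⟩)
    · exact absurd he'.1 h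
    · exact hf
  · intro hf
    exact Or.inr ⟨h, hf⟩

theorem pieceCls_eq_of_mem (e f : Sym2 (Monoid.CoprodI G)) (hf : f ∈ pieceCls G S e) :
    pieceCls G S f = pieceCls G S e := by
  rcases hf with ⟨g, i, he, hf⟩ | ⟨_, rfl⟩
  · rw [pieceCls_of_mem G S he, pieceCls_of_mem G S hf]
  · rfl

theorem pieceCls_subset_edgeSet (e : Sym2 (Monoid.CoprodI G))
    (he : e ∈ (cayleyGraph (freeProdGens G S)).edgeSet) :
    pieceCls G S e ⊆ (cayleyGraph (freeProdGens G S)).edgeSet := by
  obtain ⟨g, i, h⟩ := exists_piece_of_edge G S e he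
  rw [pieceCls_of_mem G S h]
  exact fun f hf => hf.1

theorem blockOf_subset_pieceCls (e : Sym2 (Monoid.CoprodI G)) :
    blockOf (cayleyGraph (freeProdGens G S)) e ⊆ pieceCls G S e := by
  by_cases he : e ∈ (cayleyGraph (freeProdGens G S)).edgeSet
  · obtain ⟨g, i, h⟩ := exists_piece_of_edge G S e he
    rw [pieceCls_of_mem G S h]
    intro f hf
    refine ⟨blockOf_subset_edgeSet _ he hf, ?_⟩
    obtain ⟨β, hβ1, hβ2⟩ := exists_coset_retraction G (freeProdGens G S)
      (freeProdGens_subset_range G S) g i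
    exact blockOf_subset_of_retraction (cayleyGraph (freeProdGens G S))
      (Set.range (cosetEmb G S g i)) β hβ1 hβ2 e h.2 hf
  · rw [pieceCls_of_not_edge G S he]
    have hcl : ClosedL (cayleyGraph (freeProdGens G S)) {e} := by
      intro f' hf' g' _ hlink
      obtain ⟨v, c, _, h1, _⟩ := hlink
      rw [Set.mem_singleton_iff] at hf'
      rw [hf'] at h1
      exact he (c.edges_subset_edgeSet h1)
    intro f hf
    exact (eqvGen_mem_closed hcl hf).mp rfl

/-! ### The factors carried by the cosets -/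

/-- The factor of the coset `g * G i`: the factor `Φ i` of the group `G i`, transported. -/
def PsiPiece (Φ : ∀ i, (G i → unitInterval) → Set (Sym2 (G i))) (g : Monoid.CoprodI G) (i : ι)
    (u : Monoid.CoprodI G → unitInterval) : Set (Sym2 (Monoid.CoprodI G)) :=
  Sym2.map (cosetEmb G S g i) '' Φ i (fun y => u (cosetEmb G S g i y))

theorem psiPiece_mul_of (Φ : ∀ i, (G i → unitInterval) → Set (Sym2 (G i)))
    (hΦ : ∀ (i : ι) (γ : G i) (u : G i → unitInterval),
      Φ i (fun v => u (γ⁻¹ * v)) = Sym2.map (fun v => γ * v) '' Φ i u)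
    (g : Monoid.CoprodI G) (i : ι) (c : G i) :
    PsiPiece G S Φ (g * Monoid.CoprodI.of c) i = PsiPiece G S Φ g i := by
  funext u
  unfold PsiPiece
  have e1 : (fun y => u (cosetEmb G S (g * Monoid.CoprodI.of c) i y)) =
      fun v => u (cosetEmb G S g i ((c⁻¹)⁻¹ * v)) := by
    funext y
    rw [inv_inv, cosetEmb_apply, cosetEmb_apply, map_mul, mul_assoc]
  have h2 : Φ i (fun v => u (cosetEmb G S g i ((c⁻¹)⁻¹ * v))) =
      Sym2.map (fun v => c⁻¹ * v) '' Φ i (fun y => u (cosetEmb G S g i y)) :=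
    hΦ i c⁻¹ (fun y => u (cosetEmb G S g i y))
  rw [e1, h2, Set.image_image]
  apply Set.image_congr
  intro f _
  rw [Sym2.map_map]
  congr 1
  funext y
  simp only [Function.comp_apply, cosetEmb_apply, map_mul, map_inv]
  group

theorem psiPiece_unique (Φ : ∀ i, (G i → unitInterval) → Set (Sym2 (G i)))
    (hΦ : ∀ (i : ι) (γ : G i) (u : G i → unitInterval),
      Φ i (fun v => u (γ⁻¹ * v)) = Sym2.map (fun v => γ * v) '' Φ i u)
    {e : Sym2 (Monoid.CoprodI G)} {g g' : Monoid.CoprodI G} {i i' : ι}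
    (h : e ∈ pieceEdges G S g i) (h' : e ∈ pieceEdges G S g' i') :
    PsiPiece G S Φ g' i' = PsiPiece G S Φ g i := by
  induction e with
  | h a b =>
    have hab : a ≠ b := (mem_edgeSet _ |>.mp h.1).ne
    obtain ⟨hii, c, hc⟩ := coset_unique G S hab
      (h.2 a (Sym2.mem_mk_left a b)) (h.2 b (Sym2.mem_mk_right a b))
      (h'.2 a (Sym2.mem_mk_left a b)) (h'.2 b (Sym2.mem_mk_right a b))
    subst hii
    subst hc
    exact psiPiece_mul_of G S Φ hΦ g i c

open Classical in
/-- The factor attached to a class of edges. -/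
noncomputable def PsiCls (Φ : ∀ i, (G i → unitInterval) → Set (Sym2 (G i)))
    (P : Set (Sym2 (Monoid.CoprodI G))) :
    (Monoid.CoprodI G → unitInterval) → Set (Sym2 (Monoid.CoprodI G)) :=
  if h : ∃ g i, P = pieceEdges G S g i ∧ P.Nonempty then
    PsiPiece G S Φ h.choose h.choose_spec.choose
  else fun _ => ∅

theorem psiCls_of_mem (Φ : ∀ i, (G i → unitInterval) → Set (Sym2 (G i)))
    (hΦ : ∀ (i : ι) (γ : G i) (u : G i → unitInterval),
      Φ i (fun v => u (γ⁻¹ * v)) = Sym2.map (fun v => γ * v) '' Φ i u)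
    {e : Sym2 (Monoid.CoprodI G)} {g : Monoid.CoprodI G} {i : ι}
    (h : e ∈ pieceEdges G S g i) :
    PsiCls G S Φ (pieceEdges G S g i) = PsiPiece G S Φ g i := by
  have hex : ∃ g' i', pieceEdges G S g i = pieceEdges G S g' i' ∧
      (pieceEdges G S g i).Nonempty := ⟨g, i, rfl, e, h⟩
  unfold PsiCls
  rw [dif_pos hex]
  have hspec := hex.choose_spec.choose_spec
  have h' : e ∈ pieceEdges G S hex.choose hex.choose_spec.choose := by
    rw [← hspec.1]
    exact h
  exact psiPiece_unique G S Φ hΦ h h'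

end Vale.Agent.Lib.P143
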