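import Mathlib
import Vale.Agent.Lib.P143.Defs
import Vale.Agent.Lib.P143.Graph
import Vale.Agent.Lib.P143.Prod

namespace Vale.Agent.Lib.P143

open SimpleGraph

variable {V : Type}

open Classical in
/-- The classes of the edges of the finite set `K`. -/
noncomputable def classesOf (cls : Sym2 V → Set (Sym2 V)) (K : Set (Sym2 V)) (hK : K.Finite) :
    Finset (Set (Sym2 V)) :=
  hK.toFinset.image cls

theorem mem_classesOf (cls : Sym2 V → Set (Sym2 V)) (K : Set (Sym2 V)) (hK : K.Finite)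
    (P : Set (Sym2 V)) : P ∈ classesOf cls K hK ↔ ∃ e ∈ K, cls e = P := by
  classical
  simp [classesOf]

open Classical in
/-- The class containing a block: the class of any one of its edges. -/
noncomputable def cls_ofBlock (cls : Sym2 V → Set (Sym2 V)) (B : Set (Sym2 V)) : Set (Sym2 V) :=
  if h : B.Nonempty then cls h.choose else ∅

theorem cls_mem_self (G : SimpleGraph V) (cls : Sym2 V → Set (Sym2 V))
    (h4 : ∀ e, blockOf G e ⊆ cls e) (e : Sym2 V) : e ∈ cls e :=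
  h4 e (mem_blockOf_self G e)

theorem cls_ofBlock_blockOf (G : SimpleGraph V) (cls : Sym2 V → Set (Sym2 V))
    (h2 : ∀ e f, f ∈ cls e → cls f = cls e) (h4 : ∀ e, blockOf G e ⊆ cls e) (e : Sym2 V) :
    cls_ofBlock cls (blockOf G e) = cls e := by
  have hne : (blockOf G e).Nonempty := ⟨e, mem_blockOf_self G e⟩
  unfold cls_ofBlock
  rw [dif_pos hne]
  exact h2 e _ (h4 e hne.choose_spec)

/-- The blocks meeting `K ∩ P`, for a class `P`, are the blocks meeting `K` that lie in the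
class `P`. -/
theorem cls_blocksOf_inter (G : SimpleGraph V) (cls : Sym2 V → Set (Sym2 V))
    (h2 : ∀ e f, f ∈ cls e → cls f = cls e) (h4 : ∀ e, blockOf G e ⊆ cls e)
    (K : Set (Sym2 V)) (hK : K.Finite) (e₀ : Sym2 V) (B : Set (Sym2 V)) :
    B ∈ blocksOf G (K ∩ cls e₀) (hK.subset Set.inter_subset_left) ↔
      B ∈ blocksOf G K hK ∧ cls_ofBlock cls B = cls e₀ := by
  rw [mem_blocksOf, mem_blocksOf]
  constructor
  · rintro ⟨e, ⟨heK, heP⟩, rfl⟩
    refine ⟨⟨e, heK, rfl⟩, ?_⟩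
    rw [cls_ofBlock_blockOf G cls h2 h4 e]
    exact h2 e₀ e heP
  · rintro ⟨⟨e, heK, rfl⟩, hg⟩
    rw [cls_ofBlock_blockOf G cls h2 h4 e] at hg
    refine ⟨e, ⟨heK, ?_⟩, rfl⟩
    rw [← hg]
    exact cls_mem_self G cls h4 e

theorem ustProb_prod_classes (G : SimpleGraph V) (H : G.Subgraph) (hfin : H.verts.Finite)
    (hH : H.Connected) (cls : Sym2 V → Set (Sym2 V))
    (h2 : ∀ e f, f ∈ cls e → cls f = cls e) (h4 : ∀ e, blockOf G e ⊆ cls e)
    (K S : Set (Sym2 V)) (hK : K.Finite) (hSK : S ⊆ K) :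
    ustProb G H K S = ∏ P ∈ classesOf cls K hK, ustProb G H (K ∩ P) (S ∩ P) := by
  classical
  rw [ustProb_prod G H hfin hH K S hK hSK]
  have hmaps : ∀ B ∈ blocksOf G K hK, cls_ofBlock cls B ∈ classesOf cls K hK := by
    intro B hB
    obtain ⟨e, heK, rfl⟩ := (mem_blocksOf G K hK B).mp hB
    rw [cls_ofBlock_blockOf G cls h2 h4 e]
    exact (mem_classesOf cls K hK _).mpr ⟨e, heK, rfl⟩
  rw [← Finset.prod_fiberwise_of_maps_to hmaps]
  apply Finset.prod_congr rfl
  intro P hP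
  obtain ⟨e₀, _, rfl⟩ := (mem_classesOf cls K hK P).mp hP
  have hKP : (K ∩ cls e₀).Finite := hK.subset Set.inter_subset_left
  have hset : (blocksOf G K hK).filter (fun B => cls_ofBlock cls B = cls e₀)
      = blocksOf G (K ∩ cls e₀) hKP := by
    ext B
    rw [Finset.mem_filter]
    exact (cls_blocksOf_inter G cls h2 h4 K hK e₀ B).symm
  rw [hset, ustProb_prod G H hfin hH (K ∩ cls e₀) (S ∩ cls e₀) hKP
    (Set.inter_subset_inter_left _ hSK)]
  apply Finset.prod_congr rfl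
  intro B hB
  obtain ⟨e, ⟨_, heP⟩, rfl⟩ := (mem_blocksOf G (K ∩ cls e₀) hKP B).mp hB
  have hBP : blockOf G e ⊆ cls e₀ := by
    rw [← h2 e₀ e heP]
    exact h4 e
  rw [Set.inter_assoc K, Set.inter_assoc S, Set.inter_eq_right.mpr hBP]

end Vale.Agent.Lib.P143
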