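import Mathlib
import Vale.Agent.Lib.P143.Defs
import Vale.Agent.Lib.P143.Graph
import Vale.Agent.Lib.P143.Split
import Vale.Agent.Lib.P143.Factor
import Vale.Agent.Lib.P143.Local
import Vale.Agent.Lib.P143.Prod
import Vale.Agent.Lib.P143.Relabel
import Vale.Agent.Lib.P143.RelabelProd
import Vale.Agent.Lib.P143.Reduce
import Vale.Agent.Lib.P143.ProdClasses

/-!
# Gluing factors for the classes of a partition of the edges into unions of blocks
-/

namespace Vale.Agent.Lib.P143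

open SimpleGraph MeasureTheory Set

variable {V : Type}

/-- The glued factor: every class of edges uses its own relabelled family of labels. -/
def PhiC (G : SimpleGraph V) (cls : Sym2 V → Set (Sym2 V))
    (Ψ : Set (Sym2 V) → (V → unitInterval) → Set (Sym2 V))
    (u : V → unitInterval) : Set (Sym2 V) :=
  {e | e ∈ G.edgeSet ∧ e ∈ Ψ (cls e) (relabel G (cls e) u)}

theorem phiC_subset (G : SimpleGraph V) (cls : Sym2 V → Set (Sym2 V))
    (Ψ : Set (Sym2 V) → (V → unitInterval) → Set (Sym2 V))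
    (u : V → unitInterval) : PhiC G cls Ψ u ⊆ G.edgeSet :=
  fun _ he => he.1

theorem measurableSet_mem_phiC (G : SimpleGraph V) (hlf : ∀ v, (G.neighborSet v).Finite)
    (cls : Sym2 V → Set (Sym2 V))
    (Ψ : Set (Sym2 V) → (V → unitInterval) → Set (Sym2 V))
    (hΨ : ∀ e ∈ G.edgeSet, ∀ f, MeasurableSet {u | f ∈ Ψ (cls e) u}) (e : Sym2 V) :
    MeasurableSet {u | e ∈ PhiC G cls Ψ u} := by
  by_cases he : e ∈ G.edgeSet
  · have hset : {u | e ∈ PhiC G cls Ψ u} =
        relabel G (cls e) ⁻¹' {w | e ∈ Ψ (cls e) w} := by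
      ext u
      simp only [PhiC, mem_ofPred_eq, mem_preimage, he, true_and]
    rw [hset]
    exact measurable_relabel G hlf (cls e) (hΨ e he e)
  · have hset : {u | e ∈ PhiC G cls Ψ u} = ∅ := by
      ext u
      simp only [mem_ofPred_eq, mem_empty_iff_false, iff_false]
      exact fun h => he (phiC_subset G cls Ψ u h)
    rw [hset]
    exact MeasurableSet.empty

theorem phiC_image (G : SimpleGraph V) (cls : Sym2 V → Set (Sym2 V))
    (Ψ : Set (Sym2 V) → (V → unitInterval) → Set (Sym2 V))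
    (e : V ≃ V) (he : ∀ a b, G.Adj (e a) (e b) ↔ G.Adj a b)
    (hcls : ∀ f ∈ G.edgeSet, cls (Sym2.map e f) = Sym2.map e '' cls f)
    (hΨ : ∀ f ∈ G.edgeSet, ∀ w : V → unitInterval,
      Ψ (Sym2.map e '' cls f) (fun v => w (e.symm v)) = Sym2.map e '' Ψ (cls f) w)
    (u : V → unitInterval) :
    PhiC G cls Ψ (fun v => u (e.symm v)) = Sym2.map e '' PhiC G cls Ψ u := by
  ext f
  have hf : f = Sym2.map e (Sym2.map e.symm f) := (sym2_map_map_symm e f).symm
  set f₀ := Sym2.map e.symm f with hf₀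
  rw [hf, (Sym2.map.injective e.injective).mem_set_image]
  unfold PhiC
  simp only [Set.mem_ofPred_eq]
  rw [mem_edgeSet_map G e he]
  constructor
  · rintro ⟨h1, h2⟩
    refine ⟨h1, ?_⟩
    rw [hcls f₀ h1, relabel_image G e he, hΨ f₀ h1] at h2
    exact (Sym2.map.injective e.injective).mem_set_image.mp h2
  · rintro ⟨h1, h2⟩
    refine ⟨h1, ?_⟩
    rw [hcls f₀ h1, relabel_image G e he, hΨ f₀ h1]
    exact (Sym2.map.injective e.injective).mem_set_image.mpr h2

/-- The law of the glued factor on a finite set of edges: the product over the classes. -/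
theorem measure_phiC (G : SimpleGraph V) (hlf : ∀ v, (G.neighborSet v).Finite)
    (cls : Sym2 V → Set (Sym2 V))
    (c1 : ∀ e, e ∈ cls e) (c2 : ∀ e f, f ∈ cls e → cls f = cls e)
    (c3 : ∀ e ∈ G.edgeSet, cls e ⊆ G.edgeSet)
    (Ψ : Set (Sym2 V) → (V → unitInterval) → Set (Sym2 V))
    (hΨ : ∀ e ∈ G.edgeSet, IsRestrFactor G (cls e) (Ψ (cls e)))
    (K S : Set (Sym2 V)) (hK : K.Finite) (hKE : K ⊆ G.edgeSet) (hSK : S ⊆ K) :
    labelMeasure V {u | PhiC G cls Ψ u ∩ K = S} =
      ∏ B ∈ classesOf cls K hK, labelMeasure V {w | Ψ B w ∩ (K ∩ B) = S ∩ B} := by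
  classical
  have hsub : ∀ B ∈ classesOf cls K hK, B ⊆ G.edgeSet := by
    intro B hB
    obtain ⟨e, he, rfl⟩ := (mem_classesOf cls K hK B).mp hB
    exact c3 e (hKE he)
  have hdisj : ∀ B ∈ classesOf cls K hK, ∀ B' ∈ classesOf cls K hK, B ≠ B' →
      Disjoint B B' := by
    intro B hB B' hB' hne
    obtain ⟨e, he, rfl⟩ := (mem_classesOf cls K hK B).mp hB
    obtain ⟨e', he', rfl⟩ := (mem_classesOf cls K hK B').mp hB'
    rw [Set.disjoint_left]
    intro g hg hg'
    apply hne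
    rw [← c2 e g hg, c2 e' g hg']
  have hfac : ∀ B ∈ classesOf cls K hK, IsRestrFactor G B (Ψ B) := by
    intro B hB
    obtain ⟨e, he, rfl⟩ := (mem_classesOf cls K hK B).mp hB
    exact hΨ e (hKE he)
  have hA : ∀ B : ↥(classesOf cls K hK),
      MeasurableSet {w | Ψ B.1 w ∩ (K ∩ B.1) = S ∩ B.1} := by
    intro B
    exact measurableSet_inter_eq (Ψ B.1) (hfac B.1 B.2).meas (K ∩ B.1) (S ∩ B.1)
      (hK.subset inter_subset_left) (inter_subset_inter_left _ hSK)
  have hloc : ∀ (B : ↥(classesOf cls K hK)) (w w' : V → unitInterval),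
      (∀ v ∈ Vb B.1, w v = w' v) →
      (w ∈ {w | Ψ B.1 w ∩ (K ∩ B.1) = S ∩ B.1} ↔ w' ∈ {w | Ψ B.1 w ∩ (K ∩ B.1) = S ∩ B.1}) := by
    intro B w w' h
    simp only [mem_ofPred_eq]
    rw [(hfac B.1 B.2).dep w w' h]
  have hset : {u | PhiC G cls Ψ u ∩ K = S} =
      {u | ∀ B : ↥(classesOf cls K hK),
        relabel G B.1 u ∈ {w | Ψ B.1 w ∩ (K ∩ B.1) = S ∩ B.1}} := by
    ext u
    simp only [mem_ofPred_eq]
    rw [inter_eq_iff_forall _ K S hSK]
    constructor
    · intro h B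
      rw [inter_eq_iff_forall _ (K ∩ B.1) (S ∩ B.1) (inter_subset_inter_left _ hSK)]
      rintro e ⟨heK, heB⟩
      obtain ⟨e', he', hBe'⟩ := (mem_classesOf cls K hK B.1).mp B.2
      have hBe : cls e = B.1 := by
        rw [← hBe'] at heB ⊢
        exact c2 e' e heB
      have h1 := h e heK
      unfold PhiC at h1
      simp only [mem_ofPred_eq, hKE heK, true_and, hBe] at h1
      rw [h1]
      exact ⟨fun hs => ⟨hs, heB⟩, fun hs => hs.1⟩
    · intro h e heK
      have hB : cls e ∈ classesOf cls K hK := (mem_classesOf cls K hK _).mpr ⟨e, heK, rfl⟩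
      have h1 := h ⟨cls e, hB⟩
      rw [inter_eq_iff_forall _ (K ∩ cls e) (S ∩ cls e)
        (inter_subset_inter_left _ hSK)] at h1
      have h2 := h1 e ⟨heK, c1 e⟩
      unfold PhiC
      simp only [mem_ofPred_eq, hKE heK, true_and]
      rw [h2]
      exact ⟨fun hs => hs.1, fun hs => ⟨hs, c1 e⟩⟩
  rw [hset, measure_relabel_prod G (classesOf cls K hK) hlf hsub hdisj _ hA hloc]
  exact Finset.prod_coe_sort (classesOf cls K hK)
    (fun B => labelMeasure V {w | Ψ B w ∩ (K ∩ B) = S ∩ B})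

/-- The glued factor has the law of the free uniform spanning forest of `G`. -/
theorem tendsto_ustProb_phiC (G : SimpleGraph V) (hlf : ∀ v, (G.neighborSet v).Finite)
    (cls : Sym2 V → Set (Sym2 V))
    (c2 : ∀ e f, f ∈ cls e → cls f = cls e)
    (c3 : ∀ e ∈ G.edgeSet, cls e ⊆ G.edgeSet)
    (c4 : ∀ e, blockOf G e ⊆ cls e)
    (Ψ : Set (Sym2 V) → (V → unitInterval) → Set (Sym2 V))
    (hΨ : ∀ e ∈ G.edgeSet, IsRestrFactor G (cls e) (Ψ (cls e)))
    (H : ℕ → G.Subgraph) (hH : IsExhaustion G H) (K : Set (Sym2 V)) (hK : K.Finite)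
    (S : Set (Sym2 V)) :
    Filter.Tendsto (fun n => ustProb G (H n) K S) Filter.atTop
      (nhds (labelMeasure V {u | PhiC G cls Ψ u ∩ K = S}).toReal) := by
  have c1 : ∀ e, e ∈ cls e := fun e => c4 e (mem_blockOf_self G e)
  refine tendsto_ustProb_of_edges G H (PhiC G cls Ψ) (phiC_subset G cls Ψ) ?_ K hK S
  intro K S hK hKE hSK
  rw [measure_phiC G hlf cls c1 c2 c3 Ψ hΨ K S hK hKE hSK, ENNReal.toReal_prod]
  have hprod : ∀ n, ustProb G (H n) K S =
      ∏ B ∈ classesOf cls K hK, ustProb G (H n) (K ∩ B) (S ∩ B) :=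
    fun n => ustProb_prod_classes G (H n) (hH.finite n) (hH.connected n) cls c2 c4 K S hK hSK
  simp only [hprod]
  apply tendsto_finsetProd
  intro B hB
  obtain ⟨e, he, rfl⟩ := (mem_classesOf cls K hK B).mp hB
  exact (hΨ e (hKE he)).law H hH (K ∩ cls e) (hK.subset inter_subset_left)
    inter_subset_right (S ∩ cls e) (inter_subset_inter_left _ hSK)

end Vale.Agent.Lib.P143
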