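import Mathlib
import Vale.Agent.Lib.P143.Defs
import Vale.Agent.Lib.P143.Defs4
import Vale.Agent.Lib.P143.Defs5
import Vale.Agent.Lib.P143.Graph
import Vale.Agent.Lib.P143.Factor
import Vale.Agent.Lib.P143.Main
import Vale.Agent.Lib.P143.Exhaust
import Vale.Agent.Lib.P143.Cayley
import Vale.Agent.Lib.P143.Reduce
import Vale.Agent.Lib.P143.ReduceP
import Vale.Agent.Lib.P143.EmbedFactor
import Vale.Agent.Lib.P143.FreeProd
import Vale.Agent.Lib.P143.FreeProdPieces

/-!
# The free uniform spanning forest as a factor of IID: closure under free products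
-/

namespace Vale.Agent.Lib.P143

open SimpleGraph MeasureTheory

variable {ι : Type} (G : ι → Type) [∀ i, Group (G i)] (S : ∀ i, Set (G i))

theorem mulLeft_adj (γ a b : Monoid.CoprodI G) :
    (cayleyGraph (freeProdGens G S)).Adj (Equiv.mulLeft γ a) (Equiv.mulLeft γ b) ↔
      (cayleyGraph (freeProdGens G S)).Adj a b :=
  (cayleyMulLeft (freeProdGens G S) γ).map_rel_iff

theorem mem_pieceEdges_mul (γ g : Monoid.CoprodI G) (i : ι) (f : Sym2 (Monoid.CoprodI G)) :
    Sym2.map (Equiv.mulLeft γ) f ∈ pieceEdges G S (γ * g) i ↔ f ∈ pieceEdges G S g i := by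
  unfold pieceEdges
  simp only [Set.mem_ofPred_eq]
  rw [mem_edgeSet_map _ (Equiv.mulLeft γ) (mulLeft_adj G S γ)]
  refine and_congr_right (fun _ => ?_)
  constructor
  · intro h z hz
    have := h (γ * z) (Sym2.mem_map.mpr ⟨z, hz, rfl⟩)
    exact (mem_range_cosetEmb_mul G S γ g i z).mp this
  · intro h z hz
    obtain ⟨a, ha, rfl⟩ := Sym2.mem_map.mp hz
    exact (mem_range_cosetEmb_mul G S γ g i a).mpr (h a ha)

theorem image_pieceEdges_mul (γ g : Monoid.CoprodI G) (i : ι) :
    Sym2.map (Equiv.mulLeft γ) '' pieceEdges G S g i = pieceEdges G S (γ * g) i := by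
  ext f
  constructor
  · rintro ⟨f', hf', rfl⟩
    exact (mem_pieceEdges_mul G S γ g i f').mpr hf'
  · intro hf
    refine ⟨Sym2.map (Equiv.mulLeft γ).symm f, ?_, sym2_map_map_symm (Equiv.mulLeft γ) f⟩
    rw [← mem_pieceEdges_mul G S γ g i, sym2_map_map_symm]
    exact hf

theorem pieceCls_mul (γ : Monoid.CoprodI G) (f : Sym2 (Monoid.CoprodI G))
    (hf : f ∈ (cayleyGraph (freeProdGens G S)).edgeSet) :
    pieceCls G S (Sym2.map (Equiv.mulLeft γ) f) =
      Sym2.map (Equiv.mulLeft γ) '' pieceCls G S f := by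
  obtain ⟨g, i, h⟩ := exists_piece_of_edge G S f hf
  rw [pieceCls_of_mem G S h, pieceCls_of_mem G S ((mem_pieceEdges_mul G S γ g i f).mpr h),
    image_pieceEdges_mul]

theorem psiPiece_mul_left (Φ : ∀ i, (G i → unitInterval) → Set (Sym2 (G i)))
    (γ g : Monoid.CoprodI G) (i : ι) (w : Monoid.CoprodI G → unitInterval) :
    PsiPiece G S Φ (γ * g) i (fun v => w ((Equiv.mulLeft γ).symm v)) =
      Sym2.map (Equiv.mulLeft γ) '' PsiPiece G S Φ g i w := by
  unfold PsiPiece
  have e1 : (fun y => w ((Equiv.mulLeft γ).symm (cosetEmb G S (γ * g) i y))) =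
      fun y => w (cosetEmb G S g i y) := by
    funext y
    rw [cosetEmb_mul]
    simp
  rw [e1, Set.image_image]
  apply Set.image_congr
  intro f _
  rw [Sym2.map_map]
  congr 1
  funext y
  simp only [Function.comp_apply, Equiv.coe_mulLeft]
  exact cosetEmb_mul G S γ g i y

theorem psiCls_mul (Φ : ∀ i, (G i → unitInterval) → Set (Sym2 (G i)))
    (hΦ : ∀ (i : ι) (γ : G i) (u : G i → unitInterval),
      Φ i (fun v => u (γ⁻¹ * v)) = Sym2.map (fun v => γ * v) '' Φ i u)
    (γ : Monoid.CoprodI G) (f : Sym2 (Monoid.CoprodI G))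
    (hf : f ∈ (cayleyGraph (freeProdGens G S)).edgeSet)
    (w : Monoid.CoprodI G → unitInterval) :
    PsiCls G S Φ (Sym2.map (Equiv.mulLeft γ) '' pieceCls G S f)
        (fun v => w ((Equiv.mulLeft γ).symm v)) =
      Sym2.map (Equiv.mulLeft γ) '' PsiCls G S Φ (pieceCls G S f) w := by
  obtain ⟨g, i, h⟩ := exists_piece_of_edge G S f hf
  have h' := (mem_pieceEdges_mul G S γ g i f).mpr h
  rw [pieceCls_of_mem G S h, image_pieceEdges_mul, psiCls_of_mem G S Φ hΦ h,
    psiCls_of_mem G S Φ hΦ h']
  exact psiPiece_mul_left G S Φ γ g i w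

/-- Every class of edges carries a factor with the law of the restriction of the free uniform
spanning forest of the Cayley graph of the free product. -/
theorem isRestrFactor_pieceCls
    (hconn : ∀ i, (cayleyGraph (S i)).Connected)
    (Φ : ∀ i, (G i → unitInterval) → Set (Sym2 (G i)))
    (hΦsub : ∀ i u, Φ i u ⊆ (cayleyGraph (S i)).edgeSet)
    (hΦmeas : ∀ i e, MeasurableSet {u | e ∈ Φ i u})
    (hΦeq : ∀ (i : ι) (γ : G i) (u : G i → unitInterval),
      Φ i (fun v => u (γ⁻¹ * v)) = Sym2.map (fun v => γ * v) '' Φ i u)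
    (hΦlaw : ∀ i, ∀ H : ℕ → (cayleyGraph (S i)).Subgraph, IsExhaustion (cayleyGraph (S i)) H →
      ∀ K : Set (Sym2 (G i)), K.Finite → ∀ T : Set (Sym2 (G i)),
        Filter.Tendsto (fun n => ustProb (cayleyGraph (S i)) (H n) K T) Filter.atTop
          (nhds ((Measure.infinitePi (fun _ : G i => (volume : Measure unitInterval)))
            {u | Φ i u ∩ K = T}).toReal))
    (e : Sym2 (Monoid.CoprodI G)) (he : e ∈ (cayleyGraph (freeProdGens G S)).edgeSet) :
    IsRestrFactor (cayleyGraph (freeProdGens G S)) (pieceCls G S e)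
      (PsiCls G S Φ (pieceCls G S e)) := by
  obtain ⟨g, i, h⟩ := exists_piece_of_edge G S e he
  rw [pieceCls_of_mem G S h, psiCls_of_mem G S Φ hΦeq h]
  obtain ⟨β, hβ1, hβ2⟩ := exists_coset_retraction G (freeProdGens G S)
    (freeProdGens_subset_range G S) g i
  exact isRestrFactor_of_embedding (cayleyGraph (S i)) (cayleyGraph (freeProdGens G S))
    (cosetEmb G S g i) (hconn i) β hβ1 hβ2 (Φ i) (hΦsub i) (hΦmeas i) (hΦlaw i)

/-- Closure under free products: if the free uniform spanning forests of the Cayley graphs of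
the groups `G i` with respect to finite generating sets `S i` are factors of IID, then so is
the free uniform spanning forest of the Cayley graph of the free product with respect to the
union of the `S i`. -/
theorem fusf_freeProduct [Finite ι] (hfin : ∀ i, (S i).Finite)
    (hgen : ∀ i, Subgroup.closure (S i) = ⊤) (h : ∀ i, FusfIsFactor (G i) (S i)) :
    FusfIsFactor (Monoid.CoprodI G) (freeProdGens G S) := by
  choose Φ hΦsub hΦmeas hΦeq hΦlaw using h
  have hlf := cayley_locallyFinite (freeProdGens G S) (freeProdGens_finite G S hfin)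
  have hconn : ∀ i, (cayleyGraph (S i)).Connected := fun i => cayley_connected (S i) (hgen i)
  have hR := isRestrFactor_pieceCls G S hconn Φ hΦsub hΦmeas hΦeq hΦlaw
  refine ⟨PhiC (cayleyGraph (freeProdGens G S)) (pieceCls G S) (PsiCls G S Φ),
    phiC_subset _ _ _, ?_, ?_, ?_⟩
  · exact measurableSet_mem_phiC _ hlf _ _ (fun e he f => (hR e he).meas f)
  · intro γ u
    exact phiC_image (cayleyGraph (freeProdGens G S)) (pieceCls G S) (PsiCls G S Φ)
      (Equiv.mulLeft γ) (mulLeft_adj G S γ) (pieceCls_mul G S γ)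
      (psiCls_mul G S Φ hΦeq γ) u
  · intro H hH K hK T
    exact tendsto_ustProb_phiC (cayleyGraph (freeProdGens G S)) hlf (pieceCls G S)
      (pieceCls_eq_of_mem G S) (pieceCls_subset_edgeSet G S) (blockOf_subset_pieceCls G S)
      (PsiCls G S Φ) hR H hH K hK T

/-- The Cayley graph of the free product is connected, locally finite, and has exhaustions. -/
theorem cayley_freeProduct_graph [Finite ι] (hfin : ∀ i, (S i).Finite)
    (hgen : ∀ i, Subgroup.closure (S i) = ⊤) :
    (cayleyGraph (freeProdGens G S)).Connected ∧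
    (∀ v, ((cayleyGraph (freeProdGens G S)).neighborSet v).Finite) ∧
    ∃ H : ℕ → (cayleyGraph (freeProdGens G S)).Subgraph,
      IsExhaustion (cayleyGraph (freeProdGens G S)) H := by
  have hlf := cayley_locallyFinite (freeProdGens G S) (freeProdGens_finite G S hfin)
  have hc := cayley_connected (freeProdGens G S) (closure_freeProdGens G S hgen)
  exact ⟨hc, hlf, exists_exhaustion _ hc hlf⟩

/-- A Cayley graph with finite blocks: the free uniform spanning forest is a factor of IID. -/
theorem fusfIsFactor_of_blocks_finite {Γ : Type} [Group Γ] (T : Set Γ) (hfin : T.Finite)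
    (hb : ∀ e ∈ (cayleyGraph T).edgeSet, (blockOf (cayleyGraph T) e).Finite) :
    FusfIsFactor Γ T := by
  obtain ⟨Φ, h1, h2, h3, h4⟩ := fusf_factor (cayleyGraph T) (cayley_locallyFinite T hfin) hb
  exact ⟨Φ, h1, h2, fun γ u => h3 (cayleyMulLeft T γ) u, h4⟩

/-- Finite groups: the uniform spanning tree of any Cayley graph is a factor of IID. -/
theorem fusfIsFactor_of_finite {Γ : Type} [Group Γ] [Finite Γ] (T : Set Γ) :
    FusfIsFactor Γ T := by
  refine fusfIsFactor_of_blocks_finite T (Set.toFinite T) (fun e _ => ?_)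
  refine Set.Finite.subset (((Set.toFinite (Set.univ : Set Γ)).prod
    (Set.toFinite (Set.univ : Set Γ))).image (fun p => s(p.1, p.2))) ?_
  intro f _
  induction f with
  | h a b => exact ⟨(a, b), ⟨Set.mem_univ a, Set.mem_univ b⟩, rfl⟩

end Vale.Agent.Lib.P143
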