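import Mathlib
import Vale.Agent.Lib.P143.Defs
import Vale.Agent.Lib.P143.Main
import Vale.Agent.Lib.P143.Iso
import Vale.Agent.Lib.P143.Loc
import Vale.Agent.Lib.P143.Exhaust

/-!
# The free uniform spanning forest as an isomorphism-invariant finitary factor of IID
-/

namespace Vale.Agent.Lib.P143

open SimpleGraph MeasureTheory Set

/-- One rule `Φ`, defined for all graphs at once, commuting with all graph isomorphisms and
finitary, whose law on every locally finite graph with finite blocks is the free uniform
spanning forest. -/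
theorem fusf_graph_factor :
    (∀ (V : Type) (G : SimpleGraph V), G.Connected → (∀ v, (G.neighborSet v).Finite) →
      ∃ H : ℕ → G.Subgraph, IsExhaustion G H) ∧
    ∃ Φ : ∀ (V : Type) (G : SimpleGraph V), (V → unitInterval) → Set (Sym2 V),
      (∀ (V V' : Type) (G : SimpleGraph V) (G' : SimpleGraph V') (φ : G ≃g G')
        (u : V → unitInterval), Φ V' G' (fun v => u (φ.symm v)) = Sym2.map φ '' Φ V G u) ∧
      (∀ (V : Type) (G : SimpleGraph V) (u : V → unitInterval), Φ V G u ⊆ G.edgeSet) ∧
      (∀ (V : Type) (G : SimpleGraph V) (e : Sym2 V) (u u' : V → unitInterval),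
        (∀ v, (∃ f ∈ blockOf G e, ∃ w ∈ f, v = w ∨ G.Adj w v) → u v = u' v) →
          (e ∈ Φ V G u ↔ e ∈ Φ V G u')) ∧
      ∀ (V : Type) (G : SimpleGraph V), (∀ v, (G.neighborSet v).Finite) →
        (∀ e ∈ G.edgeSet, (blockOf G e).Finite) →
          (∀ e, MeasurableSet {u | e ∈ Φ V G u}) ∧
          ∀ H : ℕ → G.Subgraph, IsExhaustion G H → ∀ K : Set (Sym2 V), K.Finite →
            ∀ S : Set (Sym2 V),
              Filter.Tendsto (fun n => ustProb G (H n) K S) Filter.atTop
                (nhds ((Measure.infinitePi (fun _ : V => (volume : Measure unitInterval)))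
                  {u | Φ V G u ∩ K = S}).toReal) :=
  ⟨fun _ G hc hlf => exists_exhaustion G hc hlf,
    fun _ G => Phi G,
    fun _ _ G G' φ u => phi_iso G G' φ u,
    fun _ G u => phi_subset G u,
    fun _ G e u u' h => phi_local G e u u' h,
    fun _ G hlf hblocks => ⟨measurableSet_mem_phi G hlf hblocks,
      fun H hH K hK S => tendsto_ustProb G hlf hblocks H hH K hK S⟩⟩

end Vale.Agent.Lib.P143
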