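import Mathlib
import Vale.Agent.Lib.P143.Defs
import Vale.Agent.Lib.P143.Defs2
import Vale.Agent.Lib.P143.Graph
import Vale.Agent.Lib.P143.Split
import Vale.Agent.Lib.P143.Factor
import Vale.Agent.Lib.P143.Reduce
import Vale.Agent.Lib.P143.FinBlock
import Vale.Agent.Lib.P143.Trace
import Vale.Agent.Lib.P143.Exhaust

/-!
# Reduction to the infinite blocks: the free uniform spanning forest of `G` is a factor of IID
as soon as the free uniform spanning forests of its infinite blocks are, equivariantly
-/

namespace Vale.Agent.Lib.P143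

open SimpleGraph MeasureTheory Set

variable {V : Type}

open Classical in
/-- The given family of block factors, completed by the canonical factors of the finite
blocks. -/
noncomputable def mixPsi (Ψ : Set (Sym2 V) → (V → unitInterval) → Set (Sym2 V))
    (B : Set (Sym2 V)) : (V → unitInterval) → Set (Sym2 V) :=
  if B.Finite then Phi (fromEdgeSet B) else Ψ B

theorem isRestrFactor_mixPsi (G : SimpleGraph V) (hlf : ∀ v, (G.neighborSet v).Finite)
    (Ψ : Set (Sym2 V) → (V → unitInterval) → Set (Sym2 V))
    (hΨ : ∀ e ∈ G.edgeSet, ¬ (blockOf G e).Finite →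
      IsBlockFactor G (blockOf G e) (Ψ (blockOf G e)))
    (e : Sym2 V) (he : e ∈ G.edgeSet) :
    IsRestrFactor G (blockOf G e) (mixPsi Ψ (blockOf G e)) := by
  unfold mixPsi
  by_cases hfin : (blockOf G e).Finite
  · rw [if_pos hfin]
    exact isRestrFactor_fin G hlf e he hfin
  · rw [if_neg hfin]
    exact isRestrFactor_of_isBlockFactor G e he _ (hΨ e he hfin)

theorem mixPsi_image (G : SimpleGraph V)
    (Ψ : Set (Sym2 V) → (V → unitInterval) → Set (Sym2 V)) (γ : G ≃g G)
    (hγ : ∀ e ∈ G.edgeSet, ¬ (blockOf G e).Finite → ∀ u : V → unitInterval,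
      Ψ (Sym2.map γ '' blockOf G e) (fun v => u (γ.symm v)) = Sym2.map γ '' Ψ (blockOf G e) u)
    (f : Sym2 V) (hf : f ∈ G.edgeSet) (w : V → unitInterval) :
    mixPsi Ψ (Sym2.map γ '' blockOf G f) (fun v => w (γ.symm v)) =
      Sym2.map γ '' mixPsi Ψ (blockOf G f) w := by
  unfold mixPsi
  by_cases hfin : (blockOf G f).Finite
  · rw [if_pos hfin, if_pos (hfin.image _)]
    exact phi_fromEdgeSet_image γ.toEquiv (blockOf G f) w
  · have hinf : ¬ (Sym2.map γ '' blockOf G f).Finite := by
      intro h
      exact hfin ((Set.finite_image_iff (Sym2.map.injective γ.injective).injOn).mp h)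
    rw [if_neg hfin, if_neg hinf]
    exact hγ f hf hfin w

/-- **Reduction to the infinite blocks.**  Let `G` be locally finite and let `A` be a set of
automorphisms of `G`.  Suppose that for every infinite block `B` of `G` the free uniform
spanning forest of `B` is a factor `Ψ B` of IID labels on the vertices of `B`, and that the
family `Ψ` is compatible with the automorphisms in `A`.  Then the free uniform spanning forest
of `G` is an `A`-equivariant factor of IID. -/
theorem fusf_block_reduction (G : SimpleGraph V) (hlf : ∀ v, (G.neighborSet v).Finite)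
    (A : Set (G ≃g G)) (Ψ : Set (Sym2 V) → (V → unitInterval) → Set (Sym2 V))
    (hΨ : ∀ e ∈ G.edgeSet, ¬ (blockOf G e).Finite →
      IsBlockFactor G (blockOf G e) (Ψ (blockOf G e)))
    (hequiv : ∀ γ ∈ A, ∀ e ∈ G.edgeSet, ¬ (blockOf G e).Finite → ∀ u : V → unitInterval,
      Ψ (Sym2.map γ '' blockOf G e) (fun v => u (γ.symm v)) =
        Sym2.map γ '' Ψ (blockOf G e) u) :
    (G.Connected → ∃ H : ℕ → G.Subgraph, IsExhaustion G H) ∧
    ∃ Φ : (V → unitInterval) → Set (Sym2 V),
      (∀ u, Φ u ⊆ G.edgeSet) ∧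
      (∀ e, MeasurableSet {u | e ∈ Φ u}) ∧
      (∀ γ ∈ A, ∀ u : V → unitInterval, Φ (fun v => u (γ.symm v)) = Sym2.map γ '' Φ u) ∧
      ∀ H : ℕ → G.Subgraph, IsExhaustion G H → ∀ K : Set (Sym2 V), K.Finite →
        ∀ S : Set (Sym2 V),
          Filter.Tendsto (fun n => ustProb G (H n) K S) Filter.atTop
            (nhds ((Measure.infinitePi (fun _ : V => (volume : Measure unitInterval)))
              {u | Φ u ∩ K = S}).toReal) := by
  have hfac := isRestrFactor_mixPsi G hlf Ψ hΨ
  refine ⟨fun hc => exists_exhaustion G hc hlf, PhiR G (mixPsi Ψ), phiR_subset G _, ?_, ?_, ?_⟩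
  · exact measurableSet_mem_phiR G hlf _ (fun e he f => (hfac e he).meas f)
  · intro γ hγ u
    exact phiR_equivariant G _ γ (mixPsi_image G Ψ γ (hequiv γ hγ)) u
  · intro H hH K hK S
    exact tendsto_ustProb_phiR G hlf _ hfac H hH K hK S

end Vale.Agent.Lib.P143
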